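import Vale.Agent.P315.Q.Known

/-! P315 (helper514), row G-STRAT: `known` and `cval` of C/Alg.lean as list functions for ANY
geometry `P : Par` (abstract labels), given by Boolean tests for `P.adm` and `P.cov` and the place
`idx a p q` of the pair `(p, q)` in the answer of a cell with label `a`. -/

set_option autoImplicit false

namespace Vale.Agent.P315.Q

open Vale.Agent.Lib.PolyTime Vale.Agent.P315.C

/-- Row cost from the known cells: the first known cell of the row that covers the start. -/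
def knownG (cv : ℕ → ℕ → Bool) (idx : ℕ → ℕ → ℕ → ℕ) (vis : ℕ → ℕ → ℕ → ℕ) (T : KT)
    (i p q : ℕ) : ℕ :=
  (T.find? fun c => decide (c.1.1 = i) && cv c.1.2 p).elim (vis i p q)
    fun c => c.2.getD (idx c.1.2 p q) 0

/-- All answers are correct on the admissible mesh steps that start in the cell. -/
def KT.OkG (P : Par) (idx : ℕ → ℕ → ℕ → ℕ) (hid : Leaf) (T : KT) : Prop :=
  ∀ c ∈ T, ∀ p q, P.μ ∣ p → P.μ ∣ q → p ≤ P.B → q ≤ P.B → P.adm p q → P.cov c.1.2 p →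
    c.2.getD (idx c.1.2 p q) 0 = hid c.1.1 p q

theorem knownG_eq {P : Par} {cv : ℕ → ℕ → Bool} (hcv : ∀ a p, cv a p = true ↔ P.cov a p)
    {idx : ℕ → ℕ → ℕ → ℕ} (vis hid : Leaf) {T : KT} (hT : T.OkG P idx hid) (i : ℕ) {p q : ℕ}
    (hp : P.μ ∣ p) (hq : P.μ ∣ q) (hpB : p ≤ P.B) (hqB : q ≤ P.B) (had : P.adm p q) :
    knownG cv idx vis T i p q = known P vis hid T.keys i p q := by
  have hiff : (∃ a, (i, a) ∈ T.keys ∧ P.cov a p) ↔ ∃ c ∈ T, c.1.1 = i ∧ P.cov c.1.2 p := by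
    unfold KT.keys
    simp only [List.mem_toFinset, List.mem_map]
    constructor
    · rintro ⟨a, ⟨c, hc, hc2⟩, ha⟩
      exact ⟨c, hc, by rw [hc2], by rw [hc2]; exact ha⟩
    · rintro ⟨c, hc, hc2, ha⟩
      exact ⟨c.1.2, ⟨c, hc, by rw [← hc2]⟩, ha⟩
  unfold knownG
  rcases hf : T.find? (fun c => decide (c.1.1 = i) && cv c.1.2 p) with _ | c
  · have hno : ¬ ∃ a, (i, a) ∈ T.keys ∧ P.cov a p := by
      rw [hiff]
      rintro ⟨c, hc, hc2, ha⟩
      have := List.find?_eq_none.mp hf c hc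
      simp [hc2, (hcv _ _).mpr ha] at this
    unfold known
    rw [if_neg hno, hf]
    rfl
  · have hc := List.mem_of_find?_eq_some hf
    have hc2 := List.find?_some hf
    simp only [Bool.and_eq_true, decide_eq_true_eq] at hc2
    have hcov := (hcv _ _).mp hc2.2
    have hyes : ∃ a, (i, a) ∈ T.keys ∧ P.cov a p := hiff.mpr ⟨c, hc, hc2.1, hcov⟩
    unfold known
    rw [if_pos hyes, hf]
    show c.2.getD (idx c.1.2 p q) 0 = _
    rw [hT c hc p q hp hq hpB hqB had hcov, hc2.1]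

/-- `cval` from one start: slab `i` of level `j` (`MJ = M ^ j` rows). -/
def cvalGF (n μ sh : ℕ) (ad : ℕ → ℕ → Bool) (cv : ℕ → ℕ → Bool) (idx : ℕ → ℕ → ℕ → ℕ)
    (vis : ℕ → ℕ → ℕ → ℕ) (T : KT) (MJ i u : ℕ) : List ℕ :=
  bestF n μ sh ad (knownG cv idx vis T) (i * MJ) MJ u

/-- `cval`, all pairs of mesh positions. -/
def cvalGL (n μ sh : ℕ) (ad : ℕ → ℕ → Bool) (cv : ℕ → ℕ → Bool) (idx : ℕ → ℕ → ℕ → ℕ)
    (vis : ℕ → ℕ → ℕ → ℕ) (T : KT) (MJ i : ℕ) : List (List ℕ) :=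
  bestL n μ sh ad (knownG cv idx vis T) (i * MJ) MJ

/-- `cval`, window. -/
def cvalGW (n μ sh : ℕ) (ad : ℕ → ℕ → Bool) (cv : ℕ → ℕ → Bool) (idx : ℕ → ℕ → ℕ → ℕ)
    (vis : ℕ → ℕ → ℕ → ℕ) (T : KT) (MJ i lo na : ℕ) : List (List ℕ) :=
  bestW n μ sh ad (knownG cv idx vis T) (i * MJ) MJ lo na

section
variable (P : Par) (hμ : 0 < P.μ) {ad : ℕ → ℕ → Bool} (had : ∀ p q, ad p q = true ↔ P.adm p q)
  {cv : ℕ → ℕ → Bool} (hcv : ∀ a p, cv a p = true ↔ P.cov a p) {idx : ℕ → ℕ → ℕ → ℕ}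
  (vis hid : Leaf) {T : KT} (hT : T.OkG P idx hid)
include hμ had hcv hT

theorem knownG_congr (j i : ℕ) :
    ∀ i' < P.M ^ j, ∀ p < P.B / P.μ + 1, ∀ q < P.B / P.μ + 1, ad (P.μ * p) (P.μ * q) = true →
      knownG cv idx vis T (i * P.M ^ j + i') (P.μ * p) (P.μ * q) =
      known P vis hid T.keys (i * P.M ^ j + i') (P.μ * p) (P.μ * q) := by
  intro i' _ p hp q hq h
  have hle : ∀ p, p < P.B / P.μ + 1 → P.μ * p ≤ P.B := by
    intro p hp
    rwa [Nat.lt_succ_iff, Nat.le_div_iff_mul_le hμ, mul_comm] at hp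
  exact knownG_eq hcv vis hid hT _ (dvd_mul_right _ _) (dvd_mul_right _ _) (hle p hp) (hle q hq)
    ((had _ _).mp h)

theorem cvalGF_eq (j i u : ℕ) {v : ℕ} (hv : P.μ * v ≤ P.B) :
    (cvalGF (P.B / P.μ + 1) P.μ P.sh ad cv idx vis T (P.M ^ j) i u).getD v 0 =
      cval P vis hid T.keys j i (P.μ * u) (P.μ * v) := by
  unfold cvalGF
  rw [bestF_congr (knownG_congr P hμ had hcv vis hid hT j i)]
  exact bestF_eq P hμ ad had _ _ _ u hv

theorem cvalGL_eq (j i : ℕ) {u v : ℕ} (hu : P.μ * u ≤ P.B) (hv : P.μ * v ≤ P.B) :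
    H763.ent2 (cvalGL (P.B / P.μ + 1) P.μ P.sh ad cv idx vis T (P.M ^ j) i) u v =
      cval P vis hid T.keys j i (P.μ * u) (P.μ * v) := by
  unfold cvalGL
  rw [bestL_congr (knownG_congr P hμ had hcv vis hid hT j i)]
  exact bestL_eq P hμ ad had _ _ _ hu hv

theorem cvalGW_eq (j i lo : ℕ) {na a b : ℕ} (ha : a < na) (hb : b < na)
    (hv : P.μ * (lo + b) ≤ P.B) :
    H763.ent2 (cvalGW (P.B / P.μ + 1) P.μ P.sh ad cv idx vis T (P.M ^ j) i lo na) a b =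
      cval P vis hid T.keys j i (P.μ * (lo + a)) (P.μ * (lo + b)) := by
  unfold cvalGW
  rw [bestW_congr (knownG_congr P hμ had hcv vis hid hT j i)]
  exact bestW_eq P hμ ad had _ _ _ lo ha hb hv

end

/-- Only the entries of the answers on the cells of the slab matter: change of the answers. -/
theorem knownG_map_congr {cv : ℕ → ℕ → Bool} {idx : ℕ → ℕ → ℕ → ℕ} {vis : ℕ → ℕ → ℕ → ℕ}
    {R : List (ℕ × ℕ)} {h h' : ℕ × ℕ → List ℕ} {i : ℕ}
    (hh : ∀ c ∈ R, c.1 = i → h c = h' c) (p q : ℕ) :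
    knownG cv idx vis (R.map fun c => (c, h c)) i p q =
      knownG cv idx vis (R.map fun c => (c, h' c)) i p q := by
  unfold knownG
  rw [List.find?_map, List.find?_map]
  rcases hf : R.find? ((fun c : (ℕ × ℕ) × List ℕ => decide (c.1.1 = i) && cv c.1.2 p) ∘
    fun c => (c, h c)) with _ | c
  · have hf' : R.find? ((fun c : (ℕ × ℕ) × List ℕ => decide (c.1.1 = i) && cv c.1.2 p) ∘
      fun c => (c, h' c)) = none := hf
    rw [hf']
    rfl
  · have hf' : R.find? ((fun c : (ℕ × ℕ) × List ℕ => decide (c.1.1 = i) && cv c.1.2 p) ∘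
      fun c => (c, h' c)) = some c := hf
    have hc := List.mem_of_find?_eq_some hf
    have hc2 := List.find?_some hf
    simp only [Function.comp_apply, Bool.and_eq_true, decide_eq_true_eq] at hc2
    rw [hf']
    show (h c).getD _ 0 = (h' c).getD _ 0
    rw [hh c hc hc2.1]

/-! ### Polynomial time -/

variable {A : Set Word} {α : Type*} [Enc α]

theorem pt_knownG {i p q : α → ℕ} {cv : α → ℕ → ℕ → Bool} {idx : α → ℕ → ℕ → ℕ → ℕ}
    {vis : α → ℕ → ℕ → ℕ → ℕ} {T : α → KT} (hT : PT A T) (hi : PT A i) (hp : PT A p)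
    (hq : PT A q) (hcv : PT A (fun x : α × ℕ × ℕ => cv x.1 x.2.1 x.2.2))
    (hidx : PT A (fun x : α × ℕ × ℕ × ℕ => idx x.1 x.2.1 x.2.2.1 x.2.2.2))
    (hvis : PT A (fun a => vis a (i a) (p a) (q a))) :
    PT A (fun a => knownG (cv a) (idx a) (vis a) (T a) (i a) (p a) (q a)) := by
  have h1 : PT A (fun a => (T a).find? fun c => decide (c.1.1 = i a) && cv a c.1.2 (p a)) := by
    refine PT.find? (f := fun a (c : (ℕ × ℕ) × List ℕ) =>
      decide (c.1.1 = i a) && cv a c.1.2 (p a)) hT ?_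
    exact (PT.eqNat PT.snd'.fst.fst (hi.comp PT.fst')).and
      (hcv.comp (PT.fst'.pair (PT.snd'.fst.snd.pair (hp.comp PT.fst'))))
  refine (PT.optCase h1 hvis (g := fun a (c : (ℕ × ℕ) × List ℕ) =>
    c.2.getD (idx a c.1.2 (p a) (q a)) 0) ?_).congr fun a => ?_
  · exact PT.snd'.snd.getD (hidx.comp (PT.fst'.pair (PT.snd'.fst.snd.pair
      ((hp.comp PT.fst').pair (hq.comp PT.fst'))))) (PT.const 0)
  · unfold knownG
    cases (T a).find? fun c => decide (c.1.1 = i a) && cv a c.1.2 (p a) <;> rfl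

theorem pt_knownG' {cv : α → ℕ → ℕ → Bool} {idx : α → ℕ → ℕ → ℕ → ℕ}
    {vis : α → ℕ → ℕ → ℕ → ℕ} {T : α → KT} (hT : PT A T)
    (hcv : PT A (fun x : α × ℕ × ℕ => cv x.1 x.2.1 x.2.2))
    (hidx : PT A (fun x : α × ℕ × ℕ × ℕ => idx x.1 x.2.1 x.2.2.1 x.2.2.2))
    (hvis : PT A (fun x : α × ℕ × ℕ × ℕ => vis x.1 x.2.1 x.2.2.1 x.2.2.2)) :
    PT A (fun x : α × ℕ × ℕ × ℕ =>
      knownG (cv x.1) (idx x.1) (vis x.1) (T x.1) x.2.1 x.2.2.1 x.2.2.2) := by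
  refine pt_knownG (α := α × ℕ × ℕ × ℕ) (cv := fun x => cv x.1) (idx := fun x => idx x.1)
    (vis := fun x => vis x.1) (hT.comp PT.fst') PT.snd'.fst PT.snd'.snd.fst PT.snd'.snd.snd
    ?_ ?_ hvis
  · exact hcv.comp (PT.fst'.fst.pair PT.snd')
  · exact hidx.comp (PT.fst'.fst.pair PT.snd')

section
variable {n μ sh MJ i : α → ℕ} {ad cv : α → ℕ → ℕ → Bool} {idx : α → ℕ → ℕ → ℕ → ℕ}
  {vis : α → ℕ → ℕ → ℕ → ℕ} {T : α → KT} (hn : PT A n) (hnb : PBd n) (hμ : PT A μ)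
  (hsh : PT A sh) (had : PT A (fun x : α × ℕ × ℕ => ad x.1 x.2.1 x.2.2))
  (hcv : PT A (fun x : α × ℕ × ℕ => cv x.1 x.2.1 x.2.2))
  (hidx : PT A (fun x : α × ℕ × ℕ × ℕ => idx x.1 x.2.1 x.2.2.1 x.2.2.2))
  (hvis : PT A (fun x : α × ℕ × ℕ × ℕ => vis x.1 x.2.1 x.2.2.1 x.2.2.2))
  (hT : PT A T) (hMJ : PT A MJ) (hMJb : PBd MJ) (hi : PT A i)
include hn hnb hμ hsh had hcv hidx hvis hT hMJ hMJb hi

theorem pt_cvalGF {u : α → ℕ} (hu : PT A u) :
    PT A (fun a => cvalGF (n a) (μ a) (sh a) (ad a) (cv a) (idx a) (vis a) (T a) (MJ a) (i a)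
      (u a)) :=
  pt_bestF (f := fun a => knownG (cv a) (idx a) (vis a) (T a)) hn hnb hμ hsh (hi.mul hMJ) hMJ
    hMJb hu had (pt_knownG' hT hcv hidx hvis)

theorem pt_cvalGL :
    PT A (fun a => cvalGL (n a) (μ a) (sh a) (ad a) (cv a) (idx a) (vis a) (T a) (MJ a)
      (i a)) :=
  pt_bestL (f := fun a => knownG (cv a) (idx a) (vis a) (T a)) hn hnb hμ hsh (hi.mul hMJ) hMJ
    hMJb had (pt_knownG' hT hcv hidx hvis)

theorem pt_cvalGW {lo na : α → ℕ} (hlo : PT A lo) (hna : PT A na) (hnab : PBd na) :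
    PT A (fun a => cvalGW (n a) (μ a) (sh a) (ad a) (cv a) (idx a) (vis a) (T a) (MJ a) (i a)
      (lo a) (na a)) :=
  pt_bestW (f := fun a => knownG (cv a) (idx a) (vis a) (T a)) hn hnb hμ hsh (hi.mul hMJ) hMJ
    hMJb hlo hna hnab had (pt_knownG' hT hcv hidx hvis)

end

end Vale.Agent.P315.Q
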