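import Vale.Agent.P315.Q.PairPT
import Vale.Agent.P315.Q.KnownG
import Vale.Agent.P315.H95.Label
import Vale.Agent.P315.H207.Causal

/-! P315 (helper514), Milestone 2, row M2-STRAT: the labels of `H95/Label.lean` as lists.

* `kidsL m Kc a`       : the labels of the children (`mem_kidsL`: = `H95.kids m Kc a`);
* `descL m Kc e a`     : the labels `e` levels below (`mem_descL`: = `Par.desc`);
* `kidsC U ..`, `descC U BB ..` : the same, ranges and exponents clamped by the clock `U`, sizes by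
                         the budget `BB`; polynomial time; equal to the above for valid labels;
* `VLab m w0 Kc kr n j a` : valid labels; closed under `kids` and `desc`; `VLab.lt`: codes are
                         smaller than `labB ..`;
* `cvB w0 a p`         : Boolean test for `InBox` at level `0` (no clock needed); `cvB_iff`;
* `pt_..` / `PT_..`    : polynomial time. -/

set_option autoImplicit false

namespace Vale.Agent.P315.Q

open Vale.Agent.Lib.PolyTime Vale.Agent.P315.C Vale.Agent.P315.H95 Vale.Agent.P315.H155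

/-! ### Children -/

/-- Children of a label. -/
def kidsL (m Kc a : ℕ) : List ℕ :=
  (List.range (Kc + 1)).flatMap fun κ' => if κ' ≤ cl a + m then
    (List.range (2 * 2 ^ (cl a + m - κ') - 1)).map fun t =>
      enc κ' (bx a * 2 ^ (cl a + m - κ') + t) (ac a + nd κ' (cl a))
  else []

theorem mem_kidsL {m Kc a a' : ℕ} : a' ∈ kidsL m Kc a ↔ a' ∈ H95.kids m Kc a := by
  rw [H95.mem_kids]
  unfold kidsL
  simp only [List.mem_flatMap, List.mem_range]
  constructor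
  · rintro ⟨κ', hκ, h⟩
    split_ifs at h with h2
    · simp only [List.mem_map, List.mem_range] at h
      obtain ⟨t, ht, rfl⟩ := h
      simp only [cl_enc, bx_enc, ac_enc]
      have hR : 1 ≤ 2 ^ (cl a + m - κ') := Nat.one_le_two_pow
      refine ⟨by omega, h2, by omega, ?_, rfl⟩
      rw [add_mul]
      omega
    · simp at h
  · rintro ⟨h1, h2, h3, h4, h5⟩
    refine ⟨cl a', by omega, ?_⟩
    rw [if_pos h2]
    simp only [List.mem_map, List.mem_range]
    have hR : 1 ≤ 2 ^ (cl a + m - cl a') := Nat.one_le_two_pow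
    rw [add_mul] at h4
    refine ⟨bx a' - bx a * 2 ^ (cl a + m - cl a'), by omega, ?_⟩
    rw [Nat.add_sub_cancel' h3]
    have h6 : ac a + nd (cl a') (cl a) = ac a' := h5.symm
    rw [h6, enc_eta]

theorem kidsL_toFinset (m Kc a : ℕ) : (kidsL m Kc a).toFinset = H95.kids m Kc a := by
  ext x; rw [List.mem_toFinset, mem_kidsL]

/-- Clamped version. -/
def kidsC (U m Kc a : ℕ) : List ℕ :=
  (List.range (min (Kc + 1) U)).flatMap fun κ' => if κ' ≤ cl a + m then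
    (List.range (min (2 * 2 ^ min (cl a + m - κ') U - 1) U)).map fun t =>
      enc κ' (bx a * 2 ^ min (cl a + m - κ') U + t) (ac a + nd κ' (cl a))
  else []

theorem kidsC_eq {U m Kc a : ℕ} (h1 : Kc < U) (h2 : 2 * 2 ^ (cl a + m) ≤ U) :
    kidsC U m Kc a = kidsL m Kc a := by
  have h3 : cl a + m < 2 ^ (cl a + m) := Nat.lt_two_pow_self
  unfold kidsC kidsL
  rw [min_eq_left (by omega)]
  congr 1
  funext κ'
  have h4 : cl a + m - κ' ≤ cl a + m := Nat.sub_le _ _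
  have h5 : 2 ^ (cl a + m - κ') ≤ 2 ^ (cl a + m) := Nat.pow_le_pow_right (by norm_num) h4
  rw [min_eq_left (show cl a + m - κ' ≤ U by omega),
    min_eq_left (show 2 * 2 ^ (cl a + m - κ') - 1 ≤ U by omega)]

/-! ### Descendants -/

/-- Labels `e` levels below. -/
def descL (m Kc a : ℕ) : ℕ → List ℕ
  | 0 => [a]
  | e + 1 => H207.nub ((descL m Kc a e).flatMap (kidsL m Kc))

theorem descL_succ (m Kc a e : ℕ) :
    descL m Kc a (e + 1) = H207.nub ((descL m Kc a e).flatMap (kidsL m Kc)) := rfl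

theorem nodup_descL (m Kc a e : ℕ) : (descL m Kc a e).Nodup := by
  cases e with
  | zero => simp [descL]
  | succ e => exact H207.nodup_nub _

/-- `desc`, one level more at the bottom. -/
theorem mem_desc_succ (P : Par) (hk : ∀ j j' a, P.kids j a = P.kids j' a) (e : ℕ) :
    ∀ j a x, x ∈ P.desc j (e + 1) a ↔ ∃ y ∈ P.desc j e a, x ∈ P.kids 0 y := by
  induction e with
  | zero =>
    intro j a x
    show x ∈ (P.kids j a).biUnion _ ↔ _
    simp only [Par.desc, Finset.mem_biUnion, Finset.mem_singleton, exists_eq_left]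
    constructor
    · rintro ⟨a', h, rfl⟩; rw [hk 0 j]; exact h
    · intro h; exact ⟨x, by rw [hk j 0]; exact h, rfl⟩
  | succ e ih =>
    intro j a x
    constructor
    · intro h
      obtain ⟨a', h1, h2⟩ := Finset.mem_biUnion.1 (show x ∈ (P.kids j a).biUnion
        fun a' => P.desc (j - 1) (e + 1) a' from h)
      obtain ⟨y, h3, h4⟩ := (ih (j - 1) a' x).1 h2
      exact ⟨y, Finset.mem_biUnion.2 ⟨a', h1, h3⟩, h4⟩
    · rintro ⟨y, h3, h4⟩
      obtain ⟨a', h1, h2⟩ := Finset.mem_biUnion.1 (show y ∈ (P.kids j a).biUnion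
        fun a' => P.desc (j - 1) e a' from h3)
      exact Finset.mem_biUnion.2 ⟨a', h1, (ih (j - 1) a' x).2 ⟨y, h2, h4⟩⟩

theorem mem_descL {m ℓ μ B w0 J S H Kc D1 : ℕ} (j a e : ℕ) :
    ∀ x, x ∈ descL m Kc a e ↔ x ∈ (clsPar m ℓ μ B w0 J S H Kc D1).desc j e a := by
  induction e with
  | zero => intro x; simp [descL, Par.desc]
  | succ e ih =>
    intro x
    rw [mem_desc_succ _ (fun _ _ _ => rfl), descL_succ, H207.mem_nub, List.mem_flatMap]
    refine exists_congr fun y => ?_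
    rw [ih y, mem_kidsL]
    rfl

theorem mem_descL_succ {m Kc a e x : ℕ} :
    x ∈ descL m Kc a (e + 1) ↔ ∃ y ∈ descL m Kc a e, x ∈ H95.kids m Kc y := by
  rw [descL_succ, H207.mem_nub, List.mem_flatMap]
  exact exists_congr fun y => and_congr_right fun _ => mem_kidsL

/-- Clamped version. -/
def descC (U BB m Kc a e : ℕ) : List ℕ :=
  natRecC BB (min e U) (fun _ l => H207.nub (l.flatMap (kidsC U m Kc))) [a]

/-! ### Valid labels -/

/-- Valid labels of level `j`: the root has the label `enc kr 0 0` and the level `n`. -/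
def VLab (m w0 Kc kr n j a : ℕ) : Prop :=
  cl a ≤ Kc ∧ (bx a + 2) * wd m w0 j (cl a) ≤ 2 * wd m w0 n kr ∧ ac a ≤ (n - j) * Kc

theorem vlab_root {m w0 Kc kr n : ℕ} (h : kr ≤ Kc) : VLab m w0 Kc kr n n (enc kr 0 0) := by
  unfold VLab
  simp only [cl_enc, bx_enc, ac_enc]
  exact ⟨h, by rw [zero_add], Nat.zero_le _⟩

theorem VLab.kid {m w0 Kc kr n j a a' : ℕ} (h : VLab m w0 Kc kr n (j + 1) a) (hj : j < n)
    (ha : a' ∈ H95.kids m Kc a) : VLab m w0 Kc kr n j a' := by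
  obtain ⟨h1, h2, h3⟩ := h
  obtain ⟨k1, k2, k3, k4, k5⟩ := H95.mem_kids.1 ha
  refine ⟨k1, ?_, ?_⟩
  · refine le_trans ?_ h2
    rw [wd_succ (j := j) (w0 := w0) k2, ← mul_assoc]
    exact Nat.mul_le_mul_right _ k4
  · have h4 : Nat.dist (cl a') (cl a) ≤ Kc := by
      show (cl a' - cl a) + (cl a - cl a') ≤ Kc
      omega
    obtain ⟨d, hd⟩ : ∃ d, n - j = d + 1 := ⟨n - j - 1, by omega⟩
    have h5 : n - (j + 1) = d := by omega
    rw [h5] at h3
    rw [k5, hd, add_mul, one_mul]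
    omega

theorem VLab.desc {m w0 Kc kr n : ℕ} (e : ℕ) : ∀ {j a x : ℕ}, VLab m w0 Kc kr n (j + e) a →
    j + e ≤ n → x ∈ descL m Kc a e → VLab m w0 Kc kr n j x := by
  induction e with
  | zero =>
    intro j a x h _ hx
    have : x = a := by simpa [descL] using hx
    rw [this]; exact h
  | succ e ih =>
    intro j a x h hj hx
    obtain ⟨y, h1, h2⟩ := mem_descL_succ.1 hx
    have h3 : VLab m w0 Kc kr n (j + 1) y := ih (j := j + 1) (a := a)
      (by rwa [show j + 1 + e = j + (e + 1) by omega]) (by omega) h1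
    exact h3.kid (by omega) h2

/-- Bound for the codes of valid labels. -/
def labB (m Kc kr n : ℕ) : ℕ := ((Kc + 2 * (2 ^ kr * (2 ^ m) ^ n) + n * Kc + 1) ^ 2 + 1) ^ 2

theorem enc_lt {κ k c X : ℕ} (h1 : κ ≤ X) (h2 : k ≤ X) (h3 : c ≤ X) :
    enc κ k c < ((X + 1) ^ 2 + 1) ^ 2 := by
  have h4 : Nat.pair k c < (X + 1) ^ 2 :=
    (Nat.pair_lt_max_add_one_sq k c).trans_le (Nat.pow_le_pow_left (by omega) 2)
  have h5 : max κ (Nat.pair k c) + 1 ≤ (X + 1) ^ 2 + 1 := by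
    have : X ≤ (X + 1) ^ 2 := by nlinarith
    omega
  exact (Nat.pair_lt_max_add_one_sq κ _).trans_le (Nat.pow_le_pow_left h5 2)

theorem VLab.lt {m w0 Kc kr n j a : ℕ} (hw : 0 < w0) (h : VLab m w0 Kc kr n j a) :
    a < labB m Kc kr n := by
  obtain ⟨h1, h2, h3⟩ := h
  rw [← enc_eta a]
  have hb : bx a ≤ 2 * (2 ^ kr * (2 ^ m) ^ n) := by
    unfold wd at h2
    have h4 : (bx a + 2) * (2 ^ cl a * (w0 * (2 ^ m) ^ j)) =
        (bx a + 2) * (2 ^ cl a * (2 ^ m) ^ j) * w0 := by ring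
    have h5 : 2 * (2 ^ kr * (w0 * (2 ^ m) ^ n)) = 2 * (2 ^ kr * (2 ^ m) ^ n) * w0 := by ring
    rw [h4, h5] at h2
    have h6 := Nat.le_of_mul_le_mul_right h2 hw
    have h7 : bx a + 2 ≤ (bx a + 2) * (2 ^ cl a * (2 ^ m) ^ j) :=
      Nat.le_mul_of_pos_right _ (by positivity)
    omega
  have hc : ac a ≤ n * Kc := h3.trans (Nat.mul_le_mul_right _ (Nat.sub_le _ _))
  exact enc_lt (by omega) (by omega) (by omega)

/-- The clamped children of a valid label. -/
theorem VLab.kidsC {U m w0 Kc kr n j a : ℕ} (h : VLab m w0 Kc kr n j a)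
    (hU : 2 * 2 ^ (Kc + m) ≤ U) : kidsC U m Kc a = kidsL m Kc a := by
  have h1 := h.1
  have h2 : Kc < 2 ^ Kc := Nat.lt_two_pow_self
  have h3 : 2 ^ Kc ≤ 2 ^ (Kc + m) := Nat.pow_le_pow_right (by norm_num) (by omega)
  refine kidsC_eq (by omega) (le_trans (Nat.mul_le_mul_left _ ?_) hU)
  exact Nat.pow_le_pow_right (by norm_num) (by omega)

theorem length_le_of_lt {l : List ℕ} (hl : l.Nodup) {N : ℕ} (h : ∀ x ∈ l, x < N) :
    l.length ≤ N := by
  have h1 : l.toFinset ⊆ Finset.range N := fun x hx =>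
    Finset.mem_range.2 (h x (List.mem_toFinset.1 hx))
  have h2 := Finset.card_le_card h1
  rwa [List.toFinset_card_of_nodup hl, Finset.card_range] at h2

/-- Budget for the lists of labels. -/
def labBB (N : ℕ) : ℕ := N * (2 * N + 1)

theorem esize_labels_le {l : List ℕ} (hl : l.Nodup) {N : ℕ} (h : ∀ x ∈ l, x < N) :
    esize l ≤ labBB N := by
  have h1 : esize l ≤ l.length * (2 * N + 1) := esize_list_le fun x hx =>
    (esize_nat_le_self x).trans (h x hx).le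
  exact h1.trans (Nat.mul_le_mul_right _ (length_le_of_lt hl h))

theorem descL_eq_rec (m Kc a e : ℕ) : Nat.rec (motive := fun _ => List ℕ) [a]
    (fun _ l => H207.nub (l.flatMap (kidsL m Kc))) e = descL m Kc a e := by
  induction e with
  | zero => rfl
  | succ e ih => show H207.nub (List.flatMap _ _) = _; rw [ih]; rfl

/-- The clamped descendants of a valid label. -/
theorem VLab.descC {U BB m w0 Kc kr n j a e : ℕ} (hw : 0 < w0)
    (h : VLab m w0 Kc kr n (j + e) a) (hj : j + e ≤ n) (hU : 2 * 2 ^ (Kc + m) ≤ U)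
    (hn : n ≤ U) (hB : labBB (labB m Kc kr n) ≤ BB) : descC U BB m Kc a e = descL m Kc a e := by
  have hrec : ∀ e' ≤ e, Nat.rec (motive := fun _ => List ℕ) [a]
      (fun _ l => H207.nub (l.flatMap (Q.kidsC U m Kc))) e' = descL m Kc a e' := by
    intro e'
    induction e' with
    | zero => intro _; rfl
    | succ e' ih =>
      intro he
      show H207.nub (List.flatMap _ _) = _
      rw [ih (by omega), descL_succ]
      congr 1
      rw [List.flatMap_def, List.flatMap_def]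
      congr 1
      refine List.map_congr_left fun x hx => ?_
      have hv : VLab m w0 Kc kr n (j + e - e') x := VLab.desc (j := j + e - e') e'
        (by rwa [show j + e - e' + e' = j + e by omega]) (by omega) hx
      exact hv.kidsC hU
  unfold Q.descC
  rw [min_eq_left (by omega), natRecC_eq (fun e' he' => ?_), hrec e le_rfl]
  rw [hrec (e' + 1) (by omega)]
  refine (esize_labels_le (nodup_descL _ _ _ _) fun x hx => ?_).trans hB
  have hv : VLab m w0 Kc kr n (j + e - (e' + 1)) x := VLab.desc (j := j + e - (e' + 1)) (e' + 1)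
    (by rwa [show j + e - (e' + 1) + (e' + 1) = j + e by omega]) (by omega) hx
  exact hv.lt hw

/-! ### The cells -/

/-- The label covers the position (level `0`). -/
def cvB (w0 a p : ℕ) : Bool :=
  decide (bx a * (2 ^ min (cl a) (Nat.size p) * w0) ≤ p ∧
    p ≤ (bx a + 2) * (2 ^ min (cl a) (Nat.size p) * w0))

theorem cvB_iff {m w0 a p : ℕ} : cvB w0 a p = true ↔ InBox m w0 0 a p := by
  unfold cvB InBox wd
  rw [decide_eq_true_eq, pow_zero, mul_one]
  rcases le_total (cl a) (Nat.size p) with h | h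
  · rw [min_eq_left h]
  · rw [min_eq_right h]
    have h1 : p < 2 ^ Nat.size p := Nat.lt_size_self p
    have h2 : 2 ^ Nat.size p ≤ 2 ^ cl a := Nat.pow_le_pow_right (by norm_num) h
    rcases Nat.eq_zero_or_pos w0 with rfl | hw
    · simp
    rcases Nat.eq_zero_or_pos (bx a) with hb | hb
    · rw [hb]
      have h3 : p ≤ (0 + 2) * (2 ^ Nat.size p * w0) := by
        have : 2 ^ Nat.size p ≤ 2 ^ Nat.size p * w0 := Nat.le_mul_of_pos_right _ hw
        omega
      have h4 : p ≤ (0 + 2) * (2 ^ cl a * w0) := by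
        have : 2 ^ cl a ≤ 2 ^ cl a * w0 := Nat.le_mul_of_pos_right _ hw
        omega
      simp only [zero_mul, Nat.zero_le, true_and]
      exact ⟨fun _ => h4, fun _ => h3⟩
    · have h3 : p < bx a * (2 ^ Nat.size p * w0) := by
        have h5 : 2 ^ Nat.size p ≤ 2 ^ Nat.size p * w0 := Nat.le_mul_of_pos_right _ hw
        have h6 : 2 ^ Nat.size p * w0 ≤ bx a * (2 ^ Nat.size p * w0) :=
          Nat.le_mul_of_pos_left _ hb
        omega
      have h4 : p < bx a * (2 ^ cl a * w0) := by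
        have h5 : 2 ^ cl a ≤ 2 ^ cl a * w0 := Nat.le_mul_of_pos_right _ hw
        have h6 : 2 ^ cl a * w0 ≤ bx a * (2 ^ cl a * w0) := Nat.le_mul_of_pos_left _ hb
        omega
      constructor
      · rintro ⟨h7, _⟩; omega
      · rintro ⟨h7, _⟩; omega

theorem cvB_cov {m ℓ μ B w0 J S H Kc D1 : ℕ} (a p : ℕ) :
    cvB w0 a p = true ↔ (clsPar m ℓ μ B w0 J S H Kc D1).cov a p := cvB_iff (m := m)

/-- One-row moves. -/
def adM (ℓ p q : ℕ) : Bool := decide (nd p q ≤ ℓ / 2)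

theorem adM_iff (m ℓ μ B w0 J S H Kc D1 p q : ℕ) :
    adM ℓ p q = true ↔ (clsPar m ℓ μ B w0 J S H Kc D1).adm p q := by
  unfold adM; rw [decide_eq_true_eq]; rfl

/-- First position of the box (if it is at most `p`). -/
def lowM (w0 a p : ℕ) : ℕ := bx a * (2 ^ min (cl a) (Nat.size p) * w0)

theorem lowM_eq {w0 a p : ℕ} (hw : 0 < w0) (h : bx a * (2 ^ cl a * w0) ≤ p) :
    lowM w0 a p = bx a * (2 ^ cl a * w0) := by
  unfold lowM
  rcases Nat.eq_zero_or_pos (bx a) with hb | hb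
  · rw [hb, zero_mul, zero_mul]
  · have h1 : 2 ^ cl a ≤ p := by
      have h5 : 2 ^ cl a ≤ 2 ^ cl a * w0 := Nat.le_mul_of_pos_right _ hw
      have h6 : 2 ^ cl a * w0 ≤ bx a * (2 ^ cl a * w0) := Nat.le_mul_of_pos_left _ hb
      omega
    have h2 : cl a ≤ Nat.size p := by
      have h3 : 2 ^ cl a < 2 ^ Nat.size p := h1.trans_lt (Nat.lt_size_self p)
      exact ((Nat.pow_lt_pow_iff_right (by norm_num)).1 h3).le
    rw [min_eq_left h2]

/-- Place of the pair `(p, q)` in the answer of a cell with label `a`. -/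
def idxM (ℓ μ w0 a p q : ℕ) : ℕ :=
  (p - lowM w0 a p) / μ * (ℓ / μ + 1) + (q + ℓ / 2 - p) / μ

/-- Answer of the cell `(i, a)`: starts `low + μ r`, `r ≤ 2 * 2 ^ κ * w0 / μ`, ends
`start + μ e - ℓ / 2`, `e ≤ ℓ / μ`. -/
def cellAnsM (ℓ μ w0 : ℕ) (hid : Leaf) (i a : ℕ) : List ℕ :=
  (List.range (2 * (2 ^ cl a * w0) / μ + 1)).flatMap fun r =>
    (List.range (ℓ / μ + 1)).map fun e =>
      hid i (bx a * (2 ^ cl a * w0) + μ * r) (bx a * (2 ^ cl a * w0) + μ * r + μ * e - ℓ / 2)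

/-- Length of the answer. -/
def lenM (ℓ μ w0 a : ℕ) : ℕ := (2 * (2 ^ cl a * w0) / μ + 1) * (ℓ / μ + 1)

theorem cellAnsM_length (ℓ μ w0 : ℕ) (hid : Leaf) (i a : ℕ) :
    (cellAnsM ℓ μ w0 hid i a).length = lenM ℓ μ w0 a :=
  flat_length _ _ fun r e =>
    hid i (bx a * (2 ^ cl a * w0) + μ * r) (bx a * (2 ^ cl a * w0) + μ * r + μ * e - ℓ / 2)

/-- The answer of the cell contains all admissible mesh steps that start in it. -/
theorem cellAnsM_getD {ℓ μ w0 : ℕ} (hμ : 0 < μ) (hw : 0 < w0) (hd : μ ∣ ℓ / 2) (hdw : μ ∣ w0)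
    (hev : ℓ = 2 * (ℓ / 2)) (hid : Leaf) (i : ℕ) {a p q : ℕ} (hp : μ ∣ p) (hq : μ ∣ q)
    (hpq : adM ℓ p q = true) (hcv : cvB w0 a p = true) :
    (cellAnsM ℓ μ w0 hid i a).getD (idxM ℓ μ w0 a p q) 0 = hid i p q := by
  obtain ⟨c1, c2⟩ := (cvB_iff (m := 0)).1 hcv
  unfold wd at c1 c2
  rw [pow_zero, mul_one] at c1 c2
  unfold adM at hpq
  rw [decide_eq_true_eq] at hpq
  unfold nd at hpq
  have hlow := lowM_eq hw c1
  set L := bx a * (2 ^ cl a * w0) with hL
  have hLd : μ ∣ L := (hdw.mul_left _).mul_left _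
  obtain ⟨l2, hl2⟩ := hd
  obtain ⟨p', rfl⟩ := hp
  obtain ⟨q', rfl⟩ := hq
  obtain ⟨L', hL'⟩ := hLd
  have hℓμ : ℓ / μ = 2 * l2 := by
    rw [hev, hl2, ← mul_assoc, mul_comm 2 μ, mul_assoc, Nat.mul_div_cancel_left _ hμ]
  have e1 : (μ * p' - L) / μ = p' - L' := by
    rw [hL', ← Nat.mul_sub, Nat.mul_div_cancel_left _ hμ]
  have e2 : (μ * q' + ℓ / 2 - μ * p') / μ = q' + l2 - p' := by
    rw [hl2, ← Nat.mul_add, ← Nat.mul_sub, Nat.mul_div_cancel_left _ hμ]
  have hpl : L' ≤ p' := by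
    rw [hL'] at c1
    exact Nat.le_of_mul_le_mul_left c1 hμ
  have h1 : μ * p' ≤ μ * q' + ℓ / 2 := by omega
  have h2 : μ * q' ≤ μ * p' + ℓ / 2 := by omega
  rw [hl2, ← Nat.mul_add] at h1 h2
  have h1' := Nat.le_of_mul_le_mul_left h1 hμ
  have h2' := Nat.le_of_mul_le_mul_left h2 hμ
  obtain ⟨W, hW⟩ : μ ∣ 2 * (2 ^ cl a * w0) := (hdw.mul_left _).mul_left _
  have hdiv : 2 * (2 ^ cl a * w0) / μ = W := by rw [hW, Nat.mul_div_cancel_left _ hμ]
  have hr : p' - L' ≤ W := by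
    have h3 : μ * p' ≤ μ * (L' + W) := by
      rw [Nat.mul_add, ← hL', ← hW]
      rw [add_mul, ← hL] at c2
      exact c2
    have := Nat.le_of_mul_le_mul_left h3 hμ
    omega
  unfold cellAnsM idxM
  rw [← hL, hlow, e1, e2, hℓμ, hdiv, flat_getD (W + 1) (2 * l2 + 1)
    (fun r e => hid i (L + μ * r) (L + μ * r + μ * e - ℓ / 2)) 0 (by omega) (by omega)]
  have e3 : L + μ * (p' - L') = μ * p' := by
    rw [hL', ← Nat.mul_add, Nat.add_sub_cancel' hpl]
  rw [e3]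
  congr 1
  rw [hl2, ← Nat.mul_add, ← Nat.mul_sub]
  congr 1
  omega

/-! ### Polynomial time -/

section PT

variable {α : Type*} [Enc α]

@[fun_prop]
theorem PT_nd {f g : α → ℕ} (hf : PT ∅ f) (hg : PT ∅ g) : PT ∅ (fun a => nd (f a) (g a)) :=
  pt_nd hf hg

@[fun_prop]
theorem PBd_natSize {f : α → ℕ} (hf : PT ∅ f) : PBd (fun a => Nat.size (f a)) :=
  hf.pbd.mono fun a => (esize_eq_size (f a)).ge

@[fun_prop]
theorem PT_cl {f : α → ℕ} (hf : PT ∅ f) : PT ∅ (fun a => cl (f a)) := (PT_natUnpair hf).fst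

@[fun_prop]
theorem PT_bx {f : α → ℕ} (hf : PT ∅ f) : PT ∅ (fun a => bx (f a)) :=
  (PT_natUnpair (PT_natUnpair hf).snd).fst

@[fun_prop]
theorem PT_ac {f : α → ℕ} (hf : PT ∅ f) : PT ∅ (fun a => ac (f a)) :=
  (PT_natUnpair (PT_natUnpair hf).snd).snd

@[fun_prop]
theorem PT_enc {f g h : α → ℕ} (hf : PT ∅ f) (hg : PT ∅ g) (hh : PT ∅ h) :
    PT ∅ (fun a => H95.enc (f a) (g a) (h a)) := PT_natPair hf (PT_natPair hg hh)

theorem esize_foldl_push_le (l acc : List ℕ) :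
    esize (l.foldl H207.push acc) ≤ esize acc + esize l := by
  induction l generalizing acc with
  | nil => simp
  | cons x l ih =>
    rw [List.foldl_cons]
    refine (ih _).trans ?_
    have h1 : esize (H207.push acc x) ≤ esize acc + (2 * esize x + 1) := by
      unfold H207.push
      split_ifs
      · omega
      · rw [esize_append, esize_list_cons]
        have : esize ([] : List ℕ) = 0 := esize_list_nil
        omega
    have h2 : esize (x :: l) = 2 * esize x + esize l + 1 := esize_list_cons x l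
    omega

theorem esize_nub_le (l : List ℕ) : esize (H207.nub l) ≤ esize l := by
  have := esize_foldl_push_le l []
  have h : esize ([] : List ℕ) = 0 := esize_list_nil
  unfold H207.nub
  omega

@[fun_prop]
theorem PT_nubN {f : α → List ℕ} (hf : PT ∅ f) : PT ∅ (fun a => H207.nub (f a)) := by
  refine PT.foldl (f := fun _ acc x => H207.push acc x) (init := fun _ => ([] : List ℕ)) hf
    (PT.const []) ?_ hf.pbd fun a i => ?_
  · exact PT.ite (p := fun q : α × List ℕ × ℕ => q.2.2 ∈ q.2.1) (PT.mem PT.snd'.fst PT.snd'.snd)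
      PT.snd'.fst (PT.snd'.fst.append (PT.snd'.snd.cons PT.nil))
  · exact (esize_nub_le _).trans (esize_take_le _ _)

@[fun_prop]
theorem PT_kidsC {U m Kc a : α → ℕ} (hU : PT ∅ U) (hUb : PBd U) (hm : PT ∅ m) (hKc : PT ∅ Kc)
    (ha : PT ∅ a) : PT ∅ (fun x => kidsC (U x) (m x) (Kc x) (a x)) := by
  have hc : ∀ {f : α × ℕ → ℕ}, PBd (fun x => min (f x) (U x.1)) := fun {f} =>
    (hUb.comp (A := ∅) PT.fst').mono fun x => min_le_right _ _
  unfold kidsC
  refine PT.flatMap (f := fun x κ' => if κ' ≤ cl (a x) + m x then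
    (List.range (min (2 * 2 ^ min (cl (a x) + m x - κ') (U x) - 1) (U x))).map fun t =>
      H95.enc κ' (bx (a x) * 2 ^ min (cl (a x) + m x - κ') (U x) + t) (ac (a x) + nd κ' (cl (a x)))
    else []) (PT.range (PT.min (hKc.add (PT.const 1)) hU) (PBd_min_right hUb)) ?_
  have hcl : PT ∅ (fun x : α × ℕ => cl (a x.1)) := (PT_cl ha).comp PT.fst'
  have hm' : PT ∅ (fun x : α × ℕ => m x.1) := hm.comp PT.fst'
  have hU' : PT ∅ (fun x : α × ℕ => U x.1) := hU.comp PT.fst'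
  have hpw : PT ∅ (fun x : α × ℕ => 2 ^ min (cl (a x.1) + m x.1 - x.2) (U x.1)) :=
    PT.pow (PT.const 2) (PT.min ((hcl.add hm').sub PT.snd') hU') hc
  refine PT.ite (p := fun x : α × ℕ => x.2 ≤ cl (a x.1) + m x.1)
    (PT.le PT.snd' (hcl.add hm')) ?_ (PT.const [])
  refine PT.map (f := fun (x : α × ℕ) t =>
    H95.enc x.2 (bx (a x.1) * 2 ^ min (cl (a x.1) + m x.1 - x.2) (U x.1) + t)
      (ac (a x.1) + nd x.2 (cl (a x.1))))
    (PT.range (PT.min (((PT.const 2).mul hpw).sub (PT.const 1)) hU') hc) ?_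
  refine PT_enc PT.fst'.snd ?_ ?_
  · exact (((PT_bx ha).comp PT.fst'.fst).mul (hpw.comp PT.fst')).add PT.snd'
  · exact ((PT_ac ha).comp PT.fst'.fst).add (pt_nd PT.fst'.snd (hcl.comp PT.fst'))

@[fun_prop]
theorem PT_descC {U BB m Kc a e : α → ℕ} (hU : PT ∅ U) (hUb : PBd U) (hB : PT ∅ BB)
    (hBb : PBd BB) (hm : PT ∅ m) (hKc : PT ∅ Kc) (ha : PT ∅ a) (he : PT ∅ e) :
    PT ∅ (fun x => descC (U x) (BB x) (m x) (Kc x) (a x) (e x)) := by
  unfold descC
  refine PT_natRecC (step := fun x _ l => H207.nub (l.flatMap (kidsC (U x) (m x) (Kc x)))) hB hBb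
    (PT.min he hU) (PBd_min_right hUb) ?_ (ha.cons PT.nil)
  refine PT_nubN ?_
  refine PT.flatMap (f := fun (x : α × ℕ × List ℕ) y => kidsC (U x.1) (m x.1) (Kc x.1) y)
    PT.snd'.snd ?_
  exact PT_kidsC (hU.comp PT.fst'.fst) (hUb.comp (A := ∅) PT.fst'.fst) (hm.comp PT.fst'.fst)
    (hKc.comp PT.fst'.fst) PT.snd'

theorem PT_pwM {a p : α → ℕ} (ha : PT ∅ a) (hp : PT ∅ p) :
    PT ∅ (fun x => 2 ^ min (cl (a x)) (Nat.size (p x))) :=
  PT.pow (PT.const 2) (PT.min (PT_cl ha) (PT.natSize hp)) (PBd_min_right (PBd_natSize hp))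

@[fun_prop]
theorem PT_cvB {w0 a p : α → ℕ} (hw : PT ∅ w0) (ha : PT ∅ a) (hp : PT ∅ p) :
    PT ∅ (fun x => cvB (w0 x) (a x) (p x)) := by
  have h := (PT_pwM ha hp).mul hw
  exact PT.decide_and (PT.le ((PT_bx ha).mul h) hp)
    (PT.le hp (((PT_bx ha).add (PT.const 2)).mul h))

@[fun_prop]
theorem PT_adM {l p q : α → ℕ} (hl : PT ∅ l) (hp : PT ∅ p) (hq : PT ∅ q) :
    PT ∅ (fun x => adM (l x) (p x) (q x)) :=
  PT.le (pt_nd hp hq) (hl.div (PT.const 2))

@[fun_prop]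
theorem PT_lowM {w0 a p : α → ℕ} (hw : PT ∅ w0) (ha : PT ∅ a) (hp : PT ∅ p) :
    PT ∅ (fun x => lowM (w0 x) (a x) (p x)) :=
  (PT_bx ha).mul ((PT_pwM ha hp).mul hw)

@[fun_prop]
theorem PT_idxM {l μ w0 a p q : α → ℕ} (hl : PT ∅ l) (hμ : PT ∅ μ) (hw : PT ∅ w0) (ha : PT ∅ a)
    (hp : PT ∅ p) (hq : PT ∅ q) : PT ∅ (fun x => idxM (l x) (μ x) (w0 x) (a x) (p x) (q x)) :=
  (((hp.sub (PT_lowM hw ha hp)).div hμ).mul ((hl.div hμ).add (PT.const 1))).add
    (((hq.add (hl.div (PT.const 2))).sub hp).div hμ)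

/-- Length of the answer, the exponent clamped by `U`. -/
def lenC (U ℓ μ w0 a : ℕ) : ℕ := (2 * (2 ^ min (cl a) U * w0) / μ + 1) * (ℓ / μ + 1)

theorem lenC_eq {U ℓ μ w0 a : ℕ} (h : cl a ≤ U) : lenC U ℓ μ w0 a = lenM ℓ μ w0 a := by
  unfold lenC lenM
  rw [min_eq_left h]

theorem lenC_pos (U ℓ μ w0 a : ℕ) : 0 < lenC U ℓ μ w0 a := by
  unfold lenC; positivity

@[fun_prop]
theorem PT_lenC {U l μ w0 a : α → ℕ} (hU : PT ∅ U) (hUb : PBd U) (hl : PT ∅ l) (hμ : PT ∅ μ)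
    (hw : PT ∅ w0) (ha : PT ∅ a) :
    PT ∅ (fun x => lenC (U x) (l x) (μ x) (w0 x) (a x)) :=
  ((((PT.const 2).mul ((PT.pow (PT.const 2) (PT.min (PT_cl ha) hU) (PBd_min_right hUb)).mul
    hw)).div hμ).add (PT.const 1)).mul ((hl.div hμ).add (PT.const 1))

end PT

/-! ### The certified cost of milestone 2 -/

/-- `cval` of `clsPar` from one start. -/
def cvalMF (ℓ μ w0 n : ℕ) (vis : ℕ → ℕ → ℕ → ℕ) (T : KT) (MJ i u : ℕ) : List ℕ :=
  cvalGF n μ 2 (adM ℓ) (cvB w0) (idxM ℓ μ w0) vis T MJ i u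

/-- All answers are correct. -/
def KT.OkM (ℓ μ w0 : ℕ) (hid : Leaf) (T : KT) : Prop :=
  ∀ c ∈ T, c.2 = cellAnsM ℓ μ w0 hid c.1.1 c.1.2

theorem KT.OkM.okG {m ℓ μ B w0 J S H Kc D1 : ℕ} (hμ : 0 < μ) (hw : 0 < w0) (hd : μ ∣ ℓ / 2)
    (hdw : μ ∣ w0) (hev : ℓ = 2 * (ℓ / 2)) {hid : Leaf} {T : KT} (hT : T.OkM ℓ μ w0 hid) :
    T.OkG (clsPar m ℓ μ B w0 J S H Kc D1) (idxM ℓ μ w0) hid := by
  intro c hc p q hp hq _ _ had hcov
  rw [hT c hc]
  exact cellAnsM_getD hμ hw hd hdw hev hid c.1.1 hp hq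
    ((adM_iff m ℓ μ B w0 J S H Kc D1 p q).2 had)
    ((cvB_cov (m := m) (ℓ := ℓ) (μ := μ) (B := B) (w0 := w0) (J := J) (S := S) (H := H) (Kc := Kc)
      (D1 := D1) c.1.2 p).2 hcov)

theorem cvalMF_eq {m ℓ μ B w0 J S H Kc D1 : ℕ} (hμ : 0 < μ) (hw : 0 < w0) (hd : μ ∣ ℓ / 2)
    (hdw : μ ∣ w0) (hev : ℓ = 2 * (ℓ / 2)) (vis hid : Leaf) {T : KT} (hT : T.OkM ℓ μ w0 hid)
    (j i u : ℕ) {v : ℕ} (hv : μ * v ≤ B) :
    (cvalMF ℓ μ w0 (B / μ + 1) vis T ((2 ^ m) ^ j) i u).getD v 0 =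
      cval (clsPar m ℓ μ B w0 J S H Kc D1) vis hid T.keys j i (μ * u) (μ * v) :=
  cvalGF_eq (clsPar m ℓ μ B w0 J S H Kc D1) hμ (adM_iff m ℓ μ B w0 J S H Kc D1)
    (fun a p => cvB_cov a p) vis hid (hT.okG hμ hw hd hdw hev) j i u hv

section PT

variable {α : Type*} [Enc α]

theorem pt_cvalMF {l μ w0 n MJ i u : α → ℕ} {vis : α → ℕ → ℕ → ℕ → ℕ} {T : α → KT}
    (hl : PT ∅ l) (hμ : PT ∅ μ) (hw : PT ∅ w0) (hn : PT ∅ n) (hnb : PBd n) (hT : PT ∅ T)
    (hvis : PT ∅ (fun x : α × ℕ × ℕ × ℕ => vis x.1 x.2.1 x.2.2.1 x.2.2.2))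
    (hMJ : PT ∅ MJ) (hMJb : PBd MJ) (hi : PT ∅ i) (hu : PT ∅ u) :
    PT ∅ (fun a => cvalMF (l a) (μ a) (w0 a) (n a) (vis a) (T a) (MJ a) (i a) (u a)) := by
  refine pt_cvalGF (ad := fun a => adM (l a)) (cv := fun a => cvB (w0 a))
    (idx := fun a => idxM (l a) (μ a) (w0 a)) hn hnb hμ (PT.const 2) ?_ ?_ ?_ hvis hT hMJ hMJb hi hu
  · exact PT_adM (hl.comp PT.fst') PT.snd'.fst PT.snd'.snd
  · exact PT_cvB (hw.comp PT.fst') PT.snd'.fst PT.snd'.snd
  · exact PT_idxM (hl.comp PT.fst') (hμ.comp PT.fst') (hw.comp PT.fst') PT.snd'.fst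
      PT.snd'.snd.fst PT.snd'.snd.snd

end PT

end Vale.Agent.P315.Q
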