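import Vale.Agent.P315.Q.LoopM
import Vale.Agent.P315.Q.LabM2
import Vale.Agent.P315.H54.WinM
import Vale.Agent.P315.H817.StCell

/-! P315 (helper514), Milestone 2, row M2-STRAT: the cells of Milestone 2 in 54's moving frame.

Outside of the cone the place of the pair `(p, q)` in the answer of a cell depends on the row, so
`knownR`, `cvalRF` are `knownG`, `cvalGF` with `idx : ℕ → ℕ → ℕ → ℕ → ℕ`, the row first.

* `cellR X Y ℓ μ w0 c0 i a`  : answer of the cell `(i, a)` (all rows, all labels);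
* `cellR_getD`               : = `hidM X Y (ℓ / 2) c0 i p q` at the place `idxR ..`, on all
                               admissible mesh steps that start in the cell;
* `nsM`, `subM`              : number and codes of the queries of a cell for `Q/LoopM.lean`;
* `ansM_eq`                  : the answers of 817's `stCell` at these codes form `cellR`;
* `cvM_eq`                   : `cvalRF` = `cval` of `clsPar` (the `cv` fields of the strategy);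
* `pt_..`                    : polynomial time. -/

set_option autoImplicit false

namespace Vale.Agent.P315.Q

open Vale.Agent.Lib Vale.Agent.Lib.PolyTime Vale.Agent.P315.C Vale.Agent.P315.H95
  Vale.Agent.P315.H155

/-! ### Known costs: the place of a pair depends on the row -/

/-- Row cost from the known cells. -/
def knownR (cv : ℕ → ℕ → Bool) (idx : ℕ → ℕ → ℕ → ℕ → ℕ) (vis : ℕ → ℕ → ℕ → ℕ) (T : KT)
    (i p q : ℕ) : ℕ := knownG cv (idx i) vis T i p q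

/-- All answers are correct on the admissible mesh steps that start in the cell. -/
def KT.OkR (P : Par) (idx : ℕ → ℕ → ℕ → ℕ → ℕ) (hid : Leaf) (T : KT) : Prop :=
  ∀ c ∈ T, ∀ p q, P.μ ∣ p → P.μ ∣ q → p ≤ P.B → q ≤ P.B → P.adm p q → P.cov c.1.2 p →
    c.2.getD (idx c.1.1 c.1.2 p q) 0 = hid c.1.1 p q

theorem knownR_eq {P : Par} {cv : ℕ → ℕ → Bool} (hcv : ∀ a p, cv a p = true ↔ P.cov a p)
    {idx : ℕ → ℕ → ℕ → ℕ → ℕ} (vis hid : Leaf) {T : KT} (hT : T.OkR P idx hid) (i : ℕ) {p q : ℕ}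
    (hp : P.μ ∣ p) (hq : P.μ ∣ q) (hpB : p ≤ P.B) (hqB : q ≤ P.B) (had : P.adm p q) :
    knownR cv idx vis T i p q = known P vis hid T.keys i p q := by
  have hiff : (∃ a, (i, a) ∈ T.keys ∧ P.cov a p) ↔ ∃ c ∈ T, c.1.1 = i ∧ P.cov c.1.2 p := by
    unfold KT.keys
    simp only [List.mem_toFinset, List.mem_map]
    constructor
    · rintro ⟨a, ⟨c, hc, hc2⟩, ha⟩
      exact ⟨c, hc, by rw [hc2], by rw [hc2]; exact ha⟩
    · rintro ⟨c, hc, hc2, ha⟩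
      exact ⟨c.1.2, ⟨c, hc, by rw [← hc2]⟩, ha⟩
  unfold knownR knownG
  rcases hf : T.find? (fun c => decide (c.1.1 = i) && cv c.1.2 p) with _ | c
  · have hno : ¬ ∃ a, (i, a) ∈ T.keys ∧ P.cov a p := by
      rw [hiff]
      rintro ⟨c, hc, hc2, ha⟩
      have := List.find?_eq_none.mp hf c hc
      simp [hc2, (hcv _ _).mpr ha] at this
    unfold known
    rw [if_neg hno, hf]
    rfl
  · have hc := List.mem_of_find?_eq_some hf
    have hc2 := List.find?_some hf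
    simp only [Bool.and_eq_true, decide_eq_true_eq] at hc2
    have hcov := (hcv _ _).mp hc2.2
    have hyes : ∃ a, (i, a) ∈ T.keys ∧ P.cov a p := hiff.mpr ⟨c, hc, hc2.1, hcov⟩
    unfold known
    rw [if_pos hyes, hf]
    show c.2.getD (idx i c.1.2 p q) 0 = _
    have h1 := hT c hc p q hp hq hpB hqB had hcov
    rw [hc2.1] at h1
    exact h1

/-- `cval` from one start: slab `i` of level `j` (`MJ = M ^ j` rows). -/
def cvalRF (n μ sh : ℕ) (ad : ℕ → ℕ → Bool) (cv : ℕ → ℕ → Bool) (idx : ℕ → ℕ → ℕ → ℕ → ℕ)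
    (vis : ℕ → ℕ → ℕ → ℕ) (T : KT) (MJ i u : ℕ) : List ℕ :=
  bestF n μ sh ad (knownR cv idx vis T) (i * MJ) MJ u

/-- `vis` matters only on the admissible mesh steps. -/
theorem knownR_vis_congr (cv : ℕ → ℕ → Bool) (idx : ℕ → ℕ → ℕ → ℕ → ℕ)
    {vis vis' : ℕ → ℕ → ℕ → ℕ} (T : KT) {i p q : ℕ} (h : vis i p q = vis' i p q) :
    knownR cv idx vis T i p q = knownR cv idx vis' T i p q := by
  unfold knownR knownG
  cases T.find? fun c => decide (c.1.1 = i) && cv c.1.2 p with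
  | none => exact h
  | some c => rfl

section
variable (P : Par) (hμ : 0 < P.μ) {ad : ℕ → ℕ → Bool} (had : ∀ p q, ad p q = true ↔ P.adm p q)
  {cv : ℕ → ℕ → Bool} (hcv : ∀ a p, cv a p = true ↔ P.cov a p) {idx : ℕ → ℕ → ℕ → ℕ → ℕ}
  (vis hid : Leaf) {T : KT} (hT : T.OkR P idx hid)
include hμ had hcv hT

theorem knownR_congr {vis' : ℕ → ℕ → ℕ → ℕ} {j i n : ℕ} (hn : n ≤ P.B / P.μ + 1)
    (hvis : ∀ i' < P.M ^ j, ∀ p < P.B / P.μ + 1, ∀ q < P.B / P.μ + 1,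
      P.adm (P.μ * p) (P.μ * q) → vis' (i * P.M ^ j + i') (P.μ * p) (P.μ * q) =
        vis (i * P.M ^ j + i') (P.μ * p) (P.μ * q)) :
    ∀ i' < P.M ^ j, ∀ p < n, ∀ q < n, ad (P.μ * p) (P.μ * q) = true →
      knownR cv idx vis' T (i * P.M ^ j + i') (P.μ * p) (P.μ * q) =
      known P vis hid T.keys (i * P.M ^ j + i') (P.μ * p) (P.μ * q) := by
  intro i' hi' p hp q hq h
  have hle : ∀ p, p < P.B / P.μ + 1 → P.μ * p ≤ P.B := by
    intro p hp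
    rwa [Nat.lt_succ_iff, Nat.le_div_iff_mul_le hμ, mul_comm] at hp
  rw [knownR_vis_congr (vis' := vis) cv idx T
    (hvis i' hi' p (by omega) q (by omega) ((had _ _).mp h))]
  exact knownR_eq hcv vis hid hT _ (dvd_mul_right _ _) (dvd_mul_right _ _) (hle p (by omega))
    (hle q (by omega)) ((had _ _).mp h)

/-- The certified cost; the visible costs are given by any function `vis'` that agrees with `vis`
on the admissible mesh steps. -/
theorem cvalRF_eq {vis' : ℕ → ℕ → ℕ → ℕ} (j i u : ℕ)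
    (hvis : ∀ i' < P.M ^ j, ∀ p < P.B / P.μ + 1, ∀ q < P.B / P.μ + 1,
      P.adm (P.μ * p) (P.μ * q) → vis' (i * P.M ^ j + i') (P.μ * p) (P.μ * q) =
        vis (i * P.M ^ j + i') (P.μ * p) (P.μ * q))
    {v : ℕ} (hv : P.μ * v ≤ P.B) :
    (cvalRF (P.B / P.μ + 1) P.μ P.sh ad cv idx vis' T (P.M ^ j) i u).getD v 0 =
      cval P vis hid T.keys j i (P.μ * u) (P.μ * v) := by
  unfold cvalRF
  rw [bestF_congr (knownR_congr P hμ had hcv vis hid hT le_rfl hvis)]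
  exact bestF_eq P hμ ad had _ _ _ u hv

end

/-! ### The answer of a cell in the moving frame -/

section
variable {ℓ μ w0 c0 : ℕ}

/-- Answer of the cell `(i, a)`: starts `low + μ r`, ends at the indices `xi i start + μ e`. -/
def cellR (X Y : ℕ → ℕ) (ℓ μ w0 c0 i a : ℕ) : List ℕ :=
  (List.range (2 * (2 ^ cl a * w0) / μ + 1)).flatMap fun r =>
    (List.range (ℓ / μ + 1)).map fun e =>
      H54.En X Y (i * ℓ) (H54.xi (ℓ / 2) c0 i (bx a * (2 ^ cl a * w0) + μ * r)) (i * ℓ + ℓ)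
        (H54.xi (ℓ / 2) c0 i (bx a * (2 ^ cl a * w0) + μ * r) + μ * e)

/-- Place of the pair `(p, q)` in the answer of the cell `(i, a)`. -/
def idxR (ℓ μ w0 c0 i a p q : ℕ) : ℕ :=
  (p - lowM w0 a p) / μ * (ℓ / μ + 1) +
    (H54.xi (ℓ / 2) c0 (i + 1) q - H54.xi (ℓ / 2) c0 i p) / μ

theorem cellR_length (X Y : ℕ → ℕ) (ℓ μ w0 c0 i a : ℕ) :
    (cellR X Y ℓ μ w0 c0 i a).length = (2 * (2 ^ cl a * w0) / μ + 1) * (ℓ / μ + 1) :=
  flat_length _ _ fun r e =>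
      H54.En X Y (i * ℓ) (H54.xi (ℓ / 2) c0 i (bx a * (2 ^ cl a * w0) + μ * r)) (i * ℓ + ℓ)
        (H54.xi (ℓ / 2) c0 i (bx a * (2 ^ cl a * w0) + μ * r) + μ * e)

theorem dvd_xi {l2 : ℕ} (h2 : μ ∣ l2) (h0 : μ ∣ c0) (i : ℕ) {p : ℕ} (hp : μ ∣ p) :
    μ ∣ H54.xi l2 c0 i p := by
  unfold H54.xi
  rcases min_choice (p + i * l2 - c0) (i * (2 * l2)) with h | h
  · rw [h]
    exact Nat.dvd_sub (Nat.dvd_add hp (h2.mul_left i)) h0
  · rw [h]
    exact (h2.mul_left 2).mul_left i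

/-- The answer of the cell contains all admissible mesh steps that start in it. -/
theorem cellR_getD (X Y : ℕ → ℕ) (hμ : 0 < μ) (hw : 0 < w0) (hd : μ ∣ ℓ / 2) (hdw : μ ∣ w0)
    (h0 : μ ∣ c0) (hev : ℓ = 2 * (ℓ / 2)) (i : ℕ) {a p q : ℕ} (hp : μ ∣ p) (hq : μ ∣ q)
    (hpq : adM ℓ p q = true) (hcv : cvB w0 a p = true) :
    (cellR X Y ℓ μ w0 c0 i a).getD (idxR ℓ μ w0 c0 i a p q) 0 =
      H54.hidM X Y (ℓ / 2) c0 i p q := by
  obtain ⟨c1, c2⟩ := (cvB_iff (m := 0)).1 hcv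
  unfold wd at c1 c2
  rw [pow_zero, mul_one] at c1 c2
  unfold adM at hpq
  rw [decide_eq_true_eq] at hpq
  unfold nd at hpq
  have hlow := lowM_eq hw c1
  have hstep := H54.xi_step (l2 := ℓ / 2) (c0 := c0) (i := i) (p := p) (q := q) (by omega)
    (by omega)
  have dp := dvd_xi hd h0 i hp
  have dq := dvd_xi hd h0 (i + 1) hq
  have hrow : i * (2 * (ℓ / 2)) = i * ℓ := by rw [← hev]
  have hrow' : (i + 1) * (2 * (ℓ / 2)) = i * ℓ + ℓ := by rw [← hev]; ring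
  unfold H54.hidM
  rw [hrow, hrow']
  set L := bx a * (2 ^ cl a * w0) with hL
  have hLd : μ ∣ L := (hdw.mul_left _).mul_left _
  obtain ⟨l2, hl2⟩ := hd
  obtain ⟨p', hp'⟩ := hp
  obtain ⟨L', hL'⟩ := hLd
  have hℓμ : ℓ / μ = 2 * l2 := by
    rw [hev, hl2, ← mul_assoc, mul_comm 2 μ, mul_assoc, Nat.mul_div_cancel_left _ hμ]
  have e1 : (p - L) / μ = p' - L' := by
    rw [hL', hp', ← Nat.mul_sub, Nat.mul_div_cancel_left _ hμ]
  have hpl : L' ≤ p' := by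
    rw [hL', hp'] at c1
    exact Nat.le_of_mul_le_mul_left c1 hμ
  obtain ⟨W, hW⟩ : μ ∣ 2 * (2 ^ cl a * w0) := (hdw.mul_left _).mul_left _
  have hdiv : 2 * (2 ^ cl a * w0) / μ = W := by rw [hW, Nat.mul_div_cancel_left _ hμ]
  have hr : p' - L' ≤ W := by
    have h3 : μ * p' ≤ μ * (L' + W) := by
      rw [Nat.mul_add, ← hL', ← hW, ← hp']
      rw [add_mul, ← hL] at c2
      exact c2
    have := Nat.le_of_mul_le_mul_left h3 hμ
    omega
  obtain ⟨e, he⟩ : μ ∣ H54.xi (ℓ / 2) c0 (i + 1) q - H54.xi (ℓ / 2) c0 i p := Nat.dvd_sub dq dp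
  have he2 : (H54.xi (ℓ / 2) c0 (i + 1) q - H54.xi (ℓ / 2) c0 i p) / μ = e := by
    rw [he, Nat.mul_div_cancel_left _ hμ]
  have hel : e ≤ 2 * l2 := by
    have h3 : μ * e ≤ μ * (2 * l2) := by
      rw [← he, ← hℓμ]
      have h4 : μ * (ℓ / μ) = ℓ := by
        rw [hℓμ, ← mul_assoc, mul_comm μ 2, mul_assoc, ← hl2]; exact hev.symm
      rw [h4]
      omega
    exact Nat.le_of_mul_le_mul_left h3 hμ
  have e3 : L + μ * (p' - L') = p := by
    rw [hL', ← Nat.mul_add, Nat.add_sub_cancel' hpl, hp']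
  unfold cellR idxR
  rw [← hL, hlow, e1, he2, hℓμ, hdiv, flat_getD (W + 1) (2 * l2 + 1)
    (fun r e => H54.En X Y (i * ℓ) (H54.xi (ℓ / 2) c0 i (L + μ * r)) (i * ℓ + ℓ)
        (H54.xi (ℓ / 2) c0 i (L + μ * r) + μ * e)) 0 (by omega) (by omega)]
  rw [e3]
  congr 1
  omega

/-- All answers are correct. -/
theorem okR {m B J S H Kc D1 : ℕ} (X Y : ℕ → ℕ) (hμ : 0 < μ) (hw : 0 < w0) (hd : μ ∣ ℓ / 2)
    (hdw : μ ∣ w0) (h0 : μ ∣ c0) (hev : ℓ = 2 * (ℓ / 2)) {T : KT}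
    (hT : ∀ c ∈ T, c.2 = cellR X Y ℓ μ w0 c0 c.1.1 c.1.2) :
    T.OkR (clsPar m ℓ μ B w0 J S H Kc D1) (idxR ℓ μ w0 c0) (H54.hidM X Y (ℓ / 2) c0) := by
  intro c hc p q hp hq _ _ had hcov
  rw [hT c hc]
  exact cellR_getD X Y hμ hw hd hdw h0 hev c.1.1 hp hq
    ((adM_iff m ℓ μ B w0 J S H Kc D1 p q).2 had)
    ((cvB_cov (m := m) (ℓ := ℓ) (μ := μ) (B := B) (w0 := w0) (J := J) (S := S) (H := H) (Kc := Kc)
      (D1 := D1) c.1.2 p).2 hcov)

/-- The certified costs of Milestone 2, in the form of the `cv` fields: `u`, `v` mesh positions up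
to `B`; the cells `l` are arbitrary; `vis'` agrees with `vis` on the admissible mesh steps. -/
theorem cvM_eq {m B J S H Kc D1 : ℕ} (X Y : ℕ → ℕ) (hμ : 0 < μ) (hw : 0 < w0) (hd : μ ∣ ℓ / 2)
    (hdw : μ ∣ w0) (h0 : μ ∣ c0) (hev : ℓ = 2 * (ℓ / 2)) (vis : Leaf) {vis' : ℕ → ℕ → ℕ → ℕ}
    (hvis : ∀ i p q, μ ∣ p → μ ∣ q → p ≤ B → q ≤ B → nd p q ≤ ℓ / 2 → vis' i p q = vis i p q)
    (l : List (ℕ × ℕ)) (j i : ℕ) {u v : ℕ} (hu : μ ∣ u) (hv : μ ∣ v) (hvB : v ≤ B) :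
    (cvalRF (B / μ + 1) μ 2 (adM ℓ) (cvB w0) (idxR ℓ μ w0 c0) vis'
      (l.map fun c => (c, cellR X Y ℓ μ w0 c0 c.1 c.2)) ((2 ^ m) ^ j) i (u / μ)).getD (v / μ) 0 =
      cval (clsPar m ℓ μ B w0 J S H Kc D1) vis (H54.hidM X Y (ℓ / 2) c0) l.toFinset j i u v := by
  have hT := okR (m := m) (B := B) (J := J) (S := S) (H := H) (Kc := Kc) (D1 := D1) X Y hμ hw hd
    hdw h0 hev (T := l.map fun c => (c, cellR X Y ℓ μ w0 c0 c.1 c.2)) (fun c hc => by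
      obtain ⟨c', _, rfl⟩ := List.mem_map.mp hc; rfl)
  have hle : ∀ p, p < B / μ + 1 → μ * p ≤ B := by
    intro p hp
    rwa [Nat.lt_succ_iff, Nat.le_div_iff_mul_le hμ, mul_comm] at hp
  have h1 := cvalRF_eq (clsPar m ℓ μ B w0 J S H Kc D1) hμ (adM_iff m ℓ μ B w0 J S H Kc D1)
    (fun a p => cvB_cov a p) vis (H54.hidM X Y (ℓ / 2) c0) hT (vis' := vis') j i (u / μ)
    (fun i' _ p hp q hq had => hvis _ _ _ (dvd_mul_right _ _) (dvd_mul_right _ _) (hle p hp)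
      (hle q hq) had) (v := v / μ) (by
      show μ * (v / μ) ≤ B
      rw [Nat.mul_div_cancel' hv]; exact hvB)
  have h2 : KT.keys (l.map fun c => (c, cellR X Y ℓ μ w0 c0 c.1 c.2)) = l.toFinset := by
    unfold KT.keys
    rw [List.map_map]
    congr 1
    exact List.map_id'' (fun _ => rfl) l
  rw [h2] at h1
  have h3 : μ * (u / μ) = u := Nat.mul_div_cancel' hu
  have h4 : μ * (v / μ) = v := Nat.mul_div_cancel' hv
  refine h1.trans ?_
  show cval _ _ _ _ _ _ (μ * (u / μ)) (μ * (v / μ)) = _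
  rw [h3, h4]

/-! ### The queries of a cell -/

/-- Number of the starts of the cell with the code `cur - 1`; exponent clamped by `U`. -/
def nsM (U μ w0 Dc cur : ℕ) : ℕ := 2 * (2 ^ min (cl ((cur - 1) % Dc)) U * w0) / μ + 1

/-- Code of the `r`-th start of the cell with the code `cur - 1`; `D` = number of columns of
817's `stCell`. -/
def subM (U ℓ μ w0 c0 D Dc cur r : ℕ) : ℕ :=
  (cur - 1) / Dc * D + H54.xi (ℓ / 2) c0 ((cur - 1) / Dc)
    (bx ((cur - 1) % Dc) * (2 ^ min (cl ((cur - 1) % Dc)) U * w0) + μ * r) / μ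

theorem nsM_pos (U μ w0 Dc cur : ℕ) : 0 < nsM U μ w0 Dc cur := by unfold nsM; positivity

theorem nsM_code {U Dc i a : ℕ} (ha : a < Dc) (hU : cl a ≤ U) :
    nsM U μ w0 Dc (i * Dc + a + 1) = 2 * (2 ^ cl a * w0) / μ + 1 := by
  unfold nsM
  have h2 : (i * Dc + a) % Dc = a := by
    rw [Nat.add_comm, Nat.add_mul_mod_self_right, Nat.mod_eq_of_lt ha]
  rw [Nat.add_sub_cancel, h2, min_eq_left hU]

theorem subM_code {U D Dc i a r : ℕ} (ha : a < Dc) (hU : cl a ≤ U) :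
    subM U ℓ μ w0 c0 D Dc (i * Dc + a + 1) r =
      i * D + H54.xi (ℓ / 2) c0 i (bx a * (2 ^ cl a * w0) + μ * r) / μ := by
  unfold subM
  have hD : 0 < Dc := by omega
  have h1 : (i * Dc + a) / Dc = i := by
    rw [Nat.add_comm, Nat.add_mul_div_right _ _ hD, Nat.div_eq_of_lt ha, Nat.zero_add]
  have h2 : (i * Dc + a) % Dc = a := by
    rw [Nat.add_comm, Nat.add_mul_mod_self_right, Nat.mod_eq_of_lt ha]
  rw [Nat.add_sub_cancel, h1, h2, min_eq_left hU]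

/-- All asked codes are smaller than `K * D` as soon as the row is smaller than `K`. -/
theorem subM_lt {U D Dc cur r K : ℕ} (hμ : 0 < μ) (hev : ℓ = 2 * (ℓ / 2)) (hK : (cur - 1) / Dc < K)
    (hD : K * ℓ < D * μ) : subM U ℓ μ w0 c0 D Dc cur r < K * D := by
  unfold subM
  set i := (cur - 1) / Dc
  set x := H54.xi (ℓ / 2) c0 i
    (bx ((cur - 1) % Dc) * (2 ^ min (cl ((cur - 1) % Dc)) U * w0) + μ * r)
  have h1 : x ≤ i * ℓ := by
    have := H54.xi_le (l2 := ℓ / 2) (c0 := c0) i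
      (bx ((cur - 1) % Dc) * (2 ^ min (cl ((cur - 1) % Dc)) U * w0) + μ * r)
    rwa [← hev] at this
  have h2 : x / μ < D := by
    rw [Nat.div_lt_iff_lt_mul hμ]
    have : i * ℓ ≤ K * ℓ := Nat.mul_le_mul_right _ hK.le
    omega
  calc i * D + x / μ < i * D + D := by omega
    _ = (i + 1) * D := by ring
    _ ≤ K * D := Nat.mul_le_mul_right _ hK

/-- **The answers of `stCell` at the codes of the starts form the answer of the cell.** -/
theorem ansM_eq (X Y : ℕ → ℕ) {U D Dc K i a : ℕ} (hμ : 0 < μ) (hd : μ ∣ ℓ / 2) (hdw : μ ∣ w0)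
    (h0 : μ ∣ c0) (hev : ℓ = 2 * (ℓ / 2)) (ha : a < Dc) (hU : cl a ≤ U) (hi : i < K)
    (hD : K * ℓ < D * μ) (ns : List ℕ × ℕ → ℕ) (sub : List ℕ × ℕ × ℕ → ℕ) (F : List ℕ)
    (hns : ns (F, i * Dc + a + 1) = nsM U μ w0 Dc (i * Dc + a + 1))
    (hsub : ∀ r, sub (F, i * Dc + a + 1, r) = subM U ℓ μ w0 c0 D Dc (i * Dc + a + 1) r) :
    ansV ns sub (H817.stAns X Y ℓ μ (ℓ / μ) D) F (i * Dc + a) = cellR X Y ℓ μ w0 c0 i a := by
  unfold ansV ansR cellR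
  rw [hns, nsM_code ha hU, List.flatMap_def, List.flatMap_def]
  congr 1
  refine List.map_congr_left fun r _ => ?_
  unfold H817.stAns
  refine List.map_congr_left fun e _ => ?_
  rw [hsub, subM_code ha hU]
  set x := H54.xi (ℓ / 2) c0 i (bx a * (2 ^ cl a * w0) + μ * r) with hx
  have hdx : μ ∣ x := dvd_xi hd h0 i (Nat.dvd_add ((hdw.mul_left _).mul_left _) (dvd_mul_right _ _))
  have h1 : x ≤ i * ℓ := by
    have := H54.xi_le (l2 := ℓ / 2) (c0 := c0) i (bx a * (2 ^ cl a * w0) + μ * r)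
    rwa [← hev] at this
  have h2 : x / μ < D := by
    rw [Nat.div_lt_iff_lt_mul hμ]
    have : i * ℓ ≤ K * ℓ := Nat.mul_le_mul_right _ hi.le
    omega
  rw [H817.stVal_code X Y ℓ μ h2, Nat.div_mul_cancel hdx, Nat.mul_comm e μ]
  rfl

end

/-! ### Polynomial time -/

section PT

variable {α : Type*} [Enc α]

@[fun_prop]
theorem PT_xi {l c i p : α → ℕ} (hl : PT ∅ l) (hc : PT ∅ c) (hi : PT ∅ i) (hp : PT ∅ p) :
    PT ∅ (fun x => H54.xi (l x) (c x) (i x) (p x)) :=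
  PT.min ((hp.add (hi.mul hl)).sub hc) (hi.mul ((PT.const 2).mul hl))

@[fun_prop]
theorem PT_idxR {l μ w0 c0 i a p q : α → ℕ} (hl : PT ∅ l) (hμ : PT ∅ μ) (hw : PT ∅ w0)
    (hc : PT ∅ c0) (hi : PT ∅ i) (ha : PT ∅ a) (hp : PT ∅ p) (hq : PT ∅ q) :
    PT ∅ (fun x => idxR (l x) (μ x) (w0 x) (c0 x) (i x) (a x) (p x) (q x)) :=
  (((hp.sub (PT_lowM hw ha hp)).div hμ).mul ((hl.div hμ).add (PT.const 1))).add
    (((PT_xi (hl.div (PT.const 2)) hc (hi.add (PT.const 1)) hq).sub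
      (PT_xi (hl.div (PT.const 2)) hc hi hp)).div hμ)

@[fun_prop]
theorem PT_nsM {U μ w0 Dc cur : α → ℕ} (hU : PT ∅ U) (hUb : PBd U) (hμ : PT ∅ μ) (hw : PT ∅ w0)
    (hD : PT ∅ Dc) (hc : PT ∅ cur) :
    PT ∅ (fun x => nsM (U x) (μ x) (w0 x) (Dc x) (cur x)) := by
  unfold nsM
  exact (((PT.const 2).mul ((PT.pow (PT.const 2) (PT.min (PT_cl ((hc.sub (PT.const 1)).mod hD)) hU)
    (PBd_min_right hUb)).mul hw)).div hμ).add (PT.const 1)

@[fun_prop]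
theorem PT_subM {U l μ w0 c0 D Dc cur r : α → ℕ} (hU : PT ∅ U) (hUb : PBd U) (hl : PT ∅ l)
    (hμ : PT ∅ μ) (hw : PT ∅ w0) (h0 : PT ∅ c0) (hD : PT ∅ D) (hDc : PT ∅ Dc) (hc : PT ∅ cur)
    (hr : PT ∅ r) :
    PT ∅ (fun x => subM (U x) (l x) (μ x) (w0 x) (c0 x) (D x) (Dc x) (cur x) (r x)) := by
  unfold subM
  have h1 := (hc.sub (PT.const 1)).div hDc
  have h2 := (hc.sub (PT.const 1)).mod hDc
  have h3 := (PT.pow (PT.const 2) (PT.min (PT_cl h2) hU) (PBd_min_right hUb)).mul hw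
  exact (h1.mul hD).add ((PT_xi (hl.div (PT.const 2)) h0 h1
    (((PT_bx h2).mul h3).add (hμ.mul hr))).div hμ)

theorem pt_knownR' {cv : α → ℕ → ℕ → Bool} {idx : α → ℕ → ℕ → ℕ → ℕ → ℕ}
    {vis : α → ℕ → ℕ → ℕ → ℕ} {T : α → KT} (hT : PT ∅ T)
    (hcv : PT ∅ (fun x : α × ℕ × ℕ => cv x.1 x.2.1 x.2.2))
    (hidx : PT ∅ (fun x : α × ℕ × ℕ × ℕ × ℕ => idx x.1 x.2.1 x.2.2.1 x.2.2.2.1 x.2.2.2.2))
    (hvis : PT ∅ (fun x : α × ℕ × ℕ × ℕ => vis x.1 x.2.1 x.2.2.1 x.2.2.2)) :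
    PT ∅ (fun x : α × ℕ × ℕ × ℕ =>
      knownR (cv x.1) (idx x.1) (vis x.1) (T x.1) x.2.1 x.2.2.1 x.2.2.2) := by
  unfold knownR
  refine pt_knownG (α := α × ℕ × ℕ × ℕ) (cv := fun x => cv x.1) (idx := fun x => idx x.1 x.2.1)
    (vis := fun x => vis x.1) (hT.comp PT.fst') PT.snd'.fst PT.snd'.snd.fst PT.snd'.snd.snd
    ?_ ?_ hvis
  · exact hcv.comp (PT.fst'.fst.pair PT.snd')
  · exact hidx.comp (PT.fst'.fst.pair (PT.fst'.snd.fst.pair PT.snd'))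

theorem pt_cvalRF {n μ sh MJ i : α → ℕ} {ad cv : α → ℕ → ℕ → Bool}
    {idx : α → ℕ → ℕ → ℕ → ℕ → ℕ} {vis : α → ℕ → ℕ → ℕ → ℕ} {T : α → KT} (hn : PT ∅ n)
    (hnb : PBd n) (hμ : PT ∅ μ) (hsh : PT ∅ sh)
    (had : PT ∅ (fun x : α × ℕ × ℕ => ad x.1 x.2.1 x.2.2))
    (hcv : PT ∅ (fun x : α × ℕ × ℕ => cv x.1 x.2.1 x.2.2))
    (hidx : PT ∅ (fun x : α × ℕ × ℕ × ℕ × ℕ => idx x.1 x.2.1 x.2.2.1 x.2.2.2.1 x.2.2.2.2))
    (hvis : PT ∅ (fun x : α × ℕ × ℕ × ℕ => vis x.1 x.2.1 x.2.2.1 x.2.2.2))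
    (hT : PT ∅ T) (hMJ : PT ∅ MJ) (hMJb : PBd MJ) (hi : PT ∅ i) {u : α → ℕ} (hu : PT ∅ u) :
    PT ∅ (fun a => cvalRF (n a) (μ a) (sh a) (ad a) (cv a) (idx a) (vis a) (T a) (MJ a) (i a)
      (u a)) :=
  pt_bestF (f := fun a => knownR (cv a) (idx a) (vis a) (T a)) hn hnb hμ hsh (hi.mul hMJ) hMJ
    hMJb hu had (pt_knownR' hT hcv hidx hvis)

/-- The certified costs of Milestone 2. -/
theorem pt_cvM {n l μ w0 c0 MJ i u : α → ℕ} {vis : α → ℕ → ℕ → ℕ → ℕ} {T : α → KT}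
    (hn : PT ∅ n) (hnb : PBd n) (hl : PT ∅ l) (hμ : PT ∅ μ) (hw : PT ∅ w0) (h0 : PT ∅ c0)
    (hvis : PT ∅ (fun x : α × ℕ × ℕ × ℕ => vis x.1 x.2.1 x.2.2.1 x.2.2.2)) (hT : PT ∅ T)
    (hMJ : PT ∅ MJ) (hMJb : PBd MJ) (hi : PT ∅ i) (hu : PT ∅ u) :
    PT ∅ (fun a => cvalRF (n a) (μ a) 2 (adM (l a)) (cvB (w0 a))
      (idxR (l a) (μ a) (w0 a) (c0 a)) (vis a) (T a) (MJ a) (i a) (u a)) := by
  refine pt_cvalRF (sh := fun _ => 2) (ad := fun a => adM (l a)) (cv := fun a => cvB (w0 a))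
    (idx := fun a => idxR (l a) (μ a) (w0 a) (c0 a)) hn hnb hμ (PT.const 2) ?_ ?_ ?_ hvis hT hMJ
    hMJb hi hu
  · exact PT_adM (hl.comp PT.fst') PT.snd'.fst PT.snd'.snd
  · exact PT_cvB (hw.comp PT.fst') PT.snd'.fst PT.snd'.snd
  · exact PT_idxR (hl.comp PT.fst') (hμ.comp PT.fst') (hw.comp PT.fst') (h0.comp PT.fst')
      PT.snd'.fst PT.snd'.snd.fst PT.snd'.snd.snd.fst PT.snd'.snd.snd.snd

end PT

end Vale.Agent.P315.Q
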