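import Vale.Agent.P315.RAM.Oracle
import Vale.Agent.Lib.PolyTime.NatArith2
import Vale.Agent.P315.H207.Causal

/-! P315 (helper514), row G-STRAT: the state of the oracle loop.

The strategy is given by ONE polynomial time function `next (F, T)` of the feed `F` and the list
`T` of the known cells with their answers, newest first: `0` = finished, otherwise the code of the
next cell plus one; code of the cell `(i, a)` = `i * D F + a`. The state of the oracle loop is
`(F, cur, T, part)`: `cur = next (F, T)`, `part` = reversed beginning of the current answer. The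
answer of the query `cur - 1` has the length `len (F, cur) > 0`. A finished run asks the code `0`
and forgets the answer.

* `startS`, `askS`, `updS`, `outS` : the functions for RAM/Oracle.lean, and their `PT` proofs;
* `tr next D F ans t`      : the known cells after `t` rounds (pure loop);
* `oround_iterate`, `askS_iterate`, `outS_iterate` : the state after `t` rounds;
* `esize_state_le`, `esize_part_le` : size bounds of all states of the run;
* `tr_eq_rnd`              : `tr` is the loop of H207/Causal.lean. -/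

set_option autoImplicit false

namespace Vale.Agent.P315.Q

open Vale.Agent.Lib Vale.Agent.Lib.PolyTime Vale.Agent.P315.RAM

/-- Known cells with answers, newest first. -/
abbrev Kn := List ((ℕ × ℕ) × List ℕ)

/-- State of the oracle loop: feed, current query plus one, known cells, beginning of the
answer. -/
abbrev St := List ℕ × ℕ × Kn × List ℕ

/-- Cell with a given code. -/
def decC (D c : ℕ) : ℕ × ℕ := (c / D, c % D)

/-- Add the answer of the query `cur - 1`. -/
def addK (D cur : ℕ) (l : List ℕ) (T : Kn) : Kn := if cur = 0 then T else (decC D (cur - 1), l) :: T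

/-- First state. -/
def startS (next : List ℕ × Kn → ℕ) (F : List ℕ) : St := (F, next (F, []), [], [])

/-- Current query. -/
def askS (s : St) : ℕ := s.2.1 - 1

/-- Absorb one number. -/
def updS (len : List ℕ × ℕ → ℕ) (D : List ℕ → ℕ) (next : List ℕ × Kn → ℕ) (x : ℕ × St) : St :=
  if x.2.2.2.2.length + 1 < len (x.2.1, x.2.2.1) then
    (x.2.1, x.2.2.1, x.2.2.2.1, x.1 :: x.2.2.2.2)
  else
    (x.2.1, next (x.2.1, addK (D x.2.1) x.2.2.1 (x.1 :: x.2.2.2.2).reverse x.2.2.2.1),
      addK (D x.2.1) x.2.2.1 (x.1 :: x.2.2.2.2).reverse x.2.2.2.1, [])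

/-- Output. -/
def outS (out : List ℕ × Kn → ℕ) (s : St) : ℕ := out (s.1, s.2.2.1)

/-- The known cells after `t` rounds. -/
def tr (next : List ℕ × Kn → ℕ) (D : ℕ) (F : List ℕ) (ans : ℕ → List ℕ) : ℕ → Kn
  | 0 => []
  | t + 1 => addK D (next (F, tr next D F ans t)) (ans (next (F, tr next D F ans t) - 1))
      (tr next D F ans t)

theorem tr_length_le (next : List ℕ × Kn → ℕ) (D : ℕ) (F : List ℕ) (ans : ℕ → List ℕ) (t : ℕ) :
    (tr next D F ans t).length ≤ t := by
  induction t with
  | zero => exact le_rfl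
  | succ t ih =>
    unfold tr addK
    split_ifs
    · omega
    · rw [List.length_cons]; omega

theorem mem_tr (next : List ℕ × Kn → ℕ) (D : ℕ) (F : List ℕ) (ans : ℕ → List ℕ) (t : ℕ) :
    ∀ c ∈ tr next D F ans t, ∃ t' < t, c = (decC D (next (F, tr next D F ans t') - 1),
      ans (next (F, tr next D F ans t') - 1)) := by
  induction t with
  | zero => simp [tr]
  | succ t ih =>
    intro c hc
    unfold tr addK at hc
    split_ifs at hc
    · obtain ⟨t', h1, h2⟩ := ih c hc
      exact ⟨t', by omega, h2⟩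
    · rcases List.mem_cons.mp hc with rfl | hc
      · exact ⟨t, by omega, rfl⟩
      · obtain ⟨t', h1, h2⟩ := ih c hc
        exact ⟨t', by omega, h2⟩

section
variable {len : List ℕ × ℕ → ℕ} {D : List ℕ → ℕ} {next : List ℕ × Kn → ℕ} {F : List ℕ}

theorem absorb_take (q : ℕ) (T : Kn) (l : List ℕ) (j : ℕ) (hj : j < len (F, q)) :
    j ≤ l.length → absorb (updS len D next) (l.take j) (F, q, T, []) =
      (F, q, T, (l.take j).reverse) := by
  induction j with
  | zero => intro _; rfl
  | succ j ih =>
    intro hjl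
    rw [absorb_take_succ _ _ _ (by omega), ih (by omega) (by omega)]
    have h1 : (l.take j).reverse.length + 1 < len (F, q) := by
      rw [List.length_reverse, List.length_take]; omega
    unfold updS
    simp only
    rw [if_pos h1, List.take_succ_eq_append_getElem (by omega), List.reverse_append,
      List.getD_eq_getElem _ _ (by omega)]
    rfl

theorem absorb_all (q : ℕ) (T : Kn) (l : List ℕ) (hl : l.length = len (F, q))
    (h0 : 0 < len (F, q)) :
    absorb (updS len D next) l (F, q, T, []) =
      (F, next (F, addK (D F) q l T), addK (D F) q l T, []) := by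
  obtain ⟨j, hj⟩ : ∃ j, len (F, q) = j + 1 := ⟨len (F, q) - 1, by omega⟩
  have h1 : l = l.take (j + 1) := by rw [List.take_of_length_le (by omega)]
  have h2 : (l.getD j 0 :: (l.take j).reverse).reverse = l := by
    rw [List.reverse_cons, List.reverse_reverse, List.getD_eq_getElem _ _ (by omega)]
    rw [← List.take_succ_eq_append_getElem (by omega)]
    exact h1.symm
  conv_lhs => rw [h1]
  rw [absorb_take_succ _ _ _ (by omega), absorb_take q T l j (by omega) (by omega)]
  have h3 : ¬ (l.take j).reverse.length + 1 < len (F, q) := by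
    rw [List.length_reverse, List.length_take]; omega
  unfold updS
  simp only
  rw [if_neg h3, h2]

/-- The state after `t` rounds. -/
theorem oround_iterate {ans : ℕ → List ℕ} (h0 : ∀ q, 0 < len (F, q)) (t : ℕ)
    (hl : ∀ t' < t, (ans (next (F, tr next (D F) F ans t') - 1)).length =
      len (F, next (F, tr next (D F) F ans t'))) :
    (oround askS (updS len D next) ans)^[t] (startS next F) =
      (F, next (F, tr next (D F) F ans t), tr next (D F) F ans t, []) := by
  induction t with
  | zero => rfl
  | succ t ih =>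
    rw [Function.iterate_succ_apply', ih fun t' h => hl t' (by omega)]
    exact absorb_all _ _ _ (hl t (by omega)) (h0 _)

theorem askS_iterate {ans : ℕ → List ℕ} (h0 : ∀ q, 0 < len (F, q)) (t : ℕ)
    (hl : ∀ t' < t, (ans (next (F, tr next (D F) F ans t') - 1)).length =
      len (F, next (F, tr next (D F) F ans t'))) :
    askS ((oround askS (updS len D next) ans)^[t] (startS next F)) =
      next (F, tr next (D F) F ans t) - 1 := by
  rw [oround_iterate h0 t hl]; rfl

theorem outS_iterate {ans : ℕ → List ℕ} (out : List ℕ × Kn → ℕ) (h0 : ∀ q, 0 < len (F, q)) (t : ℕ)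
    (hl : ∀ t' < t, (ans (next (F, tr next (D F) F ans t') - 1)).length =
      len (F, next (F, tr next (D F) F ans t'))) :
    outS out ((oround askS (updS len D next) ans)^[t] (startS next F)) =
      out (F, tr next (D F) F ans t) := by
  rw [oround_iterate h0 t hl]; rfl

end

/-! ### Sizes -/

/-- Bound for the states: `f` = size of the feed, `c` = size of `next`, `c'` = size of a cell,
`a` = length of the answers, `m` = size of their entries, `t` = number of the rounds. -/
def stB (f c c' a m t : ℕ) : ℕ :=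
  2 * f + 2 * c + 2 * (t * (2 * (2 * c' + a * (2 * m + 1) + 1) + 1)) + a * (2 * m + 1) + 3

theorem stB_mono {f c c' a m t t' : ℕ} (h : t ≤ t') : stB f c c' a m t ≤ stB f c c' a m t' := by
  unfold stB
  have := Nat.mul_le_mul_right (2 * (2 * c' + a * (2 * m + 1) + 1) + 1) h
  omega

theorem esize_St (s : St) : esize s = 2 * esize s.1 + (2 * esize s.2.1 +
    (2 * esize s.2.2.1 + esize s.2.2.2 + 1) + 1) + 1 := by
  obtain ⟨F, q, T, p⟩ := s
  rw [PolyTime.esize_pair, PolyTime.esize_pair, PolyTime.esize_pair]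

section
variable {len : List ℕ × ℕ → ℕ} {D : List ℕ → ℕ} {next : List ℕ × Kn → ℕ} {F : List ℕ}
  {ans : ℕ → List ℕ} {f c c' a m t : ℕ}

theorem esize_tr_le
    (hc : ∀ t' < t, esize (decC (D F) (next (F, tr next (D F) F ans t') - 1)) ≤ c')
    (ha : ∀ t' < t, (ans (next (F, tr next (D F) F ans t') - 1)).length ≤ a ∧
      ∀ v ∈ ans (next (F, tr next (D F) F ans t') - 1), esize v ≤ m) :
    esize (tr next (D F) F ans t) ≤ t * (2 * (2 * c' + a * (2 * m + 1) + 1) + 1) := by
  have h1 : ∀ x ∈ tr next (D F) F ans t, esize x ≤ 2 * c' + a * (2 * m + 1) + 1 := by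
    intro x hx
    obtain ⟨t', ht', rfl⟩ := mem_tr next (D F) F ans t x hx
    obtain ⟨h4, h5⟩ := ha t' ht'
    have h7 := (esize_list_le h5).trans (Nat.mul_le_mul_right (2 * m + 1) h4)
    rw [PolyTime.esize_pair]
    have h9 := hc t' ht'
    omega
  exact (esize_list_le h1).trans (Nat.mul_le_mul_right _ (tr_length_le _ _ _ _ _))

theorem esize_state_le (h0 : ∀ q, 0 < len (F, q)) (hf : esize F ≤ f)
    (hl : ∀ t' < t, (ans (next (F, tr next (D F) F ans t') - 1)).length =
      len (F, next (F, tr next (D F) F ans t')))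
    (hla : ∀ q, len (F, q) ≤ a)
    (hm : ∀ t' < t, ∀ v ∈ ans (next (F, tr next (D F) F ans t') - 1), esize v ≤ m)
    (hc : ∀ t' ≤ t, esize (next (F, tr next (D F) F ans t')) ≤ c)
    (hc' : ∀ t' < t, esize (decC (D F) (next (F, tr next (D F) F ans t') - 1)) ≤ c') :
    esize ((oround askS (updS len D next) ans)^[t] (startS next F)) ≤ stB f c c' a m t := by
  rw [oround_iterate h0 t hl, esize_St]
  have h1 := esize_tr_le (a := a) (m := m) hc' (fun t' h => ⟨(hl t' h).le.trans (hla _), hm t' h⟩)
  have h2 := hc t le_rfl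
  have h3 : esize ([] : List ℕ) = 0 := esize_list_nil
  unfold stB
  simp only [h3]
  omega

/-- Size of all intermediate states of round `t`. -/
theorem esize_part_le (h0 : ∀ q, 0 < len (F, q)) (hf : esize F ≤ f)
    (hl : ∀ t' ≤ t, (ans (next (F, tr next (D F) F ans t') - 1)).length =
      len (F, next (F, tr next (D F) F ans t')))
    (hla : ∀ q, len (F, q) ≤ a)
    (hm : ∀ t' ≤ t, ∀ v ∈ ans (next (F, tr next (D F) F ans t') - 1), esize v ≤ m)
    (hc : ∀ t' ≤ t + 1, esize (next (F, tr next (D F) F ans t')) ≤ c)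
    (hc' : ∀ t' ≤ t, esize (decC (D F) (next (F, tr next (D F) F ans t') - 1)) ≤ c') :
    ∀ j ≤ (ans (askS ((oround askS (updS len D next) ans)^[t] (startS next F)))).length,
      esize (absorb (updS len D next)
        ((ans (askS ((oround askS (updS len D next) ans)^[t] (startS next F)))).take j)
        ((oround askS (updS len D next) ans)^[t] (startS next F))) ≤
        stB f c c' a m (t + 1) := by
  intro j hj
  have hit := oround_iterate (D := D) (next := next) (ans := ans) h0 t (fun t' h => hl t' h.le)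
  rw [askS_iterate h0 t (fun t' h => hl t' h.le)] at hj ⊢
  rw [hit]
  have hlen := hl t le_rfl
  rcases Nat.lt_or_ge j (len (F, next (F, tr next (D F) F ans t))) with h | h
  · rw [absorb_take _ _ _ j h hj, esize_St]
    have h1 := esize_tr_le (t := t) (a := a) (m := m) (fun t' h => hc' t' h.le)
      (fun t' h => ⟨(hl t' h.le).le.trans (hla _), hm t' h.le⟩)
    have h2 := hc t (by omega)
    have h4 : esize ((ans (next (F, tr next (D F) F ans t) - 1)).take j) ≤ a * (2 * m + 1) := by
      refine (esize_take_le _ _).trans ((esize_list_le (hm t le_rfl)).trans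
        (Nat.mul_le_mul_right _ ?_))
      have := hla (next (F, tr next (D F) F ans t))
      omega
    have h3 : t * (2 * (2 * c' + a * (2 * m + 1) + 1) + 1) ≤
        (t + 1) * (2 * (2 * c' + a * (2 * m + 1) + 1) + 1) := Nat.mul_le_mul_right _ (by omega)
    unfold stB
    simp only [esize_reverse]
    omega
  · have hj' : j = (ans (next (F, tr next (D F) F ans t) - 1)).length := by omega
    rw [hj', List.take_length]
    have h5 := esize_state_le (len := len) (D := D) (next := next) (F := F) (ans := ans) (f := f)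
      (c := c) (c' := c') (a := a) (m := m) (t := t + 1) h0 hf (fun t' h => hl t' (by omega)) hla
      (fun t' h => hm t' (by omega)) hc (fun t' h => hc' t' (by omega))
    rw [Function.iterate_succ_apply', hit] at h5
    exact h5

end

/-! ### Polynomial time -/

theorem pt_decC {α : Type*} [Enc α] {D c : α → ℕ} (hD : PT ∅ D) (hc : PT ∅ c) :
    PT ∅ (fun a => decC (D a) (c a)) := (hc.div hD).pair (hc.mod hD)

theorem pt_addK {α : Type*} [Enc α] {D cur : α → ℕ} {l : α → List ℕ} {T : α → Kn}
    (hD : PT ∅ D) (hc : PT ∅ cur) (hl : PT ∅ l) (hT : PT ∅ T) :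
    PT ∅ (fun a => addK (D a) (cur a) (l a) (T a)) :=
  PT.ite (p := fun a => cur a = 0) (PT.eqNat hc (PT.const 0)) hT
    (((pt_decC hD (hc.sub (PT.const 1))).pair hl).cons hT)

theorem pt_startS {next : List ℕ × Kn → ℕ} (hn : PT ∅ next) : PT ∅ (startS next) :=
  PT.id.pair ((hn.comp (PT.id.pair PT.nil)).pair (PT.nil.pair PT.nil))

theorem pt_askS : PT ∅ askS := PT.snd'.fst.sub (PT.const 1)

theorem pt_outS {out : List ℕ × Kn → ℕ} (ho : PT ∅ out) : PT ∅ (outS out) :=
  ho.comp (PT.fst'.pair PT.snd'.snd.fst)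

theorem pt_updS {len : List ℕ × ℕ → ℕ} {D : List ℕ → ℕ} {next : List ℕ × Kn → ℕ}
    (hlen : PT ∅ len) (hD : PT ∅ D) (hn : PT ∅ next) : PT ∅ (updS len D next) := by
  have hF : PT ∅ (fun x : ℕ × St => x.2.1) := PT.snd'.fst
  have hq : PT ∅ (fun x : ℕ × St => x.2.2.1) := PT.snd'.snd.fst
  have hT : PT ∅ (fun x : ℕ × St => x.2.2.2.1) := PT.snd'.snd.snd.fst
  have hp : PT ∅ (fun x : ℕ × St => x.2.2.2.2) := PT.snd'.snd.snd.snd
  have hT' : PT ∅ (fun x : ℕ × St =>
      addK (D x.2.1) x.2.2.1 (x.1 :: x.2.2.2.2).reverse x.2.2.2.1) :=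
    pt_addK (hD.comp hF) hq (PT.fst'.cons hp).reverse hT
  refine PT.ite (p := fun x : ℕ × St => x.2.2.2.2.length + 1 < len (x.2.1, x.2.2.1))
    (PT.lt (hp.length.add (PT.const 1)) (hlen.comp (hF.pair hq))) ?_ ?_
  · exact hF.pair (hq.pair (hT.pair (PT.fst'.cons hp)))
  · exact hF.pair ((hn.comp (hF.pair hT')).pair (hT'.pair PT.nil))

/-! ### The loop of causal lists -/

open Vale.Agent.P315.H207 in
/-- Code of the next query, plus one. -/
def codeN (D : ℕ) (o : Option (ℕ × ℕ)) : ℕ := o.elim 0 fun c => c.1 * D + c.2 + 1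

theorem decC_code {D i a : ℕ} (h : a < D) : decC D (i * D + a) = (i, a) := by
  unfold decC
  rw [Nat.add_comm, Nat.add_mul_div_right _ _ (by omega), Nat.div_eq_of_lt h,
    Nat.add_mul_mod_self_right, Nat.mod_eq_of_lt h, zero_add]

open Vale.Agent.P315.H207 in
/-- The pure loop is the loop of H207/Causal.lean. -/
theorem tr_eq_rnd {next : List ℕ × Kn → ℕ} {D : ℕ} {F : List ℕ} {ans : ℕ → List ℕ}
    {L : (ℕ × ℕ → List ℕ) → List (ℕ × ℕ)} {d h : ℕ × ℕ → List ℕ} (hL : Causal L)
    (hnext : ∀ T : Kn, GoodT L h T → next (F, T) = codeN D (nextQ L d T))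
    (hans : ∀ c ∈ L h, ans (c.1 * D + c.2) = h c) (hD : ∀ c ∈ L h, c.2 < D) (t : ℕ) :
    tr next D F ans t = (rnd L d h)^[t] [] := by
  induction t with
  | zero => rfl
  | succ t ih =>
    rw [Function.iterate_succ_apply']
    unfold tr
    rw [ih]
    set T := (rnd L d h)^[t] [] with hT
    have hg : GoodT L h T := GoodT.iterate hL d h t
    rw [hnext T hg]
    rcases hg.next hL (d := d) with ⟨h1, -, -⟩ | ⟨q, h1, h2, -⟩
    · simp only [rnd, h1]
      rfl
    · simp only [rnd, h1]
      have h3 : codeN D (some q) = q.1 * D + q.2 + 1 := rfl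
      unfold addK
      rw [h3, if_neg (by omega), Nat.add_sub_cancel, decC_code (hD q h2), hans q h2]

open Vale.Agent.P315.H207 in
/-- All codes asked in the run are codes of cells of the true list, or `0`. -/
theorem next_valid {next : List ℕ × Kn → ℕ} {D : ℕ} {F : List ℕ} {ans : ℕ → List ℕ}
    {L : (ℕ × ℕ → List ℕ) → List (ℕ × ℕ)} {d h : ℕ × ℕ → List ℕ} (hL : Causal L)
    (hnext : ∀ T : Kn, GoodT L h T → next (F, T) = codeN D (nextQ L d T))
    (hans : ∀ c ∈ L h, ans (c.1 * D + c.2) = h c) (hD : ∀ c ∈ L h, c.2 < D) (t : ℕ) :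
    next (F, tr next D F ans t) = 0 ∨
      ∃ c ∈ L h, next (F, tr next D F ans t) = c.1 * D + c.2 + 1 := by
  rw [tr_eq_rnd hL hnext hans hD]
  have hg : GoodT L h ((rnd L d h)^[t] []) := GoodT.iterate hL d h t
  rw [hnext _ hg]
  rcases hg.next hL (d := d) with ⟨h1, -, -⟩ | ⟨q, h1, h2, -⟩
  · left; rw [h1]; rfl
  · right; exact ⟨q, h2, by rw [h1]; rfl⟩

end Vale.Agent.P315.Q
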