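import Vale.Agent.P315.Q.Loop
import Vale.Agent.P315.H207.Fin

/-! P315 (helper514), Milestone 2, row M2-STRAT: the oracle loop, one query per START of a cell.

The state and the update are those of `Q/Loop.lean`; the answer of the cell with code `cur - 1`
consists of the answers of `ns (F, cur)` queries `sub (F, cur, r)`, `r < ns (F, cur)`, each of the
length `w F`; `askM` asks the query number `part.length / w F`.

* `askM_run`       : the state after any number `Q` of rounds;
* `askM_complete`  : all cells are known as soon as `Q ≥` the weighted number of cells;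
* `askM_size`      : size bounds of all states;
* `pt_askM`, `loopM`: polynomial time; the result over `LoopRes`. -/

set_option autoImplicit false

namespace Vale.Agent.P315.Q

open Vale.Agent.Lib Vale.Agent.Lib.PolyTime Vale.Agent.P315.RAM

/-- Current query: the start number `part.length / w`. -/
def askM (sub : List ℕ × ℕ × ℕ → ℕ) (w : List ℕ → ℕ) (s : St) : ℕ :=
  sub (s.1, s.2.1, s.2.2.2.length / w s.1)

/-- Answers of the first `r` queries of the cell `cur - 1`. -/
def ansR (sub : List ℕ × ℕ × ℕ → ℕ) (ans : ℕ → List ℕ) (F : List ℕ) (cur r : ℕ) : List ℕ :=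
  (List.range r).flatMap fun i => ans (sub (F, cur, i))

/-- Answer of the cell with the code `c`. -/
def ansV (ns : List ℕ × ℕ → ℕ) (sub : List ℕ × ℕ × ℕ → ℕ) (ans : ℕ → List ℕ) (F : List ℕ)
    (c : ℕ) : List ℕ := ansR sub ans F (c + 1) (ns (F, c + 1))

theorem ansR_succ (sub : List ℕ × ℕ × ℕ → ℕ) (ans : ℕ → List ℕ) (F : List ℕ) (cur r : ℕ) :
    ansR sub ans F cur (r + 1) = ansR sub ans F cur r ++ ans (sub (F, cur, r)) := by
  unfold ansR
  rw [List.range_succ, List.flatMap_append]
  simp

theorem ansR_length {sub : List ℕ × ℕ × ℕ → ℕ} {ans : ℕ → List ℕ} {F : List ℕ} {cur w r : ℕ}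
    (h : ∀ i < r, (ans (sub (F, cur, i))).length = w) :
    (ansR sub ans F cur r).length = r * w := by
  induction r with
  | zero => simp [ansR]
  | succ r ih =>
    rw [ansR_succ, List.length_append, ih fun i hi => h i (by omega), h r (by omega), add_mul,
      one_mul]

section
variable {len : List ℕ × ℕ → ℕ} {D : List ℕ → ℕ} {next : List ℕ × Kn → ℕ} {F : List ℕ}

theorem absorb_take' (q : ℕ) (T : Kn) (part l : List ℕ) (j : ℕ)
    (hj : part.length + j < len (F, q)) :
    j ≤ l.length → absorb (updS len D next) (l.take j) (F, q, T, part) =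
      (F, q, T, (l.take j).reverse ++ part) := by
  induction j with
  | zero => intro _; rfl
  | succ j ih =>
    intro hjl
    rw [absorb_take_succ _ _ _ (by omega), ih (by omega) (by omega)]
    have h1 : ((l.take j).reverse ++ part).length + 1 < len (F, q) := by
      rw [List.length_append, List.length_reverse, List.length_take]; omega
    unfold updS
    simp only
    rw [if_pos h1, List.take_succ_eq_append_getElem (by omega), List.reverse_append,
      List.getD_eq_getElem _ _ (by omega)]
    rfl

theorem absorb_all' (q : ℕ) (T : Kn) (part l : List ℕ) (hl : 0 < l.length)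
    (h : part.length + l.length = len (F, q)) :
    absorb (updS len D next) l (F, q, T, part) =
      (F, next (F, addK (D F) q (part.reverse ++ l) T), addK (D F) q (part.reverse ++ l) T,
        []) := by
  obtain ⟨j, hj⟩ : ∃ j, l.length = j + 1 := ⟨l.length - 1, by omega⟩
  have h1 : l = l.take (j + 1) := by rw [List.take_of_length_le (by omega)]
  have h2 : (l.getD j 0 :: ((l.take j).reverse ++ part)).reverse = part.reverse ++ l := by
    rw [List.reverse_cons, List.reverse_append, List.reverse_reverse,
      List.getD_eq_getElem _ _ (by omega), List.append_assoc]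
    rw [← List.take_succ_eq_append_getElem (by omega), ← h1]
  conv_lhs => rw [h1]
  rw [absorb_take_succ _ _ _ (by omega), absorb_take' q T part l j (by omega) (by omega)]
  have h3 : ¬ ((l.take j).reverse ++ part).length + 1 < len (F, q) := by
    rw [List.length_append, List.length_reverse, List.length_take]; omega
  unfold updS
  simp only
  rw [if_neg h3, h2]

end

section
variable {ns : List ℕ × ℕ → ℕ} {w D : List ℕ → ℕ} {sub : List ℕ × ℕ × ℕ → ℕ}
  {next : List ℕ × Kn → ℕ} {F : List ℕ} {ans : ℕ → List ℕ}

/-- Length of the answer of a cell. -/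
def lenMM (ns : List ℕ × ℕ → ℕ) (w : List ℕ → ℕ) (x : List ℕ × ℕ) : ℕ := ns x * w x.1

/-- The current query plus one after `k` complete cells. -/
def curM (ns : List ℕ × ℕ → ℕ) (sub : List ℕ × ℕ × ℕ → ℕ) (next : List ℕ × Kn → ℕ)
    (D : List ℕ → ℕ) (F : List ℕ) (ans : ℕ → List ℕ) (k : ℕ) : ℕ :=
  next (F, tr next (D F) F (ansV ns sub ans F) k)

/-- The answers of the queries asked in the run have the length `w F`. -/
def AnsLen (ns : List ℕ × ℕ → ℕ) (sub : List ℕ × ℕ × ℕ → ℕ) (next : List ℕ × Kn → ℕ)
    (w D : List ℕ → ℕ) (F : List ℕ) (ans : ℕ → List ℕ) : Prop :=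
  ∀ k, ∀ r < ns (F, curM ns sub next D F ans k),
    (ans (sub (F, curM ns sub next D F ans k, r))).length = w F

/-- The state after `Q` rounds: `k` complete cells and `r` queries of the current one. -/
theorem askM_run (hw : 0 < w F) (hns : ∀ q, 0 < ns (F, q)) (hl : AnsLen ns sub next w D F ans)
    (Q : ℕ) : ∃ k r, r < ns (F, curM ns sub next D F ans k) ∧
      ∑ t ∈ Finset.range k, ns (F, curM ns sub next D F ans t) + r = Q ∧
      (oround (askM sub w) (updS (lenMM ns w) D next) ans)^[Q] (startS next F) =
        (F, curM ns sub next D F ans k, tr next (D F) F (ansV ns sub ans F) k,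
          (ansR sub ans F (curM ns sub next D F ans k) r).reverse) := by
  induction Q with
  | zero => exact ⟨0, 0, hns _, by simp, rfl⟩
  | succ Q ih =>
    obtain ⟨k, r, hr, hQ, hst⟩ := ih
    set cur := curM ns sub next D F ans k with hcur
    have hpl : (ansR sub ans F cur r).length = r * w F :=
      ansR_length fun i hi => hl k i (by rw [← hcur]; omega)
    have hask : askM sub w (F, cur, tr next (D F) F (ansV ns sub ans F) k,
        (ansR sub ans F cur r).reverse) = sub (F, cur, r) := by
      unfold askM
      simp only [List.length_reverse, hpl]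
      rw [Nat.mul_div_cancel _ hw]
    have hla : (ans (sub (F, cur, r))).length = w F := hl k r hr
    rw [Function.iterate_succ_apply', hst]
    rcases Nat.lt_or_ge (r + 1) (ns (F, cur)) with h | h
    · refine ⟨k, r + 1, h, by omega, ?_⟩
      unfold oround
      rw [hask]
      have h1 : (r + 1) * w F < lenMM ns w (F, cur) := Nat.mul_lt_mul_of_pos_right h hw
      rw [add_mul, one_mul] at h1
      have h2 := absorb_take' (len := lenMM ns w) (D := D) (next := next) (F := F) cur
        (tr next (D F) F (ansV ns sub ans F) k) (ansR sub ans F cur r).reverse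
        (ans (sub (F, cur, r))) (w F) (by rw [List.length_reverse, hpl]; exact h1) hla.ge
      rw [List.take_of_length_le hla.le] at h2
      rw [h2, ansR_succ, List.reverse_append]
    · have hrn : r + 1 = ns (F, cur) := by omega
      refine ⟨k + 1, 0, hns _, ?_, ?_⟩
      · rw [Finset.sum_range_succ, ← hcur]; omega
      · unfold oround
        rw [hask]
        have h1 : (ansR sub ans F cur r).reverse.length + (ans (sub (F, cur, r))).length =
            lenMM ns w (F, cur) := by
          rw [List.length_reverse, hpl, hla]
          unfold lenMM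
          rw [← hrn]
          ring
        rw [absorb_all' (len := lenMM ns w) (D := D) (next := next) (F := F) cur _ _ _
          (by rw [hla]; exact hw) h1]
        have h2 : addK (D F) cur ((ansR sub ans F cur r).reverse.reverse ++
            ans (sub (F, cur, r))) (tr next (D F) F (ansV ns sub ans F) k) =
            tr next (D F) F (ansV ns sub ans F) (k + 1) := by
          show _ = addK (D F) cur (ansV ns sub ans F (cur - 1))
            (tr next (D F) F (ansV ns sub ans F) k)
          rw [List.reverse_reverse, ← ansR_succ, hrn]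
          unfold addK
          split_ifs with h0
          · rfl
          · unfold ansV
            rw [show cur - 1 + 1 = cur by omega]
        rw [h2]
        rfl

/-- The states in the middle of a round. -/
theorem askM_part (hw : 0 < w F) (hns : ∀ q, 0 < ns (F, q)) (hl : AnsLen ns sub next w D F ans)
    (Q : ℕ) : ∀ j ≤ (ans (askM sub w ((oround (askM sub w) (updS (lenMM ns w) D next) ans)^[Q]
      (startS next F)))).length, ∃ k, k ≤ Q + 1 ∧ ∃ p : List ℕ,
      p.length ≤ lenMM ns w (F, curM ns sub next D F ans k) ∧
      (∀ v ∈ p, ∃ r < ns (F, curM ns sub next D F ans k),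
        v ∈ ans (sub (F, curM ns sub next D F ans k, r))) ∧
      absorb (updS (lenMM ns w) D next)
        ((ans (askM sub w ((oround (askM sub w) (updS (lenMM ns w) D next) ans)^[Q]
          (startS next F)))).take j)
        ((oround (askM sub w) (updS (lenMM ns w) D next) ans)^[Q] (startS next F)) =
      (F, curM ns sub next D F ans k, tr next (D F) F (ansV ns sub ans F) k, p) := by
  obtain ⟨k, r, hr, hQ, hst⟩ := askM_run hw hns hl Q
  rw [hst]
  set cur := curM ns sub next D F ans k with hcur
  have hkQ : k ≤ Q := by
    have h1 : ∑ t ∈ Finset.range k, 1 ≤ ∑ t ∈ Finset.range k, ns (F, curM ns sub next D F ans t) :=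
      Finset.sum_le_sum fun t _ => hns _
    simp only [Finset.sum_const, Finset.card_range, smul_eq_mul, mul_one] at h1
    omega
  have hpl : (ansR sub ans F cur r).length = r * w F :=
    ansR_length fun i hi => hl k i (by rw [← hcur]; omega)
  have hask : askM sub w (F, cur, tr next (D F) F (ansV ns sub ans F) k,
      (ansR sub ans F cur r).reverse) = sub (F, cur, r) := by
    unfold askM
    simp only [List.length_reverse, hpl]
    rw [Nat.mul_div_cancel _ hw]
  have hla : (ans (sub (F, cur, r))).length = w F := hl k r hr
  rw [hask, hla]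
  intro j hj
  have hfull : (r + 1) * w F ≤ lenMM ns w (F, cur) := Nat.mul_le_mul_right _ hr
  rw [add_mul, one_mul] at hfull
  rcases Nat.lt_or_ge ((ansR sub ans F cur r).reverse.length + j) (lenMM ns w (F, cur)) with h | h
  · refine ⟨k, by omega, _, ?_, ?_, absorb_take' (len := lenMM ns w) (D := D) (next := next)
      (F := F) cur _ _ _ j h (by omega)⟩
    · rw [List.length_append, List.length_reverse, List.length_take, ← hcur]
      omega
    · intro v hv
      rw [← hcur]
      rcases List.mem_append.mp hv with hv | hv
      · rw [List.mem_reverse] at hv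
        exact ⟨r, hr, List.mem_of_mem_take hv⟩
      · rw [List.mem_reverse] at hv
        unfold ansR at hv
        obtain ⟨i, hi, hv⟩ := List.mem_flatMap.mp hv
        have := List.mem_range.mp hi
        exact ⟨i, by omega, hv⟩
  · rw [List.length_reverse, hpl] at h
    have hjw : j = w F := by omega
    have h1 : (ansR sub ans F cur r).reverse.length + (ans (sub (F, cur, r))).length =
        lenMM ns w (F, cur) := by
      rw [List.length_reverse, hpl, hla]; omega
    have hrn : r + 1 = ns (F, cur) := by
      have h2 : (r + 1) * w F = ns (F, cur) * w F := by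
        have : lenMM ns w (F, cur) = ns (F, cur) * w F := rfl
        rw [add_mul, one_mul]; omega
      exact Nat.eq_of_mul_eq_mul_right hw h2
    refine ⟨k + 1, by omega, [], by simp, by simp, ?_⟩
    rw [List.take_of_length_le (by omega), absorb_all' (len := lenMM ns w) (D := D)
      (next := next) (F := F) cur _ _ _ (by rw [hla]; exact hw) h1]
    have h2 : addK (D F) cur ((ansR sub ans F cur r).reverse.reverse ++
        ans (sub (F, cur, r))) (tr next (D F) F (ansV ns sub ans F) k) =
        tr next (D F) F (ansV ns sub ans F) (k + 1) := by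
      show _ = addK (D F) cur (ansV ns sub ans F (cur - 1))
        (tr next (D F) F (ansV ns sub ans F) k)
      rw [List.reverse_reverse, ← ansR_succ, hrn]
      unfold addK
      split_ifs with h0
      · rfl
      · unfold ansV
        rw [show cur - 1 + 1 = cur by omega]
    rw [h2]
    rfl

/-! ### Sizes -/

/-- Size of all intermediate states. -/
theorem askM_size {f c c' a m B : ℕ} (hw : 0 < w F) (hns : ∀ q, 0 < ns (F, q))
    (hl : AnsLen ns sub next w D F ans) (hf : esize F ≤ f)
    (hla : ∀ k ≤ B, lenMM ns w (F, curM ns sub next D F ans k) ≤ a)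
    (hm : ∀ k ≤ B, ∀ r < ns (F, curM ns sub next D F ans k),
      ∀ v ∈ ans (sub (F, curM ns sub next D F ans k, r)), esize v ≤ m)
    (hc : ∀ k ≤ B, esize (curM ns sub next D F ans k) ≤ c)
    (hc' : ∀ k ≤ B, esize (decC (D F) (curM ns sub next D F ans k - 1)) ≤ c')
    {Q : ℕ} (hQ : Q + 1 ≤ B) :
    ∀ j ≤ (ans (askM sub w ((oround (askM sub w) (updS (lenMM ns w) D next) ans)^[Q]
      (startS next F)))).length,
      esize (absorb (updS (lenMM ns w) D next)
        ((ans (askM sub w ((oround (askM sub w) (updS (lenMM ns w) D next) ans)^[Q]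
          (startS next F)))).take j)
        ((oround (askM sub w) (updS (lenMM ns w) D next) ans)^[Q] (startS next F))) ≤
      stB f c c' (a + ns (F, 0) * w F) m B := by
  intro j hj
  obtain ⟨k, hk, p, hp1, hp2, hst⟩ := askM_part hw hns hl Q j hj
  rw [hst, esize_St]
  have h0 : ∀ k ≤ B, (ansV ns sub ans F (curM ns sub next D F ans k - 1)).length ≤
      a + ns (F, 0) * w F ∨ curM ns sub next D F ans k = 0 := by
    intro k hkB
    rcases Nat.eq_zero_or_pos (curM ns sub next D F ans k) with h | h
    · right; exact h
    · left
      unfold ansV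
      rw [show curM ns sub next D F ans k - 1 + 1 = curM ns sub next D F ans k by omega,
        ansR_length fun i hi => hl k i hi]
      exact (hla k hkB).trans (by omega)
  have h1 : ∀ x ∈ tr next (D F) F (ansV ns sub ans F) k,
      esize x ≤ 2 * c' + (a + ns (F, 0) * w F) * (2 * m + 1) + 1 := by
    intro x hx
    have hx' : ∃ t' < k, next (F, tr next (D F) F (ansV ns sub ans F) t') ≠ 0 ∧
        x = (decC (D F) (curM ns sub next D F ans t' - 1),
          ansV ns sub ans F (curM ns sub next D F ans t' - 1)) := by
      clear hst hp1 hp2 hk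
      induction k with
      | zero => simp [tr] at hx
      | succ k ih =>
        unfold tr addK at hx
        split_ifs at hx with h2
        · obtain ⟨t', ht, h3⟩ := ih hx
          exact ⟨t', by omega, h3⟩
        · rcases List.mem_cons.mp hx with rfl | hx
          · exact ⟨k, by omega, h2, rfl⟩
          · obtain ⟨t', ht, h3⟩ := ih hx
            exact ⟨t', by omega, h3⟩
    obtain ⟨t', ht', hne, rfl⟩ := hx'
    have hcur : curM ns sub next D F ans t' ≠ 0 := hne
    have h2 : (ansV ns sub ans F (curM ns sub next D F ans t' - 1)).length ≤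
        a + ns (F, 0) * w F := by
      rcases h0 t' (by omega) with h | h
      · exact h
      · exact absurd h hcur
    have h3 : ∀ v ∈ ansV ns sub ans F (curM ns sub next D F ans t' - 1), esize v ≤ m := by
      intro v hv
      unfold ansV ansR at hv
      rw [show curM ns sub next D F ans t' - 1 + 1 = curM ns sub next D F ans t' by omega] at hv
      obtain ⟨i, hi, hv⟩ := List.mem_flatMap.mp hv
      exact hm t' (by omega) i (List.mem_range.mp hi) v hv
    have h4 := (esize_list_le h3).trans (Nat.mul_le_mul_right (2 * m + 1) h2)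
    rw [PolyTime.esize_pair]
    have h5 := hc' t' (by omega)
    omega
  have h2 : esize (tr next (D F) F (ansV ns sub ans F) k) ≤
      B * (2 * (2 * c' + (a + ns (F, 0) * w F) * (2 * m + 1) + 1) + 1) :=
    ((esize_list_le h1).trans (Nat.mul_le_mul_right _ (tr_length_le _ _ _ _ _))).trans
      (Nat.mul_le_mul_right _ (by omega))
  have h3 : esize p ≤ (a + ns (F, 0) * w F) * (2 * m + 1) := by
    refine (esize_list_le (B := m) fun v hv => ?_).trans (Nat.mul_le_mul_right _ ?_)
    · obtain ⟨r, hr, hv⟩ := hp2 v hv
      exact hm k (by omega) r hr v hv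
    · exact hp1.trans ((hla k (by omega)).trans (by omega))
  have h4 := hc k (by omega)
  unfold stB
  simp only
  omega

/-! ### Completeness -/

/-- All cells of `R` are known as soon as the number of rounds is at least the weighted number of
cells. -/
theorem askM_complete {R : Finset (ℕ × ℕ)}
    (hnd : ∀ t, ((tr next (D F) F (ansV ns sub ans F) t).map Prod.fst).Nodup)
    (hsub : ∀ t, ((tr next (D F) F (ansV ns sub ans F) t).map Prod.fst).toFinset ⊆ R)
    (hcode : ∀ t < R.card, ∃ c ∈ R, c.2 < D F ∧
      curM ns sub next D F ans t = c.1 * D F + c.2 + 1)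
    {k r : ℕ} (hr : r < ns (F, curM ns sub next D F ans k))
    (hQ : ∑ c ∈ R, ns (F, c.1 * D F + c.2 + 1) ≤
      ∑ t ∈ Finset.range k, ns (F, curM ns sub next D F ans t) + r) : R.card ≤ k := by
  by_contra hk
  push Not at hk
  have key : ∀ t ≤ k + 1, (((tr next (D F) F (ansV ns sub ans F) t).map Prod.fst).map
      fun c => ns (F, c.1 * D F + c.2 + 1)).sum =
      ∑ t' ∈ Finset.range t, ns (F, curM ns sub next D F ans t') := by
    intro t
    induction t with
    | zero => intro _; simp [tr]
    | succ t ih =>
      intro ht
      obtain ⟨c, _, hc2, hc⟩ := hcode t (by omega)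
      rw [Finset.sum_range_succ, ← ih (by omega)]
      have h1 : tr next (D F) F (ansV ns sub ans F) (t + 1) =
          (decC (D F) (curM ns sub next D F ans t - 1),
            ansV ns sub ans F (curM ns sub next D F ans t - 1)) ::
            tr next (D F) F (ansV ns sub ans F) t := by
        show addK (D F) (curM ns sub next D F ans t) _ _ = _
        unfold addK
        rw [if_neg (by omega)]
        rfl
      rw [h1]
      simp only [List.map_cons, List.sum_cons]
      rw [hc, Nat.add_sub_cancel, decC_code hc2]
      ring
  have h1 := key (k + 1) le_rfl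
  have h2 : (((tr next (D F) F (ansV ns sub ans F) (k + 1)).map Prod.fst).map
      fun c => ns (F, c.1 * D F + c.2 + 1)).sum ≤ ∑ c ∈ R, ns (F, c.1 * D F + c.2 + 1) := by
    rw [← List.sum_toFinset _ (hnd (k + 1))]
    exact Finset.sum_le_sum_of_subset (hsub (k + 1))
  rw [h1, Finset.sum_range_succ] at h2
  omega

end

/-! ### Polynomial time -/

theorem pt_askM {sub : List ℕ × ℕ × ℕ → ℕ} {w : List ℕ → ℕ} (hs : PT ∅ sub) (hw : PT ∅ w) :
    PT ∅ (askM sub w) :=
  hs.comp (PT.fst'.pair (PT.snd'.fst.pair (PT.snd'.snd.snd.length.div (hw.comp PT.fst'))))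

theorem pt_lenMM {ns : List ℕ × ℕ → ℕ} {w : List ℕ → ℕ} (hn : PT ∅ ns) (hw : PT ∅ w) :
    PT ∅ (lenMM ns w) := hn.mul (hw.comp PT.fst')

/-! ### The result over `LoopRes` -/

open Vale.Agent.P315.H207 in
/-- The loop of Milestone 2: after `Q` rounds the known cells are those after `k` rounds of the
loop with the cell answers `ansV`; if `Q` is at least the weighted number of cells in `R`, all
cells of `R` are known. -/
theorem loopM {Ts : TStrat (List ℕ)} {F : List ℕ} {R : Finset (ℕ × ℕ)} {h : ℕ × ℕ → List ℕ}
    {ns : List ℕ × ℕ → ℕ} {w : List ℕ → ℕ} {sub : List ℕ × ℕ × ℕ → ℕ} {ans : ℕ → List ℕ}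
    (hres : LoopRes Ts F R h (ansV ns sub ans F)) (hD : Ts.Lab F ≤ Ts.Dc F) (hw : 0 < w F)
    (hns : ∀ q, 0 < ns (F, q)) (hl : AnsLen ns sub (nextOf Ts) w Ts.Dc F ans) (Q : ℕ) :
    ∃ k part, (oround (askM sub w) (updS (lenMM ns w) Ts.Dc (nextOf Ts)) ans)^[Q]
        (startS (nextOf Ts) F) =
        (F, nextOf Ts (F, knownT Ts F (ansV ns sub ans F) k),
          knownT Ts F (ansV ns sub ans F) k, part) ∧
      (∑ c ∈ R, ns (F, c.1 * Ts.Dc F + c.2 + 1) ≤ Q →
        (knownT Ts F (ansV ns sub ans F) k).keys = R) := by
  obtain ⟨k, r, hr, hQ, hst⟩ := askM_run hw hns hl Q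
  refine ⟨k, _, hst, fun hRQ => hres.full k ?_⟩
  refine askM_complete (R := R) hres.nodup (fun t => hres.sub t) (fun t ht => ?_) hr
    (by rw [hQ]; exact hRQ)
  rcases hres.code t with h0 | ⟨c, hc, h1⟩
  · exact absurd ((hres.fin t).mp h0) (by omega)
  · exact ⟨c, hc, (hres.row c hc).2.trans_le hD, h1⟩

end Vale.Agent.P315.Q
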