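import Vale.Agent.P315.H801.Mach
import Vale.Agent.P315.H220.WD
import Vale.Agent.P315.H155.Auto

/-! P315: the lane of the concrete machine is a polynomial time function, in closure form. -/

set_option autoImplicit false

namespace Vale.Agent.P315.Q

open Vale.Agent.Lib.PolyTime Vale.Agent.P315.H155 Vale.Agent.P315.H801 Vale.Agent.P315.H220

variable {α : Type} [Enc α]

@[fun_prop]
theorem PT_cdiv {x y : α → ℕ} (hx : PT ∅ x) (hy : PT ∅ y) : PT ∅ (fun a => cdiv (x a) (y a)) := by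
  unfold cdiv; fun_prop

@[fun_prop]
theorem PT_posN {μ B lo Tu g x : α → ℕ} (h1 : PT ∅ μ) (h2 : PT ∅ B) (h3 : PT ∅ lo)
    (h4 : PT ∅ Tu) (h5 : PT ∅ g) (h6 : PT ∅ x) :
    PT ∅ (fun a => posN (μ a) (B a) (lo a) (Tu a) (g a) (x a)) := by
  unfold posN; fun_prop

@[fun_prop]
theorem PT_labN {K Tu a u : α → ℕ} (h1 : PT ∅ K) (h2 : PT ∅ Tu) (h3 : PT ∅ a) (h4 : PT ∅ u) :
    PT ∅ (fun x => labN (K x) (Tu x) (a x) (u x)) := by
  unfold labN; fun_prop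

theorem PBd_qL {g NL q : α → ℕ} (hq : PBd q) : PBd (fun x => qL (g x) (NL x) (q x)) :=
  hq.mono fun x => (Nat.mod_le _ _).trans ((Nat.div_le_self _ _).trans (Nat.div_le_self _ _))

theorem PT_nodeD {K Tu g μ B a κ m x y : α → ℕ} {D : α → ℕ → ℕ → ℕ → ℕ → ℕ → ℕ}
    (hK : PT ∅ K) (hT : PT ∅ Tu) (hg : PT ∅ g) (hμ : PT ∅ μ) (hB : PT ∅ B) (ha : PT ∅ a)
    (hD : PT ∅ (fun p : α × ℕ × ℕ × ℕ × ℕ × ℕ =>
      D p.1 p.2.1 p.2.2.1 p.2.2.2.1 p.2.2.2.2.1 p.2.2.2.2.2))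
    (hκ : PT ∅ κ) (hm : PT ∅ m) (hx : PT ∅ x) (hy : PT ∅ y) :
    PT ∅ (fun z => nodeD (K z) (Tu z) (g z) (μ z) (B z) (a z) (D z) (κ z) (m z) (x z) (y z)) := by
  unfold nodeD
  have h1 : PT ∅ (fun z => D z (κ z) (m z - 1) (labN (K z) (Tu z) (a z)
      (posN (μ z) (B z) (a z * (K z * Tu z)) (Tu z) (g z) (x z)))
      (posN (μ z) (B z) (a z * (K z * Tu z)) (Tu z) (g z) (x z))
      (posN (μ z) (B z) (a z * (K z * Tu z)) (Tu z) (g z) (y z))) :=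
    hD.comp (PT.id.pair (hκ.pair (PT.pair (by fun_prop) (PT.pair (by fun_prop)
      (PT.pair (by fun_prop) (by fun_prop))))))
  refine PT.ite (p := fun z => 1 ≤ m z ∧ m z ≤ K z) (by fun_prop) h1 (by fun_prop)

@[fun_prop]
theorem PT_laneN {K h Tu g NL Dl R T Sh C μ B q κ a m : α → ℕ} {coin : α → ℕ → ℕ}
    {D : α → ℕ → ℕ → ℕ → ℕ → ℕ → ℕ} (hK : PT ∅ K) (hKb : PBd K) (hh : PT ∅ h) (hTu : PT ∅ Tu)
    (hg : PT ∅ g) (hgb : PBd g) (hNL : PT ∅ NL) (hDl : PT ∅ Dl) (hR : PT ∅ R) (hT : PT ∅ T)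
    (hTb : PBd T) (hSh : PT ∅ Sh) (hC : PT ∅ C) (hμ : PT ∅ μ) (hB : PT ∅ B) (hq : PT ∅ q)
    (hqb : PBd q) (hκ : PT ∅ κ) (hκb : PBd κ) (ha : PT ∅ a)
    (hc : PT ∅ (fun p : α × ℕ => coin p.1 p.2))
    (hD : PT ∅ (fun p : α × ℕ × ℕ × ℕ × ℕ × ℕ =>
      D p.1 p.2.1 p.2.2.1 p.2.2.2.1 p.2.2.2.2.1 p.2.2.2.2.2)) (hm : PT ∅ m) :
    PT ∅ (fun x => laneN (K x) (h x) (Tu x) (g x) (NL x) (Dl x) (R x) (T x) (Sh x) (C x) (μ x)
      (B x) (q x) (κ x) (a x) (coin x) (D x) (m x)) := by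
  have hcoin : PT ∅ (fun x => coin x (qS (g x) (NL x) (Dl x) (R x) (q x))) :=
    hc.comp (PT.id.pair (PT_qS hg hNL hDl hR hq))
  have hhist : PT ∅ (fun x => histOf (K x + 2) (2 * K x * g x + 1)
      (nodeD (K x) (Tu x) (g x) (μ x) (B x) (a x) (D x)) (κ x)) := by
    refine PT_histOf (D := fun x => nodeD (K x) (Tu x) (g x) (μ x) (B x) (a x) (D x))
      (by fun_prop) (by fun_prop) (by fun_prop) (by fun_prop) hκ hκb ?_
    refine PT_nodeD (D := fun z : α × ℕ × ℕ × ℕ × ℕ => D z.1) (by fun_prop) (by fun_prop)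
      (by fun_prop) (by fun_prop) (by fun_prop) (by fun_prop) ?_ (by fun_prop) (by fun_prop)
      (by fun_prop) (by fun_prop)
    exact hD.comp (PT.fst'.fst.pair PT.snd')
  have hst : PT ∅ (fun x => stored (K x) (h x) (Tu x) (g x) (NL x) (Dl x) (R x) (T x) (Sh x)
      (C x) (μ x) (B x) (q x) (κ x) (a x) (D x)) := by
    unfold stored
    have h1 := PBd_qL (g := g) (NL := NL) hqb
    have h2 := PBd_qO_of (g := g) (NL := NL) (Dl := Dl) hqb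
    refine PT_paths hSh (by fun_prop) hT hTb (by fun_prop) (by fun_prop) hh hDl (by fun_prop) h2
      ?_ ?_ (by fun_prop) hhist hκ hκb
    · have := PT.pow (PT.const 2) (PT_qL hg hNL hq) h1
      fun_prop
    · have := PT.pow (PT.const 2) ((PT_qL hg hNL hq).add (PT.const 1)) (h1.add (PBd.const 1))
      fun_prop
  unfold laneN pieceOf piece
  fun_prop

end Vale.Agent.P315.Q
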