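import Vale.Agent.P315.Q.Tab

/-!
P315, row G-STRAT: the tables of `Q/Tab.lean` contain the causal lists `RN` of `H207/RdL.lean`.
-/

set_option autoImplicit false

namespace Vale.Agent.P315.Q

open Vale.Agent.Lib.PolyTime Vale.Agent.P315.C Vale.Agent.P315.H155

theorem memB_iff {L : List (ℕ × ℕ)} {c : ℕ × ℕ} : memB L c = true ↔ c ∈ L := by
  unfold memB
  rw [List.any_eq_true]
  constructor
  · rintro ⟨d, hd, h⟩
    simp only [decide_eq_true_eq] at h
    have : d = c := Prod.ext h.1 h.2
    exact this ▸ hd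
  · intro h
    exact ⟨c, h, by simp⟩

theorem nubL_eq (L : List (ℕ × ℕ)) : nubL L = H207.nub L := by
  induction L using List.reverseRecOn with
  | nil => rfl
  | append_singleton L q ih =>
    have h1 : H207.nub (L ++ [q]) = if q ∈ L then H207.nub L else H207.nub L ++ [q] := by
      have h0 : H207.nub (L ++ [q]) = H207.push (H207.nub L) q := by
        unfold H207.nub
        rw [List.foldl_append, List.foldl_cons, List.foldl_nil]
      rw [h0, H207.push]
      by_cases hq : q ∈ L
      · rw [if_pos hq, if_pos (H207.mem_nub.2 hq)]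
      · rw [if_neg hq, if_neg (fun h => hq (H207.mem_nub.1 h))]
    rw [h1]
    unfold nubL at ih ⊢
    rw [List.length_append, List.length_singleton, List.range_succ, List.filter_append,
      List.map_append]
    have e1 : (List.range L.length).filter (fun i =>
        !(memB ((L ++ [q]).take i) ((L ++ [q]).getD i (0, 0)))) =
        (List.range L.length).filter (fun i => !(memB (L.take i) (L.getD i (0, 0)))) := by
      apply List.filter_congr
      intro i hi
      have hi' := List.mem_range.1 hi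
      rw [List.take_append_of_le_length hi'.le, List.getD_append _ _ _ _ hi']
    have e2 : ((List.range L.length).filter (fun i => !(memB (L.take i) (L.getD i (0, 0))))).map
        (fun i => (L ++ [q]).getD i (0, 0)) =
        ((List.range L.length).filter (fun i => !(memB (L.take i) (L.getD i (0, 0))))).map
        (fun i => L.getD i (0, 0)) := by
      apply List.map_congr_left
      intro i hi
      have hi' := List.mem_range.1 (List.mem_filter.1 hi).1
      rw [List.getD_append _ _ _ _ hi']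
    rw [e1, e2, ih]
    have e3 : (L ++ [q]).getD L.length (0, 0) = q := by
      rw [List.getD_append_right _ _ _ _ le_rfl]
      simp
    have e4 : (L ++ [q]).take L.length = L := by simp
    by_cases hq : q ∈ L
    · rw [if_pos hq]
      have : memB ((L ++ [q]).take L.length) ((L ++ [q]).getD L.length (0, 0)) = true := by
        rw [e3, e4]; exact memB_iff.2 hq
      rw [List.filter_cons_of_neg (by rw [this]; decide), List.filter_nil, List.map_nil,
        List.append_nil]
    · rw [if_neg hq]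
      have : memB ((L ++ [q]).take L.length) ((L ++ [q]).getD L.length (0, 0)) = false := by
        rw [e3, e4]
        rcases hb : memB L q with _ | _
        · rfl
        · exact absurd (memB_iff.1 hb) hq
      rw [List.filter_cons_of_pos (by rw [this]; decide), List.filter_nil, List.map_cons,
        List.map_nil, e3]

theorem rg_eq {U x : ℕ} (h : x ≤ U) : rg U x = List.range x := by
  unfold rg; rw [min_eq_left h]

theorem pw_eq {U x e : ℕ} (h : e ≤ U) : pw U x e = x ^ e := by
  unfold pw; rw [min_eq_left h]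

theorem sum_map_range (f : ℕ → ℕ) (n : ℕ) :
    ((List.range n).map f).sum = ∑ i ∈ Finset.range n, f i := by
  induction n with
  | zero => simp
  | succ n ih => rw [List.range_succ, Finset.sum_range_succ, List.map_append, List.sum_append, ih]; simp

theorem getD_map_range {β : Type*} (f : ℕ → β) (d : β) {i n : ℕ} (h : i < n) :
    ((List.range n).map f).getD i d = f i := by
  rw [List.getD_eq_getElem?_getD, List.getElem?_map, List.getElem?_range h]; rfl

/-- The algorithm `S` without clocks, of which `St` is the version with clocks. `V j a` = valid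
labels. -/
structure Link {θ : Type} [Enc θ] (St : TStrat θ) (t : θ) (S : H207.Strat (List ℕ))
    (V : ℕ → ℕ → Prop) (pos : ℕ → Prop) : Prop where
  loc : S.Loc pos
  hM : S.P.M = St.M t
  hS : S.P.S = St.S t
  hH : S.P.H = St.H t
  uM : St.M t ≤ St.U t
  un : St.n t ≤ St.U t
  uS : St.S t ≤ St.U t
  uN : St.Nr t + St.n t + 1 ≤ St.U t
  uL : St.Lab t ≤ St.U t
  uP : St.M t ^ St.n t ≤ St.U t
  Mpos : 0 < St.M t
  cnt : ∀ s < St.S t, St.cnt t s = S.mc.cnt s
  ucnt : ∀ s < St.S t, S.mc.cnt s ≤ St.U t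
  xi : ∀ j m, St.xi t j m = S.ω.xi j m
  coin : ∀ j s, St.coin t j s = S.ω.coin j s
  pen : ∀ j e a x, St.pen t j e a x = S.P.pen j e a x
  kids : ∀ j a, 0 < j → j ≤ St.n t → V j a → St.kids t j a = S.kidsL j a
  vkids : ∀ j a, 0 < j → j ≤ St.n t → V j a → ∀ a' ∈ S.kidsL j a, V (j - 1) a'
  labs : ∀ j s a m, 0 < j → j ≤ St.n t → s < St.S t → 2 ^ s ∣ j → V j a → m < St.M t ^ 2 ^ s →
    St.labs t j s a m = S.labs j s a m
  vlabs : ∀ j s a m, 0 < j → j ≤ St.n t → s < St.S t → 2 ^ s ∣ j → V j a → m < St.M t ^ 2 ^ s →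
    ∀ x ∈ S.labs j s a m, V (j - 2 ^ s) x
  lane : ∀ s q κ j a D c m, s < St.S t → 0 < j → j ≤ St.n t → 2 ^ s ∣ j → V j a →
    q < S.mc.cnt s → κ < St.U t → m < St.M t ^ 2 ^ s →
    St.lane t s q κ j a D c m = S.mc.lane s q κ j a D c m
  vlane : ∀ s q κ j a D c m, s < St.S t → 0 < j → j ≤ St.n t → 2 ^ s ∣ j → V j a →
    q < S.mc.cnt s → κ < St.U t → m < St.M t ^ 2 ^ s →
    V (j - 2 ^ s) (S.mc.lane s q κ j a D c m).1
  cv : ∀ (h : ℕ × ℕ → List ℕ) (l : List (ℕ × ℕ)) j i u v, pos u → pos v → j ≤ St.n t →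
    (St.cvF t (l.map fun c => (c, h c)) (St.M t ^ j) i (u / St.μ t)).getD (v / St.μ t) 0 =
      S.cv h l j i u v
  vLab : ∀ j a, j ≤ St.n t → V j a → a < St.Lab t

namespace TStrat

variable {θ : Type} [Enc θ] {St : TStrat θ} {t : θ} {S : H207.Strat (List ℕ)}
  {V : ℕ → ℕ → Prop} {pos : ℕ → Prop}

/-- The tables without the size budget. -/
def tabsU (St : TStrat θ) (t : θ) (T : KT) : ℕ → Tabs
  | 0 => [St.level0 t]
  | k + 1 => tabsU St t T k ++ [St.levelTab t T (tabsU St t T k) (k + 1)]

theorem tables_eq (T : KT) (hB : ∀ j ≤ St.n t, esize (St.tabsU t T j) ≤ St.BB t) :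
    St.tables t T = St.tabsU t T (St.n t) := by
  unfold tables
  have h : ∀ k ≤ St.n t, natRecC (St.BB t) k
      (fun j tabs => tabs ++ [St.levelTab t T tabs (j + 1)]) [St.level0 t] = St.tabsU t T k := by
    intro k hk
    induction k with
    | zero => rfl
    | succ k ih =>
      rw [natRecC_succ, ih (by omega)]
      have : St.tabsU t T k ++ [St.levelTab t T (St.tabsU t T k) (k + 1)] =
        St.tabsU t T (k + 1) := rfl
      rw [this, if_pos (hB (k + 1) hk)]
  exact h _ le_rfl

theorem length_tabsU (T : KT) (k : ℕ) : (St.tabsU t T k).length = k + 1 := by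
  induction k with
  | zero => rfl
  | succ k ih => rw [tabsU, List.length_append, ih]; rfl

theorem lk_append {tabs : Tabs} {x : List (List (List Ev))} {j : ℕ} (h : j < tabs.length)
    (i a b : ℕ) : lk (tabs ++ [x]) j i a b = lk tabs j i a b := by
  unfold lk
  rw [List.getD_append _ _ _ _ h]

theorem lk_append_last {tabs : Tabs} {x : List (List (List Ev))} {j : ℕ} (h : tabs.length = j)
    (i a b : ℕ) : lk (tabs ++ [x]) j i a b = ((x.getD i []).getD a []).getD b [] := by
  unfold lk
  rw [List.getD_append_right _ _ _ _ h.le, h]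
  simp

section
variable (hL : Link St t S V pos)
include hL

theorem p2_eq {s : ℕ} (hs : s < St.S t) : St.p2 t s = 2 ^ s := by
  unfold p2
  exact pw_eq (hs.le.trans hL.uS)

theorem mp_eq {e : ℕ} (he : e ≤ St.n t) : St.mp t e = St.M t ^ e := by
  unfold mp
  exact pw_eq (he.trans hL.un)

theorem pow_le_U {e : ℕ} (he : e ≤ St.n t) : St.M t ^ e ≤ St.U t :=
  (Nat.pow_le_pow_right hL.Mpos he).trans hL.uP

theorem XiL_eq {j e m : ℕ} (he : e ≤ St.n t) : St.XiL t j e m = Xi S.P S.ω j e m := by
  unfold XiL Xi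
  rw [rg_eq (he.trans hL.un), sum_map_range]
  refine Finset.sum_congr rfl fun x _ => ?_
  rw [hL.xi, mp_eq hL (by omega), hL.hM]

theorem uent_eq {tabs : Tabs} {j i a s k0 m x : ℕ} (hs : s < St.S t) (hd : 2 ^ s ≤ j)
    (hj : j ≤ St.n t) : St.uent t tabs j i a s k0 m x =
      lk tabs (j - 2 ^ s) (i * S.P.M ^ 2 ^ s + m) x
        (k0 - (Xi S.P S.ω j (2 ^ s) m + S.P.pen j (2 ^ s) a x)) := by
  unfold uent uix
  rw [p2_eq hL hs, mp_eq hL (hd.trans hj), XiL_eq hL (hd.trans hj), hL.pen, hL.hM]

theorem scales_eq (j : ℕ) : St.scales t j = S.scales j := by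
  unfold scales H207.Strat.scales
  rw [rg_eq hL.uS, hL.hS]
  apply List.filter_congr
  intro s hs
  rw [p2_eq hL (List.mem_range.1 hs)]
  simp only [decide_eq_decide]
  exact (Nat.dvd_iff_mod_eq_zero).symm

omit hL in
theorem idx_lt {e k i m : ℕ} (h : k + e ≤ St.n t) (hi : i < St.M t ^ (St.n t - (k + e)))
    (hm : m < St.M t ^ e) : i * St.M t ^ e + m < St.M t ^ (St.n t - k) := by
  have h1 : St.M t ^ (St.n t - k) = St.M t ^ (St.n t - (k + e)) * St.M t ^ e := by
    rw [← pow_add]; congr 1; omega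
  rw [h1]
  calc i * St.M t ^ e + m < i * St.M t ^ e + St.M t ^ e := by omega
    _ = (i + 1) * St.M t ^ e := by ring
    _ ≤ St.M t ^ (St.n t - (k + e)) * St.M t ^ e := Nat.mul_le_mul_right _ hi

omit hL in
/-- The tables are right up to the level `k`. -/
def TabOK (St : TStrat θ) (t : θ) (S : H207.Strat (List ℕ)) (V : ℕ → ℕ → Prop) (T : KT)
    (tabs : Tabs) (k : ℕ) : Prop :=
  ∀ j ≤ k, ∀ i < St.M t ^ (St.n t - j), ∀ a, V j a → ∀ b ≤ St.Nr t + (St.n t - j),
    lk tabs j i a b = S.RN (look T) j i a b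

theorem entry_eq {T : KT} {tabs : Tabs} {k : ℕ} (hk : k + 1 ≤ St.n t)
    (hT : TabOK St t S V T tabs k) {i a b : ℕ} (hi : i < St.M t ^ (St.n t - (k + 1)))
    (ha : V (k + 1) a) (hb : b ≤ St.Nr t + (St.n t - (k + 1))) :
    St.entry t T tabs (k + 1) i a b = S.RN (look T) (k + 1) i a b := by
  rw [H207.Strat.RN_succ hL.loc]
  unfold entry H207.Strat.stepN
  rw [nubL_eq]
  have huN := hL.uN
  have hUb : b ≤ St.U t := by omega
  have hunit : ∀ s ∈ S.scales (k + 1), ∀ k0 m x, k0 ≤ b + 2 ^ s → m < St.M t ^ 2 ^ s →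
      V (k + 1 - 2 ^ s) x → St.uent t tabs (k + 1) i a s k0 m x =
        S.RN (look T) (k + 1 - 2 ^ s) (i * S.P.M ^ 2 ^ s + m) x
          (k0 - (Xi S.P S.ω (k + 1) (2 ^ s) m + S.P.pen (k + 1) (2 ^ s) a x)) := by
    intro s hs k0 m x hk0 hm hx
    obtain ⟨hs1, hs2⟩ := H207.Strat.mem_scales.1 hs
    rw [hL.hS] at hs1
    have hle : 2 ^ s ≤ k + 1 := Nat.le_of_dvd (by omega) hs2
    have hp : 1 ≤ 2 ^ s := Nat.one_le_two_pow
    rw [uent_eq hL hs1 hle hk]
    refine hT _ (by omega) _ ?_ _ hx _ ?_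
    · rw [hL.hM]
      refine idx_lt (e := 2 ^ s) (k := k + 1 - 2 ^ s) (by omega) ?_ hm
      rw [show k + 1 - 2 ^ s + 2 ^ s = k + 1 by omega]
      exact hi
    · omega
  congr 1
  congr 1
  · -- children
    unfold base H207.Strat.baseL
    rw [rg_eq hL.uM, hL.hM, hL.kids _ _ (by omega) hk ha]
    refine List.flatMap_congr fun m hm => List.flatMap_congr fun a' ha' => ?_
    have hm' := List.mem_range.1 hm
    rw [hL.xi, hL.pen]
    refine hT _ (by omega) _ ?_ _ (hL.vkids _ _ (by omega) hk ha a' ha') _ (by omega)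
    have := idx_lt (e := 1) (k := k) (i := i) (m := m) (by omega) hi (by simpa using hm')
    simpa using this
  congr 1
  · -- seen units
    unfold seen H207.Strat.seenL
    rw [scales_eq hL, rg_eq hUb]
    refine List.flatMap_congr fun s hs => List.flatMap_congr fun κ hκ => ?_
    obtain ⟨hs1, hs2⟩ := H207.Strat.mem_scales.1 hs
    rw [hL.hS] at hs1
    have hle : 2 ^ s ≤ k + 1 := Nat.le_of_dvd (by omega) hs2
    have hκ' := List.mem_range.1 hκ
    rw [p2_eq hL hs1, mp_eq hL (hle.trans hk), rg_eq (pow_le_U hL (hle.trans hk)), hL.hM]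
    refine List.flatMap_congr fun m hm => ?_
    have hm' := List.mem_range.1 hm
    rw [hL.labs _ _ _ _ (by omega) hk hs1 hs2 ha hm']
    refine List.flatMap_congr fun x hx => ?_
    have h1 := hunit s hs (κ + 1) m x (by omega) hm'
      (hL.vlabs _ _ _ _ (by omega) hk hs1 hs2 ha hm' x hx)
    rw [hL.hM] at h1
    exact h1
  · -- units on the lanes
    unfold lns H207.Strat.lanesL
    rw [scales_eq hL, rg_eq hUb]
    refine List.flatMap_congr fun s hs => ?_
    obtain ⟨hs1, hs2⟩ := H207.Strat.mem_scales.1 hs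
    rw [hL.hS] at hs1
    have hle : 2 ^ s ≤ k + 1 := Nat.le_of_dvd (by omega) hs2
    rw [hL.cnt s hs1, rg_eq (hL.ucnt s hs1), p2_eq hL hs1, mp_eq hL (hle.trans hk),
      rg_eq (pow_le_U hL (hle.trans hk))]
    refine List.flatMap_congr fun q hq => List.flatMap_congr fun κ hκ => ?_
    have hq' := List.mem_range.1 hq
    have hκ' := List.mem_range.1 hκ
    rw [hL.hM]
    refine List.flatMap_congr fun m hm => ?_
    have hm' := List.mem_range.1 hm
    have hlab : St.laneLab t T tabs (k + 1) i a s q κ m =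
        (S.laneN (look T) (S.RN (look T)) (k + 1) i a s q κ m).1 := by
      unfold laneLab H207.Strat.laneN
      rw [hL.lane s q κ (k + 1) a _ _ m hs1 (by omega) hk hs2 ha hq' (by omega) hm', hL.coin]
      rw [hL.loc.lane s q κ (k + 1) a _ (S.histN (look T) (S.RN (look T)) (k + 1) i a s)
        (S.ω.coin (k + 1) s) (by rw [hL.hS]; exact hs1) hs2 (by omega) ?_ m
        (by rw [hL.hM]; exact hm')]
      intro κ' hκκ m'' hm'' x hx u v hu hv
      rw [hL.hM] at hm''
      unfold Dv H207.Strat.histN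
      have hle2 : k + 1 - 2 ^ s ≤ St.n t := by omega
      rw [hunit s hs (κ' + 1) m'' x (by omega) hm''
        (hL.vlabs _ _ _ _ (by omega) hk hs1 hs2 ha hm'' x hx), p2_eq hL hs1, mp_eq hL hle2,
        mp_eq hL (hle.trans hk)]
      unfold fill
      rw [hL.cv _ _ _ _ _ _ hu hv hle2, hL.hM]
      rfl
    rw [hlab]
    have hv : V (k + 1 - 2 ^ s) (S.laneN (look T) (S.RN (look T)) (k + 1) i a s q κ m).1 :=
      hL.vlane s q κ (k + 1) a _ _ m hs1 (by omega) hk hs2 ha hq' (by omega) hm'
    have h1 := hunit s hs (κ + 1 + 2 ^ s) m _ (by omega) hm' hv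
    rw [hL.hM] at h1
    exact h1

theorem lk_level0 {i a b : ℕ} (hi : i < St.M t ^ St.n t) (ha : a < St.Lab t)
    (hb : b ≤ St.Nr t + St.n t) :
    (((St.level0 t).getD i []).getD a []).getD b [] = St.entry0 t i a b := by
  unfold level0
  rw [mp_eq hL le_rfl, rg_eq hL.uP, rg_eq hL.uL, rg_eq hL.uN, getD_map_range _ _ hi,
    getD_map_range _ _ ha, getD_map_range _ _ (by omega)]

theorem lk_levelTab {T : KT} {tabs : Tabs} {j i a b : ℕ} (hi : i < St.M t ^ (St.n t - j))
    (ha : a < St.Lab t) (hb : b ≤ St.Nr t + St.n t) :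
    (((St.levelTab t T tabs j).getD i []).getD a []).getD b [] = St.entry t T tabs j i a b := by
  unfold levelTab
  rw [mp_eq hL (Nat.sub_le _ _), rg_eq (pow_le_U hL (Nat.sub_le _ _)), rg_eq hL.uL,
    rg_eq hL.uN, getD_map_range _ _ hi, getD_map_range _ _ ha, getD_map_range _ _ (by omega)]

theorem tabOK (T : KT) : ∀ k ≤ St.n t, TabOK St t S V T (St.tabsU t T k) k := by
  intro k
  induction k with
  | zero =>
    intro _ j hj i hi a ha b hb
    obtain rfl : j = 0 := by omega
    show lk [St.level0 t] 0 i a b = _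
    unfold lk
    rw [show [St.level0 t].getD 0 [] = St.level0 t from rfl,
      lk_level0 hL (by simpa using hi) (hL.vLab _ _ (by omega) ha) (by omega),
      H207.Strat.RN_zero, hL.hH]
    rfl
  | succ k ih =>
    intro hk j hj i hi a ha b hb
    rcases Nat.lt_or_ge j (k + 1) with h | h
    · rw [tabsU, lk_append (by rw [length_tabsU]; exact h)]
      exact ih (by omega) j (by omega) i hi a ha b hb
    · obtain rfl : j = k + 1 := by omega
      rw [tabsU, lk_append_last (length_tabsU T k), lk_levelTab hL hi (hL.vLab _ _ hk ha)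
        (by omega)]
      exact entry_eq hL hk (ih (by omega)) hi ha hb

/-- The list of the root is the causal list of the root. -/
theorem root_eq (T : KT) (hB : ∀ j ≤ St.n t, esize (St.tabsU t T j) ≤ St.BB t)
    (hV : V (St.n t) (St.a0 t)) :
    St.root t T = S.RN (look T) (St.n t) 0 (St.a0 t) (St.Nr t) := by
  unfold root
  rw [tables_eq T hB]
  exact tabOK hL T _ le_rfl _ le_rfl 0 (by simp) _ hV _ (by omega)

end

end TStrat

end Vale.Agent.P315.Q
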