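import Vale.Agent.P315.Q.M1
import Vale.Agent.P315.Q.TabRN
import Vale.Agent.P315.H804.BoxMach
import Vale.Agent.P315.H659.Seed
import Vale.Agent.P315.C.Fam

/-!
P315, row G-STRAT: the strategy `M1.famStrat` is the clocked version of the algorithm of the family
`C.fam`, if the feed is long enough.
-/

set_option autoImplicit false

namespace Vale.Agent.P315.Q.M1

open Vale.Agent.Lib.PolyTime Vale.Agent.P315.C Vale.Agent.P315.H155 Vale.Agent.P315.H801
  Vale.Agent.P315.H220 Vale.Agent.P315.H804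

/-- The length of the feed must be at least this number. -/
def padM (m k n S mc : ℕ) : ℕ :=
  8 * (2 ^ (20 * m)) ^ n * (mc + 1) + 2 ^ k * n + 2 * famH m n S + 20 +
    2 ^ (54 * m * 2 ^ S + 12)

/-- The feed `F` belongs to the parameters `n S μ ℓ` and is long enough. -/
structure Fit (m k : ℕ) (F : List ℕ) (n S μ ℓ : ℕ) : Prop where
  hn : F.getD 2 0 = n
  hS : F.getD 3 0 = S
  hμ : F.getD 4 0 = μ
  hℓ : F.getD 5 0 = ℓ
  m0 : 0 < m
  μ0 : 0 < μ
  ℓ0 : 0 < ℓ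
  dvd : μ ∣ ℓ
  long : padM m k n S (ℓ / μ) ≤ F.length

/-- The random data in the feed. -/
def rndF (m k n S : ℕ) (F : List ℕ) : Rnd :=
  H659.rndOf n (2 ^ (20 * m)) (S + 1) (2 ^ (4 * m * 2 ^ S)) (2 ^ k - 1) (sd F)

/-- The algorithm of the family. -/
def SF (m k n S μ ℓ : ℕ) (F : List ℕ) : H207.Strat (List ℕ) :=
  boxStrat (2 ^ (20 * m)) ℓ μ ((2 ^ (20 * m)) ^ n * ℓ) (2 ^ k - 1) (S + 1) (famH m n S)
    (mach (famMP m) (2 ^ (20 * m)) ℓ μ ((2 ^ (20 * m)) ^ n * ℓ)) (rndF m k n S F)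
    (fun _ _ _ => ℓ)

section
variable {m k cd : ℕ} {F : List ℕ} {n S μ ℓ : ℕ} (hF : Fit m k F n S μ ℓ)
include hF

omit hF in
theorem K_pos' (m n : ℕ) : 1 ≤ (2 ^ (20 * m)) ^ n := Nat.one_le_pow _ _ (by positivity)

theorem big_K : 8 * (2 ^ (20 * m)) ^ n * (ℓ / μ + 1) ≤ F.length := by
  have := hF.long
  unfold padM at this
  generalize 8 * (2 ^ (20 * m)) ^ n * (ℓ / μ + 1) = a at *
  generalize 2 ^ k * n = b at *
  generalize 2 ^ (54 * m * 2 ^ S + 12) = c at *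
  omega

theorem K_le : 8 * (2 ^ (20 * m)) ^ n ≤ F.length :=
  (Nat.le_mul_of_pos_right _ (Nat.succ_pos _)).trans (big_K hF)

theorem H_le : 2 ^ k * n + 2 * famH m n S + 20 ≤ F.length := by
  have := hF.long
  unfold padM at this
  generalize 8 * (2 ^ (20 * m)) ^ n * (ℓ / μ + 1) = a at *
  generalize 2 ^ k * n = b at *
  generalize 2 ^ (54 * m * 2 ^ S + 12) = c at *
  omega

theorem E_le : 2 ^ (54 * m * 2 ^ S + 12) ≤ F.length := by
  have := hF.long
  unfold padM at this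
  generalize 8 * (2 ^ (20 * m)) ^ n * (ℓ / μ + 1) = a at *
  generalize 2 ^ k * n = b at *
  generalize 2 ^ (54 * m * 2 ^ S + 12) = c at *
  omega

omit hF in
theorem n_le_H (m n S : ℕ) : n ≤ famH m n S :=
  (Nat.le_add_right n (2 ^ S)).trans (Nat.le_add_right _ _)

theorem n_le : n ≤ F.length := by
  have h1 := H_le hF
  have h2 := n_le_H m n S
  generalize 2 ^ k * n = b at *
  omega

theorem e_le : 54 * m * 2 ^ S + 12 ≤ F.length :=
  Nat.lt_two_pow_self.le.trans (E_le hF)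

theorem mS_ge : 2 ^ S ≤ m * 2 ^ S := Nat.le_mul_of_pos_left _ hF.m0

theorem pS_le : 2 ^ S ≤ F.length := by
  have h1 := e_le hF
  have h2 := mS_ge hF
  have h3 : 54 * m * 2 ^ S = 54 * (m * 2 ^ S) := by ring
  omega

theorem S_le : S + 1 ≤ F.length :=
  (Nat.succ_le_of_lt (Nat.lt_two_pow_self (n := S))).trans (pS_le hF)

theorem fn_eq : fn F = n := by
  unfold fn; rw [hF.hn]; exact min_eq_left (n_le hF)

theorem fS_eq : fS F = S := by
  unfold fS; rw [hF.hS]; exact min_eq_left (by have := S_le hF; omega)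

theorem fμ_eq : fμ F = μ := hF.hμ

theorem fℓ_eq : fℓ F = ℓ := hF.hℓ

theorem fK_eq : fK (2 ^ (20 * m)) F = (2 ^ (20 * m)) ^ n := by
  unfold fK; rw [fn_eq hF]; exact pw_eq (n_le hF)

theorem fB_eq : fB (2 ^ (20 * m)) F = (2 ^ (20 * m)) ^ n * ℓ := by
  unfold fB; rw [fK_eq hF, fℓ_eq hF]

theorem fH_eq : fH m F = famH m n S := by
  unfold fH famH
  rw [fn_eq hF, fS_eq hF, pw_eq (by have := S_le hF; omega), pw_eq (by have := S_le hF; omega)]

theorem p2s {s : ℕ} (hs : s ≤ S) : pw F.length 2 s = 2 ^ s :=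
  pw_eq (by have := S_le hF; omega)

theorem ms_le {s : ℕ} (hs : s ≤ S) : m * 2 ^ s ≤ m * 2 ^ S :=
  Nat.mul_le_mul_left _ (Nat.pow_le_pow_right (by norm_num) hs)

theorem pwc {s c d : ℕ} (hs : s ≤ S) (hc : c ≤ 54) (hd : d ≤ 12) :
    pw F.length 2 (c * m * pw F.length 2 s + d) = 2 ^ (c * m * 2 ^ s + d) := by
  rw [p2s hF hs]
  apply pw_eq
  have h1 := e_le hF
  have h2 := ms_le hF hs
  have h3 : c * m * 2 ^ s = c * (m * 2 ^ s) := by ring
  have h4 : 54 * m * 2 ^ S = 54 * (m * 2 ^ S) := by ring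
  have h5 : c * (m * 2 ^ s) ≤ 54 * (m * 2 ^ S) := Nat.mul_le_mul hc h2
  omega

theorem pow_le_U {s c d : ℕ} (hs : s ≤ S) (hc : c ≤ 54) (hd : d ≤ 12) :
    2 ^ (c * m * 2 ^ s + d) ≤ F.length := by
  refine (Nat.pow_le_pow_right (by norm_num) ?_).trans (E_le hF)
  have h2 := ms_le hF hs
  have h3 : c * m * 2 ^ s = c * (m * 2 ^ s) := by ring
  have h4 : 54 * m * 2 ^ S = 54 * (m * 2 ^ S) := by ring
  have h5 : c * (m * 2 ^ s) ≤ 54 * (m * 2 ^ S) := Nat.mul_le_mul hc h2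
  omega

theorem g_eq {s : ℕ} (hs : s ≤ S) : (mpc m).g F.length s = (famMP m).g s :=
  pwc hF (c := 2) (d := 0) hs (by norm_num) (by norm_num)

theorem Dl_eq {s : ℕ} (hs : s ≤ S) : (mpc m).Dl F.length s = (famMP m).Dl s := by
  show pw F.length 16 s * m ^ 2 = 16 ^ s * m ^ 2
  rw [pw_eq (by have := S_le hF; omega)]

theorem NL_eq {s : ℕ} (hs : s ≤ S) : (mpc m).NL F.length s = (famMP m).NL s := by
  show 20 * m * pw F.length 2 s = 20 * m * 2 ^ s
  rw [p2s hF hs]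

theorem R_eq {s : ℕ} (hs : s ≤ S) : (mpc m).R F.length s = (famMP m).R s := by
  have := pwc hF (c := 1) (d := 5) hs (by norm_num) (by norm_num)
  rw [one_mul] at this
  exact this

theorem Sm_eq {s : ℕ} (hs : s ≤ S) : (mpc m).Sm F.length s = (famMP m).Sm s :=
  pwc hF (c := 4) (d := 0) hs (by norm_num) (by norm_num)

theorem T_eq {s : ℕ} (hs : s ≤ S) : (mpc m).T F.length s = (famMP m).T s :=
  pwc hF (c := 50) (d := 0) hs (by norm_num) (by norm_num)

theorem Sh_eq {s : ℕ} (hs : s ≤ S) : (mpc m).Sh F.length s = (famMP m).Sh s :=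
  pwc hF (c := 54) (d := 0) hs (by norm_num) (by norm_num)

theorem Cn_eq : (mpc m).Cn F.length S = 2 ^ (4 * m * 2 ^ S) :=
  pwc hF (c := 4) (d := 0) le_rfl (by norm_num) (by norm_num)

theorem cnt_eq {s : ℕ} (hs : s ≤ S) : fcnt (mpc m) F s = (famMP m).cnt s := by
  unfold fcnt MP.cnt
  rw [g_eq hF hs, NL_eq hF hs, Dl_eq hF hs, R_eq hF hs, Sm_eq hF hs]

omit hF in
/-- Number of machines. -/
theorem famCnt_le (m s : ℕ) : (famMP m).cnt s ≤ 2 ^ (14 * (m * 2 ^ s) + 12) := by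
  unfold MP.cnt
  split_ifs with h0
  · exact Nat.zero_le _
  have h1 : (famMP m).g s = 2 ^ (2 * (m * 2 ^ s)) := by
    show 2 ^ (2 * m * 2 ^ s) = _
    congr 1; ring
  have h2 : (famMP m).Sm s = 2 ^ (4 * (m * 2 ^ s)) := by
    show 2 ^ (4 * m * 2 ^ s) = _
    congr 1; ring
  have h3 : (famMP m).R s = 2 ^ (m * 2 ^ s + 5) := rfl
  have h4 : (famMP m).NL s = 20 * (m * 2 ^ s) := by
    show 20 * m * 2 ^ s = _
    ring
  have h5 : (famMP m).Dl s ≤ 2 ^ (4 * (m * 2 ^ s)) := by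
    show 16 ^ s * m ^ 2 ≤ _
    have e1 : (16 : ℕ) ^ s = (2 ^ s) ^ 4 := by
      rw [← pow_mul, mul_comm, pow_mul]; norm_num
    rcases Nat.eq_zero_or_pos m with hm | hm
    · subst hm; simp
    have e2 : m ^ 2 ≤ m ^ 4 := Nat.pow_le_pow_right hm (by norm_num)
    calc 16 ^ s * m ^ 2 ≤ (2 ^ s) ^ 4 * m ^ 4 := by rw [e1]; exact Nat.mul_le_mul_left _ e2
      _ = (m * 2 ^ s) ^ 4 := by ring
      _ ≤ (2 ^ (m * 2 ^ s)) ^ 4 := Nat.pow_le_pow_left Nat.lt_two_pow_self.le 4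
      _ = 2 ^ (4 * (m * 2 ^ s)) := by rw [← pow_mul]; congr 1; ring
  set x := m * 2 ^ s
  have h6 : x ≤ 2 ^ x := Nat.lt_two_pow_self.le
  have h7 : 1 ≤ 2 ^ (2 * x) := Nat.one_le_two_pow
  unfold cntQ
  rw [h1, h2, h3, h4]
  calc (2 ^ (2 * x) + 1) * ((2 * 2 ^ (2 * x) + 1) * (20 * x * ((famMP m).Dl s *
        (2 ^ (x + 5) * 2 ^ (4 * x)))))
      ≤ (2 * 2 ^ (2 * x)) * ((3 * 2 ^ (2 * x)) * (20 * 2 ^ x * (2 ^ (4 * x) *
        (2 ^ (x + 5) * 2 ^ (4 * x))))) := by gcongr <;> omega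
    _ = 3840 * 2 ^ (14 * x) := by
        rw [show 14 * x = 2 * x + 2 * x + x + 4 * x + x + 4 * x by ring, pow_add, pow_add,
          pow_add, pow_add, pow_add, pow_add]
        ring
    _ ≤ 2 ^ (14 * x + 12) := by
        rw [pow_add]
        have : (2 : ℕ) ^ 12 = 4096 := by norm_num
        rw [this]
        have h8 : 0 < 2 ^ (14 * x) := by positivity
        omega

theorem ucnt {s : ℕ} (hs : s ≤ S) : (famMP m).cnt s ≤ F.length := by
  refine (famCnt_le m s).trans ?_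
  have := pow_le_U hF (c := 14) (d := 12) hs (by norm_num) (by norm_num)
  rwa [show 14 * m * 2 ^ s = 14 * (m * 2 ^ s) by ring] at this

theorem Mh_le {s : ℕ} (hs : s ≤ S) : 2 * (2 ^ (20 * m)) ^ 2 ^ s ≤ F.length := by
  have := pow_le_U hF (c := 20) (d := 1) hs (by norm_num) (by norm_num)
  rw [pow_add, pow_mul] at this
  omega

theorem M_le : 2 ^ (20 * m) ≤ F.length := by
  have h1 := Mh_le hF (Nat.zero_le S)
  rw [pow_zero, pow_one] at h1
  omega

theorem Mpw {s : ℕ} (hs : s ≤ S) : pw F.length (2 ^ (20 * m)) (pw F.length 2 s) =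
    (2 ^ (20 * m)) ^ 2 ^ s := by
  rw [p2s hF hs]
  exact pw_eq ((Nat.pow_le_pow_right (by norm_num) hs).trans (pS_le hF))

theorem labs_eq {s : ℕ} (hs : s ≤ S) (j a r : ℕ) :
    flabs (2 ^ (20 * m)) F s a = labBox (2 ^ (20 * m)) j s a r := by
  unfold flabs labBox
  rw [Mpw hF hs, rg_eq (Mh_le hF hs), List.range'_eq_map_range]

omit hF in
theorem kids_eq (M j a : ℕ) : fkids M a = klBox M j a := by
  unfold fkids klBox
  rw [List.range'_eq_map_range]

theorem two_le_M : 2 ≤ 2 ^ (20 * m) := by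
  have := hF.m0
  calc 2 = 2 ^ 1 := rfl
    _ ≤ _ := Nat.pow_le_pow_right (by norm_num) (by omega)

theorem div_eq : (2 ^ (20 * m)) ^ n * ℓ / μ = (2 ^ (20 * m)) ^ n * (ℓ / μ) := by
  obtain ⟨c, hc⟩ := hF.dvd
  rw [hc, Nat.mul_div_cancel_left _ hF.μ0, Nat.mul_left_comm, Nat.mul_div_cancel_left _ hF.μ0]

theorem mesh_le : (2 ^ (20 * m)) ^ n * ℓ / μ + 1 ≤ F.length := by
  rw [div_eq hF]
  have h1 := big_K hF
  have h2 := K_pos' m n
  have h3 : 8 * (2 ^ (20 * m)) ^ n * (ℓ / μ + 1) =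
    8 * ((2 ^ (20 * m)) ^ n * (ℓ / μ)) + 8 * (2 ^ (20 * m)) ^ n := by ring
  omega

theorem Nr_le : (famStrat m k cd).Nr F + n + 1 ≤ F.length := by
  show fN m (2 ^ k - 1) cd F + n + 1 ≤ _
  unfold fN
  rw [fH_eq hF, fn_eq hF]
  have h1 := H_le hF
  have h2 : (2 ^ k - 1) * n / 2 ≤ 2 ^ k * n :=
    (Nat.div_le_self _ _).trans (Nat.mul_le_mul_right _ (Nat.sub_le _ _))
  have h3 := n_le_H m n S
  generalize 2 ^ k * n = b at *
  generalize (2 ^ k - 1) * n / 2 = c at *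
  generalize (n + cd - 1) / cd = d at *
  omega

/-- The clocked strategy is the algorithm. -/
theorem link : Link (famStrat m k cd) F (SF m k n S μ ℓ F) (VBox (2 ^ (20 * m)) n)
    (Pos (boxPar (2 ^ (20 * m)) ℓ μ ((2 ^ (20 * m)) ^ n * ℓ) (2 ^ k - 1) (S + 1)
      (famH m n S))) where
  loc := strat_loc (mach_laneLoc (famMP m) _ _ _ _ _ _ _)
  hM := rfl
  hS := by
    show S + 1 = fS F + 1
    rw [fS_eq hF]
  hH := (fH_eq hF).symm
  uM := M_le hF
  un := by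
    show fn F ≤ _
    rw [fn_eq hF]; exact n_le hF
  uS := by
    show fS F + 1 ≤ _
    rw [fS_eq hF]; exact S_le hF
  uN := by
    show fN m (2 ^ k - 1) cd F + fn F + 1 ≤ _
    rw [fn_eq hF]; exact Nr_le hF (cd := cd)
  uL := by
    show 3 * fK (2 ^ (20 * m)) F ≤ _
    rw [fK_eq hF]
    have := K_le hF
    show _ ≤ F.length
    omega
  uP := by
    show (2 ^ (20 * m)) ^ fn F ≤ _
    rw [fn_eq hF]
    have := K_le hF
    show _ ≤ F.length
    omega
  Mpos := by show 0 < 2 ^ (20 * m); positivity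
  cnt := fun s hs => by
    have hs' : s < fS F + 1 := hs
    rw [fS_eq hF] at hs'
    exact cnt_eq hF (by omega)
  ucnt := fun s hs => by
    have hs' : s < fS F + 1 := hs
    rw [fS_eq hF] at hs'
    exact ucnt hF (by omega)
  xi := fun j r => by
    show fxi (2 ^ (20 * m)) (2 ^ k - 1) F j r = (rndF m k n S F).xi j r
    unfold fxi rndF H659.rndOf H659.adXi
    rw [fn_eq hF]
  coin := fun j s => by
    funext c
    show fcoin (mpc m) (2 ^ (20 * m)) F j s c = (rndF m k n S F).coin j s c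
    unfold fcoin rndF H659.rndOf H659.adCoin
    rw [fn_eq hF, fS_eq hF, Cn_eq hF]
  pen := fun _ _ _ _ => rfl
  kids := fun j a _ _ _ => kids_eq _ j a
  vkids := fun j a hj _ ha a' ha' => by
    refine VBox_kids (ℓ := ℓ) (μ := μ) (B := 0) (J := 0) (S := 0) (H := 0) (two_le_M hF) j a hj
      ha a' ?_
    rw [← klBox_eq (2 ^ (20 * m)) ℓ μ 0 0 0 0 j a, List.mem_toFinset]
    exact ha'
  labs := fun j s a r _ _ hs _ _ _ => by
    have hs' : s < fS F + 1 := hs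
    rw [fS_eq hF] at hs'
    exact labs_eq hF (by omega) j a r
  vlabs := fun j s a r hj _ _ hd ha _ x hx => by
    have h1 : x ∈ (boxPar (2 ^ (20 * m)) ℓ μ 0 0 0 0).desc j (2 ^ s) a :=
      labBox_desc (by positivity) j s a r x hx
    exact valid_desc (VBox_kids (two_le_M hF)) _ _ _ _ (Nat.le_of_dvd hj hd) ha h1
  lane := fun s q κ j a D c r hs hj hjn hd _ hq hκ _ => by
    have hs' : s < fS F + 1 := hs
    rw [fS_eq hF] at hs'
    have hs2 : s ≤ S := by omega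
    have hjn' : j ≤ n := by
      have : j ≤ fn F := hjn
      rwa [fn_eq hF] at this
    have hq' : q < (famMP m).cnt s := hq
    have hκ' : κ < F.length := hκ
    have huc := ucnt hF hs2
    show flane (mpc m) (2 ^ (20 * m)) F s q κ j a D c r =
      (mach (famMP m) (2 ^ (20 * m)) ℓ μ ((2 ^ (20 * m)) ^ n * ℓ)).lane s q κ j a D c r
    unfold flane mach
    simp only
    rw [Mpw hF hs2, p2s hF hs2, g_eq hF hs2, NL_eq hF hs2, Dl_eq hF hs2, R_eq hF hs2,
      T_eq hF hs2, Sh_eq hF hs2, fℓ_eq hF, fμ_eq hF, fB_eq hF,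
      min_eq_left (show q ≤ F.length by omega), min_eq_left hκ'.le,
      min_eq_left (show (2 ^ (20 * m)) ^ 2 ^ s ≤ F.length by have := Mh_le hF hs2; omega),
      min_eq_left (show (famMP m).g s ≤ F.length from
        pow_le_U hF (c := 2) (d := 0) hs2 (by norm_num) (by norm_num)),
      min_eq_left (show (famMP m).T s ≤ F.length from
        pow_le_U hF (c := 50) (d := 0) hs2 (by norm_num) (by norm_num)),
      pw_eq (show j - 2 ^ s ≤ F.length by have := n_le hF; omega)]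
    rfl
  vlane := fun s q κ j a D c r hs hj _ hd ha hq _ hr => by
    have h1 := mach_laneLab (famMP m) (2 ^ (20 * m)) ℓ μ ((2 ^ (20 * m)) ^ n * ℓ) (2 ^ k - 1)
      (s + 1) (famH m n S) s q κ j a D c r hj (Nat.lt_succ_self s) hd hq hr
    exact valid_desc (VBox_kids (two_le_M hF)) _ _ _ _ (Nat.le_of_dvd hj hd) ha h1
  cv := fun h l j i u v _ _ hj => by
    have hj' : j ≤ n := by
      have : j ≤ fn F := hj
      rwa [fn_eq hF] at this
    show (fcv (2 ^ (20 * m)) F (l.map fun c => (c, h c)) ((2 ^ (20 * m)) ^ j) i (u / fμ F)).getD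
      (v / fμ F) 0 = cvOf (boxPar (2 ^ (20 * m)) ℓ μ ((2 ^ (20 * m)) ^ n * ℓ) (2 ^ k - 1)
        (S + 1) (famH m n S)) (adB ℓ) (cvBox ℓ) (idxBox ℓ μ) (fun _ _ _ => ℓ) h l j i u v
    unfold fcv cvOf
    have h1 : (2 ^ (20 * m)) ^ j ≤ F.length := by
      have h2 := K_le hF
      have h3 : (2 ^ (20 * m)) ^ j ≤ (2 ^ (20 * m)) ^ n :=
        Nat.pow_le_pow_right (by positivity) hj'
      omega
    rw [fB_eq hF, fμ_eq hF, fℓ_eq hF, min_eq_left (mesh_le hF), min_eq_left h1]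
    rfl
  vLab := fun j a hj ha => by
    show a < 3 * fK (2 ^ (20 * m)) F
    rw [fK_eq hF]
    have h1 : (2 ^ (20 * m)) ^ (n - j) ≤ (2 ^ (20 * m)) ^ n :=
      Nat.pow_le_pow_right (by positivity) (Nat.sub_le _ _)
    have h2 := ha.2
    omega

end

end Vale.Agent.P315.Q.M1
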