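import Vale.Agent.P315.Q.M1St
import Vale.Agent.P315.H248.Win
import Vale.Agent.P315.RAM.Inst

/-!
P315, row G-STRAT: the run of the strategy of the additive theorem: the loop (`m1_loop`), the asked
codes, the sizes of the states.
-/

set_option autoImplicit false

namespace Vale.Agent.P315.Q.M1

open Vale.Agent.Lib.PolyTime Vale.Agent.P315.C Vale.Agent.P315.H155 Vale.Agent.P315.H804
  Vale.Agent.P315.RAM Vale.Agent.P315.H207

/-- Bound for the sizes of the states: `L` = length of the feed, `K` rows, `mc` mesh steps in a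
row, `b` bits of all numbers, `t` rounds. -/
def m1Sz (L K mc b t : ℕ) : ℕ :=
  stB (L * (2 * b + 1)) (4 * K ^ 2) (12 * K ^ 2 + 1) (mc * (mc + 1)) b (t + 1)

section
variable {m k cd : ℕ} {F : List ℕ} {n S μ ℓ : ℕ} (hF : Fit m k F n S μ ℓ)
include hF

theorem Nr_eq : (((famStrat m k cd).Nr F : ℕ) : ℤ) - (famH m n S : ℕ) - 1 = famN k cd n := by
  show ((fN m (2 ^ k - 1) cd F : ℕ) : ℤ) - (famH m n S : ℕ) - 1 = famN k cd n
  unfold fN famN famCut
  rw [fH_eq hF, fn_eq hF]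
  have h1 : (n + cd - 1) / cd ≤ famH m n S + 1 := by
    have h2 := n_le_H m n S
    rcases Nat.eq_zero_or_pos cd with h0 | h0
    · subst h0; simp
    · rcases Nat.eq_zero_or_pos n with h3 | h3
      · subst h3
        rw [Nat.div_eq_of_lt (by omega)]
        exact Nat.zero_le _
      · have h4 : (n + cd - 1) / cd ≤ n := by
          rw [Nat.div_le_iff_le_mul_add_pred h0]
          have h5 : n ≤ cd * n := Nat.le_mul_of_pos_left _ h0
          omega
        omega
  generalize (n + cd - 1) / cd = a at *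
  generalize (2 ^ k - 1) * n / 2 = b at *
  omega

/-- The read set of the root. -/
theorem rootR_eq (hid : Leaf) :
    rootR (famStrat m k cd) F (SF m k n S μ ℓ F) (fun _ _ _ => ℓ) hid =
      rd (fam m k cd n S ℓ μ ((2 ^ (20 * m)) ^ n * ℓ)).P
        (fam m k cd n S ℓ μ ((2 ^ (20 * m)) ^ n * ℓ)).mc (rndF m k n S F) (fun _ _ _ => ℓ) hid
        n 0 0 (fam m k cd n S ℓ μ ((2 ^ (20 * m)) ^ n * ℓ)).N := by
  unfold rootR
  have h1 : (famStrat m k cd).n F = n := fn_eq hF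
  have h2 := Nr_eq (cd := cd) hF
  rw [h1]
  have h3 : ((famStrat m k cd).Nr F : ℤ) - (SF m k n S μ ℓ F).P.H - 1 = famN k cd n := h2
  rw [h3]
  rfl

theorem Dc_eq : (famStrat m k cd).Dc F = 4 * (2 ^ (20 * m)) ^ n := by
  show 4 * fK (2 ^ (20 * m)) F = _
  rw [fK_eq hF]

theorem Lab_eq : (famStrat m k cd).Lab F = 3 * (2 ^ (20 * m)) ^ n := by
  show 3 * fK (2 ^ (20 * m)) F = _
  rw [fK_eq hF]

/-- **The loop.** -/
theorem m1_loop {hid : Leaf} {ans : ℕ → List ℕ}
    (hans : ∀ i < (2 ^ (20 * m)) ^ n, ∀ a < 3 * (2 ^ (20 * m)) ^ n,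
      ans (i * (4 * (2 ^ (20 * m)) ^ n) + a) = ansBox ℓ μ hid (i, a)) :
    LoopRes (famStrat m k cd) F
      (rd (fam m k cd n S ℓ μ ((2 ^ (20 * m)) ^ n * ℓ)).P
        (fam m k cd n S ℓ μ ((2 ^ (20 * m)) ^ n * ℓ)).mc (rndF m k n S F) (fun _ _ _ => ℓ) hid
        n 0 0 (fam m k cd n S ℓ μ ((2 ^ (20 * m)) ^ n * ℓ)).N)
      (ansBox ℓ μ hid) ans := by
  rw [← rootR_eq hF]
  have h1 : (famStrat m k cd).n F = n := fn_eq hF
  refine loopRes (V := VBox (2 ^ (20 * m)) n) (link hF)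
    (mach_faithful (two_le_M hF) hF.μ0 hF.ℓ0 hF.dvd) ?_ ?_ ?_ ?_
  · rw [h1]; exact VBox_root
  · intro T j hj
    refine H295.esize_tabsU_le' (famStrat m k cd) F T ?_
    rw [h1] at hj
    exact hj.trans (n_le hF)
  · rw [Dc_eq hF, Lab_eq hF]
    omega
  · rw [Dc_eq hF, Lab_eq hF, h1]
    exact hans

theorem m1len_eq (q : ℕ) : m1len (F, q) = ℓ / μ * (ℓ / μ + 1) := by
  unfold m1len
  rw [fℓ_eq hF, fμ_eq hF]

theorem m1len_pos (q : ℕ) : 0 < m1len (F, q) := by
  rw [m1len_eq hF]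
  have : 0 < ℓ / μ := Nat.div_pos (Nat.le_of_dvd hF.ℓ0 hF.dvd) hF.μ0
  positivity

theorem m1D_eq : m1D m F = (famStrat m k cd).Dc F := rfl

theorem next_le {hid : Leaf} {ans : ℕ → List ℕ}
    (hans : ∀ i < (2 ^ (20 * m)) ^ n, ∀ a < 3 * (2 ^ (20 * m)) ^ n,
      ans (i * (4 * (2 ^ (20 * m)) ^ n) + a) = ansBox ℓ μ hid (i, a)) (t : ℕ) :
    m1next m k cd (F, tr (m1next m k cd) (m1D m F) F ans t) ≤
      4 * ((2 ^ (20 * m)) ^ n) ^ 2 := by
  have h := (m1_loop (cd := cd) hF hans).lt t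
  rw [Dc_eq hF, show (famStrat m k cd).n F = n from fn_eq hF] at h
  calc m1next m k cd (F, tr (m1next m k cd) (m1D m F) F ans t)
      ≤ (2 ^ (20 * m)) ^ n * (4 * (2 ^ (20 * m)) ^ n) := h
    _ = _ := by ring

/-- The asked codes and the sizes. -/
theorem m1_sizes {hid : Leaf} {ans : ℕ → List ℕ} {b Q : ℕ}
    (hans : ∀ i < (2 ^ (20 * m)) ^ n, ∀ a < 3 * (2 ^ (20 * m)) ^ n,
      ans (i * (4 * (2 ^ (20 * m)) ^ n) + a) = ansBox ℓ μ hid (i, a))
    (hlen : ∀ q, (ans q).length = ℓ / μ * (ℓ / μ + 1)) (hb : ∀ q, ∀ v ∈ ans q, v < 2 ^ b)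
    (hFb : ∀ v ∈ F, v < 2 ^ b) :
    (∀ t, t < Q → (m1Strat m k cd).ask ((m1Strat m k cd).state ans F t) <
      4 * ((2 ^ (20 * m)) ^ n) ^ 2) ∧
    (∀ t, t < Q → ∀ j ≤ (ans ((m1Strat m k cd).ask ((m1Strat m k cd).state ans F t))).length,
      esize (absorb (m1Strat m k cd).upd
        ((ans ((m1Strat m k cd).ask ((m1Strat m k cd).state ans F t))).take j)
        ((m1Strat m k cd).state ans F t)) ≤
          m1Sz F.length ((2 ^ (20 * m)) ^ n) (ℓ / μ) b Q) ∧
    esize ((m1Strat m k cd).state ans F Q) ≤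
      m1Sz F.length ((2 ^ (20 * m)) ^ n) (ℓ / μ) b Q := by
  set K := (2 ^ (20 * m)) ^ n with hK
  have hK1 : 1 ≤ K := K_pos' m n
  have h0 := m1len_pos hF
  have hl : ∀ t, (ans (m1next m k cd (F, tr (m1next m k cd) (m1D m F) F ans t) - 1)).length =
      m1len (F, m1next m k cd (F, tr (m1next m k cd) (m1D m F) F ans t)) := fun t => by
    rw [hlen, m1len_eq hF]
  have hla : ∀ q, m1len (F, q) ≤ ℓ / μ * (ℓ / μ + 1) := fun q => (m1len_eq hF q).le
  have hm : ∀ t, ∀ v ∈ ans (m1next m k cd (F, tr (m1next m k cd) (m1D m F) F ans t) - 1),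
      esize v ≤ b := fun t v hv => Lib.PolyTime.esize_nat_le (hb _ v hv)
  have hnx : ∀ t, m1next m k cd (F, tr (m1next m k cd) (m1D m F) F ans t) ≤ 4 * K ^ 2 :=
    fun t => next_le (cd := cd) hF hans t
  have hc : ∀ t, esize (m1next m k cd (F, tr (m1next m k cd) (m1D m F) F ans t)) ≤
      4 * K ^ 2 := fun t => (esize_nat_le_self _).trans (hnx t)
  have hc' : ∀ t, esize (decC (m1D m F)
      (m1next m k cd (F, tr (m1next m k cd) (m1D m F) F ans t) - 1)) ≤ 12 * K ^ 2 + 1 := by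
    intro t
    unfold decC
    rw [Lib.PolyTime.esize_pair]
    have h1 := hnx t
    set x := m1next m k cd (F, tr (m1next m k cd) (m1D m F) F ans t) with hx
    have h2 := (esize_nat_le_self ((x - 1) / m1D m F)).trans (Nat.div_le_self _ _)
    have h3 := (esize_nat_le_self ((x - 1) % m1D m F)).trans (Nat.mod_le _ _)
    omega
  have hf : esize F ≤ F.length * (2 * b + 1) :=
    esize_list_le fun v hv => Lib.PolyTime.esize_nat_le (hFb v hv)
  refine ⟨fun t _ => ?_, fun t ht => ?_, ?_⟩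
  · have h1 : (m1Strat m k cd).ask ((m1Strat m k cd).state ans F t) =
        m1next m k cd (F, tr (m1next m k cd) (m1D m F) F ans t) - 1 :=
      askS_iterate (len := m1len) (D := m1D m) h0 t fun t' _ => hl t'
    rw [h1]
    have h2 := hnx t
    have h3 : 1 ≤ K ^ 2 := Nat.one_le_pow _ _ hK1
    omega
  · have h1 := esize_part_le (len := m1len) (D := m1D m) (next := m1next m k cd) (t := t) h0 hf
      (fun t' _ => hl t') hla (fun t' _ => hm t') (fun t' _ => hc t') (fun t' _ => hc' t')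
    intro j hj
    refine (h1 j hj).trans ?_
    unfold m1Sz
    exact stB_mono (by omega)
  · have h1 := esize_state_le (len := m1len) (D := m1D m) (next := m1next m k cd) (t := Q) h0 hf
      (fun t' _ => hl t') hla (fun t' _ => hm t') (fun t' _ => hc t') (fun t' _ => hc' t')
    refine h1.trans ?_
    unfold m1Sz
    exact stB_mono (by omega)

end

end Vale.Agent.P315.Q.M1
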