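import Mathlib.Data.Nat.Dist
import Vale.Agent.P315.H763.SolverPT

/-! P315 (helper514): cheapest paths through the rows of a slab as a pure function on lists of
naturals, its semantics and its polynomial time bound.

A row is a list of allowed steps `(p, q, w)`: entry, exit, cost. Shifts between the rows cost `h`
per position.

* `pc h E u m v`    : cheapest cost through the rows `0, …, m - 1` from `u` to `v` (recursion on
                      `m`, exactly the layered dynamic programme);
* `pc_le_route`, `exists_route` : `pc` is the minimum over the routes;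
* `dpFrom h n u rows` : list of the costs to all positions `v < n`; `dpFrom_getD`;
* `dpTab h n rows`    : the matrix of all costs, `dpTab_getD`;
* `pt_dpFrom`, `pt_dpTab` : polynomial time. -/

set_option autoImplicit false

namespace Vale.Agent.P315.Q

open Vale.Agent.Lib.PolyTime

/-! ### Minimum of a list -/

/-- Minimum of a list of naturals, `0` for the empty list. -/
def lmin (l : List ℕ) : ℕ := l.foldl min (l.headD 0)

theorem foldl_min_le (l : List ℕ) : ∀ a, l.foldl min a ≤ a ∧ ∀ x ∈ l, l.foldl min a ≤ x := by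
  induction l with
  | nil => intro a; simp
  | cons b l ih =>
    intro a
    have h := ih (min a b)
    refine ⟨h.1.trans (min_le_left _ _), fun x hx => ?_⟩
    rcases List.mem_cons.mp hx with rfl | hx
    · exact h.1.trans (min_le_right _ _)
    · exact h.2 x hx

theorem foldl_min_mem (l : List ℕ) : ∀ a, l.foldl min a = a ∨ l.foldl min a ∈ l := by
  induction l with
  | nil => intro a; simp
  | cons b l ih =>
    intro a
    rcases ih (min a b) with h | h
    · rcases min_choice a b with h2 | h2
      · left; show l.foldl min (min a b) = a; rw [h, h2]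
      · right; show l.foldl min (min a b) ∈ b :: l; rw [h, h2]; simp
    · right; exact List.mem_cons_of_mem _ h

theorem lmin_le {l : List ℕ} {x : ℕ} (h : x ∈ l) : lmin l ≤ x := (foldl_min_le l _).2 x h

theorem lmin_mem {l : List ℕ} (h : l ≠ []) : lmin l ∈ l := by
  cases l with
  | nil => exact absurd rfl h
  | cons a l =>
    rcases foldl_min_mem (a :: l) a with h2 | h2
    · have : lmin (a :: l) = a := h2
      rw [this]; simp
    · exact h2

theorem lmin_mem_or (l : List ℕ) : lmin l ∈ l ∨ lmin l = 0 := by
  cases l with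
  | nil => right; rfl
  | cons a l => left; exact lmin_mem (by simp)

theorem lmin_eq {l : List ℕ} {x : ℕ} (hx : x ∈ l) (h : ∀ y ∈ l, x ≤ y) : lmin l = x :=
  le_antisymm (lmin_le hx) (h _ (lmin_mem (by rintro rfl; simp at hx)))

theorem le_lmin {l : List ℕ} (hl : l ≠ []) {x : ℕ} (h : ∀ y ∈ l, x ≤ y) : x ≤ lmin l :=
  h _ (lmin_mem hl)

/-- The minimum of two nonempty lists with the same elements. -/
theorem lmin_congr {l l' : List ℕ} (h : ∀ x, x ∈ l ↔ x ∈ l') : lmin l = lmin l' := by
  rcases List.eq_nil_or_concat l with rfl | ⟨_, _, hl⟩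
  · have : l' = [] := by
      rcases l' with _ | ⟨a, l'⟩
      · rfl
      · exact absurd ((h a).mpr (by simp)) (by simp)
    rw [this]
  · have hne : l ≠ [] := by rw [hl]; simp
    exact lmin_eq ((h _).mpr (lmin_mem (by
      rintro rfl
      have := (h _).mp (lmin_mem hne)
      simp at this))) fun y hy => lmin_le ((h y).mp hy)

/-! ### Semantics -/

/-- Allowed step of a row: entry, exit, cost. -/
abbrev Stp := ℕ × ℕ × ℕ

/-- Cheapest cost through the rows `0, …, m - 1` (allowed steps `E i`), from `u` to `v`. -/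
def pc (h : ℕ) (E : ℕ → List Stp) (u : ℕ) : ℕ → ℕ → ℕ
  | 0, v => h * Nat.dist u v
  | m + 1, v => lmin ((E m).map fun e => pc h E u m e.1 + e.2.2 + h * Nat.dist e.2.1 v)

/-- Position before row `i`. -/
def prevP (u : ℕ) (r : ℕ → Stp) : ℕ → ℕ
  | 0 => u
  | i + 1 => (r i).2.1

/-- Cost of a route. -/
def rc (h m u v : ℕ) (r : ℕ → Stp) : ℕ :=
  ∑ i ∈ Finset.range m, (h * Nat.dist (prevP u r i) (r i).1 + (r i).2.2)
    + h * Nat.dist (prevP u r m) v

theorem rc_zero (h u v : ℕ) (r : ℕ → Stp) : rc h 0 u v r = h * Nat.dist u v := by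
  simp [rc, prevP]

theorem rc_succ (h m u v : ℕ) (r : ℕ → Stp) :
    rc h (m + 1) u v r = rc h m u (r m).1 r + (r m).2.2 + h * Nat.dist (r m).2.1 v := by
  simp only [rc, Finset.sum_range_succ, prevP]
  ring

theorem prevP_congr {m u : ℕ} {r r' : ℕ → Stp} (h : ∀ i < m, r i = r' i) :
    ∀ i ≤ m, prevP u r i = prevP u r' i := by
  intro i hi
  cases i with
  | zero => rfl
  | succ i => show (r i).2.1 = (r' i).2.1; rw [h i (by omega)]

theorem rc_congr {h m u v : ℕ} {r r' : ℕ → Stp} (hr : ∀ i < m, r i = r' i) :
    rc h m u v r = rc h m u v r' := by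
  unfold rc
  rw [prevP_congr hr m le_rfl]
  congr 1
  refine Finset.sum_congr rfl fun i hi => ?_
  have hi' := Finset.mem_range.mp hi
  rw [prevP_congr hr i hi'.le, hr i hi']

theorem pc_le_route (h : ℕ) (E : ℕ → List Stp) (u : ℕ) (r : ℕ → Stp) (m : ℕ)
    (hr : ∀ i < m, r i ∈ E i) : ∀ v, pc h E u m v ≤ rc h m u v r := by
  induction m with
  | zero => intro v; rw [rc_zero]; exact le_rfl
  | succ m ih =>
    intro v
    rw [rc_succ]
    have h1 : pc h E u (m + 1) v ≤ pc h E u m (r m).1 + (r m).2.2 + h * Nat.dist (r m).2.1 v :=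
      lmin_le (List.mem_map.mpr ⟨r m, hr m (by omega), rfl⟩)
    have h2 := ih (fun i hi => hr i (by omega)) (r m).1
    omega

theorem exists_route (h : ℕ) (E : ℕ → List Stp) (u : ℕ) (m : ℕ) (hE : ∀ i < m, E i ≠ []) :
    ∀ v, ∃ r : ℕ → Stp, (∀ i < m, r i ∈ E i) ∧ pc h E u m v = rc h m u v r := by
  induction m with
  | zero => intro v; exact ⟨fun _ => (0, 0, 0), by simp, by rw [rc_zero]; rfl⟩
  | succ m ih =>
    intro v
    have hne : ((E m).map fun e => pc h E u m e.1 + e.2.2 + h * Nat.dist e.2.1 v) ≠ [] := by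
      simpa using hE m (by omega)
    obtain ⟨e, he, he2⟩ := List.mem_map.mp (lmin_mem hne)
    obtain ⟨r, hr, hr2⟩ := ih (fun i hi => hE i (by omega)) e.1
    refine ⟨Function.update r m e, ?_, ?_⟩
    · intro i hi
      by_cases him : i = m
      · subst him; simpa using he
      · rw [Function.update_of_ne him]; exact hr i (by omega)
    · rw [rc_succ, Function.update_self, rc_congr (r' := r) (fun i hi =>
        Function.update_of_ne (by omega) _ _), ← hr2]
      exact he2.symm

theorem pc_congr {h : ℕ} {E E' : ℕ → List Stp} {u : ℕ} (m : ℕ) (hE : ∀ i < m, E i = E' i) :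
    ∀ v, pc h E u m v = pc h E' u m v := by
  induction m with
  | zero => intro v; rfl
  | succ m ih =>
    intro v
    show lmin _ = lmin _
    rw [hE m (by omega)]
    congr 1
    refine List.map_congr_left fun e _ => ?_
    rw [ih (fun i hi => hE i (by omega))]

/-- Only the sets of allowed steps matter. -/
theorem pc_congr_mem {h : ℕ} {E E' : ℕ → List Stp} {u : ℕ} (m : ℕ)
    (hE : ∀ i < m, ∀ e, e ∈ E i ↔ e ∈ E' i) : ∀ v, pc h E u m v = pc h E' u m v := by
  induction m with
  | zero => intro v; rfl
  | succ m ih =>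
    intro v
    refine lmin_congr fun x => ?_
    simp only [List.mem_map, ih (fun i hi => hE i (by omega))]
    constructor
    · rintro ⟨e, he, rfl⟩; exact ⟨e, (hE m (by omega) e).mp he, rfl⟩
    · rintro ⟨e, he, rfl⟩; exact ⟨e, (hE m (by omega) e).mpr he, rfl⟩

/-- `pc` as an infimum over all routes (`sInf` of a set of naturals). -/
theorem pc_eq_sInf (h : ℕ) (E : ℕ → List Stp) (u m v : ℕ) (hE : ∀ i < m, E i ≠ []) :
    pc h E u m v = sInf {x | ∃ r : ℕ → Stp, (∀ i < m, r i ∈ E i) ∧ x = rc h m u v r} := by
  obtain ⟨r, hr, hr2⟩ := exists_route h E u m hE v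
  refine le_antisymm ?_ ?_
  · refine le_csInf ⟨_, r, hr, rfl⟩ ?_
    rintro x ⟨r', hr', rfl⟩
    exact pc_le_route h E u r' m hr' v
  · exact Nat.sInf_le ⟨r, hr, hr2⟩

/-! ### The dynamic programme on lists -/

/-- Distance, as a term on naturals. -/
def nd (a b : ℕ) : ℕ := (a - b) + (b - a)

theorem nd_eq (a b : ℕ) : nd a b = Nat.dist a b := rfl

/-- One row. -/
def dpStep (h n : ℕ) (st : List ℕ) (row : List Stp) : List ℕ :=
  (List.range n).map fun v => lmin (row.map fun e => st.getD e.1 0 + e.2.2 + h * nd e.2.1 v)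

/-- Costs from `u` to all positions `v < n`. -/
def dpFrom (h n u : ℕ) (rows : List (List Stp)) : List ℕ :=
  rows.foldl (dpStep h n) ((List.range n).map fun v => h * nd u v)

/-- The matrix of all costs. -/
def dpTab (h n : ℕ) (rows : List (List Stp)) : List (List ℕ) :=
  (List.range n).map fun u => dpFrom h n u rows

theorem dpFrom_length (h n u : ℕ) (rows : List (List Stp)) : (dpFrom h n u rows).length = n := by
  unfold dpFrom
  rcases List.eq_nil_or_concat rows with rfl | ⟨l, r, rfl⟩
  · simp
  · rw [List.concat_eq_append, List.foldl_append]; simp [dpStep]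

theorem dpFrom_getD (h n u : ℕ) (rows : List (List Stp))
    (hr : ∀ row ∈ rows, ∀ e ∈ row, e.1 < n) : ∀ v < n,
      (dpFrom h n u rows).getD v 0 = pc h (fun i => rows.getD i []) u rows.length v := by
  induction rows using List.reverseRecOn with
  | nil =>
    intro v hv
    show ((List.range n).map fun v => h * nd u v).getD v 0 = _
    rw [H763.getD_map_range n _ _ hv]
    rfl
  | append_singleton l row ih =>
    intro v hv
    have ih' := ih fun r hr' => hr r (by simp [hr'])
    have h1 : dpFrom h n u (l ++ [row]) = dpStep h n (dpFrom h n u l) row := by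
      simp [dpFrom, List.foldl_append]
    have hlen : (l ++ [row]).length = l.length + 1 := by simp
    rw [h1, hlen]
    unfold dpStep
    rw [H763.getD_map_range n _ _ hv]
    show lmin _ = lmin _
    have h2 : (l ++ [row]).getD l.length [] = row := by
      rw [List.getD_append_right _ _ _ _ le_rfl]; simp
    beta_reduce
    rw [h2]
    congr 1
    refine List.map_congr_left fun e he => ?_
    have he1 : e.1 < n := hr row (by simp) e he
    rw [ih' e.1 he1, nd_eq]
    congr 2
    refine pc_congr _ (fun i hi => ?_) _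
    rw [List.getD_append _ _ _ _ hi]

theorem dpTab_getD (h n : ℕ) (rows : List (List Stp))
    (hr : ∀ row ∈ rows, ∀ e ∈ row, e.1 < n) {u v : ℕ} (hu : u < n) (hv : v < n) :
      H763.ent2 (dpTab h n rows) u v = pc h (fun i => rows.getD i []) u rows.length v := by
  unfold H763.ent2 dpTab
  rw [H763.getD_map_range n _ _ hu]
  exact dpFrom_getD h n u rows hr v hv

/-! ### Polynomial time -/

variable {A : Set Word} {α : Type*} [Enc α]

theorem pt_lmin {l : α → List ℕ} (hl : PT A l) : PT A (fun a => lmin (l a)) := by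
  refine PT.foldl (f := fun _ s x => min s x) hl (hl.headD (PT.const 0)) ?_ hl.pbd fun a i => ?_
  · exact (PT.ite (p := fun q : α × ℕ × ℕ => q.2.1 ≤ q.2.2) (PT.le PT.snd'.fst PT.snd'.snd)
      PT.snd'.fst PT.snd'.snd).congr fun q => by
        rcases le_total q.2.1 q.2.2 with h | h
        · simp [h]
        · by_cases h2 : q.2.1 ≤ q.2.2
          · simp [h2]
          · simp [h2, min_eq_right h]
  · have h1 : ((l a).headD 0) ∈ l a ∨ (l a).headD 0 = 0 := by
      cases l a <;> simp
    have h2 : esize ((l a).headD 0) ≤ esize (l a) := by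
      rcases h1 with h1 | h1
      · exact esize_le_of_mem h1
      · rw [h1]; exact Nat.zero_le _
    refine (esize_nat_mono ((foldl_min_le ((l a).take i) ((l a).headD 0)).1)).trans h2

theorem pt_nd {f g : α → ℕ} (hf : PT A f) (hg : PT A g) : PT A (fun a => nd (f a) (g a)) :=
  (hf.sub hg).add (hg.sub hf)

theorem pt_dpStep {h n : α → ℕ} {st : α → List ℕ} {row : α → List Stp} (hh : PT A h)
    (hn : PT A n) (hnb : PBd n) (hst : PT A st) (hrow : PT A row) :
    PT A (fun a => dpStep (h a) (n a) (st a) (row a)) := by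
  refine PT.map (f := fun a v => lmin ((row a).map fun e =>
    (st a).getD e.1 0 + e.2.2 + h a * nd e.2.1 v)) (PT.range hn hnb) ?_
  refine pt_lmin ?_
  refine PT.map (f := fun (q : α × ℕ) (e : Stp) =>
    (st q.1).getD e.1 0 + e.2.2 + h q.1 * nd e.2.1 q.2) (hrow.comp PT.fst') ?_
  refine (((hst.comp PT.fst'.fst).getD PT.snd'.fst (PT.const 0)).add PT.snd'.snd.snd).add ?_
  exact (hh.comp PT.fst'.fst).mul (pt_nd PT.snd'.snd.fst PT.fst'.snd)

theorem nd_le (a b : ℕ) : nd a b ≤ a + b := by unfold nd; omega

/-- Value invariant of the states. -/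
theorem dpFrom_le (h n u R : ℕ) (rows : List (List Stp)) (hr : ∀ row ∈ rows, esize row ≤ R) :
    ∀ x ∈ dpFrom h n u rows,
      x ≤ rows.length * (2 ^ R + h * (2 ^ R + n)) + h * (u + n) := by
  induction rows using List.reverseRecOn with
  | nil =>
    intro x hx
    obtain ⟨v, hv, rfl⟩ := List.mem_map.mp hx
    have hv' := List.mem_range.mp hv
    have := nd_le u v
    simp only [List.length_nil, zero_mul, zero_add]
    exact Nat.mul_le_mul_left _ (by omega)
  | append_singleton l row ih =>
    intro x hx
    have ih' := ih fun r hr' => hr r (by simp [hr'])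
    have h1 : dpFrom h n u (l ++ [row]) = dpStep h n (dpFrom h n u l) row := by
      simp [dpFrom, List.foldl_append]
    rw [h1] at hx
    obtain ⟨v, hv, rfl⟩ := List.mem_map.mp hx
    have hv' := List.mem_range.mp hv
    rcases lmin_mem_or (row.map fun e =>
      (dpFrom h n u l).getD e.1 0 + e.2.2 + h * nd e.2.1 v) with h2 | h2
    · obtain ⟨e, he, he2⟩ := List.mem_map.mp h2
      rw [← he2]
      have hs : esize e ≤ R := (esize_le_of_mem he).trans (hr row (by simp))
      have hs2 : e.2.2 < 2 ^ R := (lt_two_pow_esize _).trans_le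
        (Nat.pow_le_pow_right (by norm_num) (((esize_snd_le e.2).trans (esize_snd_le e)).trans hs))
      have hs1 : e.2.1 < 2 ^ R := (lt_two_pow_esize _).trans_le
        (Nat.pow_le_pow_right (by norm_num) (((esize_fst_le e.2).trans (esize_snd_le e)).trans hs))
      have hx0 : (dpFrom h n u l).getD e.1 0 ≤
          l.length * (2 ^ R + h * (2 ^ R + n)) + h * (u + n) := by
        rcases H763.getD_mem_or (dpFrom h n u l) e.1 0 with h3 | h3
        · exact ih' _ h3
        · rw [h3]; exact Nat.zero_le _
      have h4 : h * nd e.2.1 v ≤ h * (2 ^ R + n) := Nat.mul_le_mul_left _ ((nd_le _ _).trans (by omega))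
      have h5 : (l ++ [row]).length = l.length + 1 := by simp
      rw [h5, add_mul, one_mul]
      omega
    · rw [h2]; exact Nat.zero_le _

/-- Size bound. -/
def dpB (h n u R k : ℕ) : ℕ := k + (R + 1 + (h + (R + 1 + n + 1)) + 1) + (h + (u + n + 1)) + 1

theorem esize_two_pow_le (R : ℕ) : esize (2 ^ R) ≤ R + 1 :=
  esize_nat_le (Nat.pow_lt_pow_right (by norm_num) (by omega))

theorem esize_dpFrom_le (h n u R : ℕ) (rows : List (List Stp)) (hr : ∀ row ∈ rows, esize row ≤ R) :
    esize (dpFrom h n u rows) ≤ n * (2 * dpB (esize h) n (esize u) R rows.length + 1) := by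
  have h1 := dpFrom_le h n u R rows hr
  have h2 : ∀ x ∈ dpFrom h n u rows, esize x ≤ dpB (esize h) n (esize u) R rows.length := by
    intro x hx
    refine (esize_nat_mono (h1 x hx)).trans ?_
    have e1 := esize_nat_add_le (rows.length * (2 ^ R + h * (2 ^ R + n))) (h * (u + n))
    have e2 := esize_nat_mul_le rows.length (2 ^ R + h * (2 ^ R + n))
    have e3 := esize_nat_mul_le h (u + n)
    have e4 := esize_nat_add_le u n
    have e5 := esize_nat_add_le (2 ^ R) (h * (2 ^ R + n))
    have e6 := esize_nat_mul_le h (2 ^ R + n)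
    have e7 := esize_nat_add_le (2 ^ R) n
    have e8 := esize_two_pow_le R
    have e9 := esize_nat_le_self n
    have e10 := esize_nat_le_self rows.length
    unfold dpB
    omega
  have h3 := esize_list_le h2
  rwa [dpFrom_length] at h3

theorem pt_dpFrom {h n u : α → ℕ} {rows : α → List (List Stp)} (hh : PT A h)
    (hn : PT A n) (hnb : PBd n) (hu : PT A u) (hrows : PT A rows) :
    PT A (fun a => dpFrom (h a) (n a) (u a) (rows a)) := by
  have hB : PBd (fun a => n a * (2 * dpB (esize (h a)) (n a) (esize (u a)) (esize (rows a))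
      (esize (rows a)) + 1)) := by
    unfold dpB
    have h1 := hh.pbd
    have h2 := hu.pbd
    have h3 := hrows.pbd
    fun_prop
  refine PT.foldl (f := fun a st row => dpStep (h a) (n a) st row)
    (init := fun a => (List.range (n a)).map fun v => h a * nd (u a) v) hrows ?_ ?_ hB
    fun a i => ?_
  · refine PT.map (f := fun a v => h a * nd (u a) v) (PT.range hn hnb) ?_
    exact (hh.comp PT.fst').mul (pt_nd (hu.comp PT.fst') PT.snd')
  · exact pt_dpStep (hh.comp PT.fst') (hn.comp PT.fst') (hnb.comp (A := A) PT.fst') PT.snd'.fst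
      PT.snd'.snd
  · have h1 := esize_dpFrom_le (h a) (n a) (u a) (esize (rows a)) ((rows a).take i)
      (fun r hr => esize_le_of_mem (List.mem_of_mem_take hr))
    refine h1.trans (Nat.mul_le_mul_left _ ?_)
    have h2 : ((rows a).take i).length ≤ esize (rows a) := by
      rw [List.length_take]; exact (min_le_right _ _).trans (length_le_esize _)
    unfold dpB
    omega

theorem pt_dpTab {h n : α → ℕ} {rows : α → List (List Stp)} (hh : PT A h)
    (hn : PT A n) (hnb : PBd n) (hrows : PT A rows) :
    PT A (fun a => dpTab (h a) (n a) (rows a)) := by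
  refine PT.map (f := fun a u => dpFrom (h a) (n a) u (rows a)) (PT.range hn hnb) ?_
  exact pt_dpFrom (hh.comp PT.fst') (hn.comp PT.fst') (hnb.comp (A := A) PT.fst') PT.snd'
    (hrows.comp PT.fst')

end Vale.Agent.P315.Q
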