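import Vale.Agent.P315.C.Alg
import Vale.Agent.P315.Q.PathDP

/-! P315 (helper514), row G-STRAT: `best` and `cval` of C/Alg.lean as functions on lists.

* `bestL n μ sh ad f i0 m`  : matrix of the cheapest costs through the rows `i0, …, i0 + m - 1`
                              between all mesh positions `μ * u`, `μ * v` (`u, v < n`);
* `bestL_eq`                : entry `(u, v)` = `C.best P f i0 m (μ u) (μ v)`, `n = B / μ + 1`;
* `bestW`                   : the window `lo + μ a`, `lo + μ b`, `a, b < na` of this matrix;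
* `pt_bestL`, `pt_bestW`    : polynomial time, from `PT` of the row cost function with context. -/

set_option autoImplicit false

namespace Vale.Agent.P315.Q

open Vale.Agent.Lib.PolyTime Vale.Agent.P315.C

/-- Allowed steps of a row: mesh indices and cost. -/
def rowL (n μ : ℕ) (ad : ℕ → ℕ → Bool) (f : ℕ → ℕ → ℕ) : List Stp :=
  (List.range n).flatMap fun p =>
    ((List.range n).filter fun q => ad (μ * p) (μ * q)).map fun q => (p, q, f (μ * p) (μ * q))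

/-- The rows `i0, …, i0 + m - 1`. -/
def rowsL (n μ : ℕ) (ad : ℕ → ℕ → Bool) (f : ℕ → ℕ → ℕ → ℕ) (i0 m : ℕ) : List (List Stp) :=
  (List.range m).map fun i => rowL n μ ad (f (i0 + i))

/-- Costs from `μ * u` to all mesh positions. -/
def bestF (n μ sh : ℕ) (ad : ℕ → ℕ → Bool) (f : ℕ → ℕ → ℕ → ℕ) (i0 m u : ℕ) : List ℕ :=
  dpFrom (sh * μ) n u (rowsL n μ ad f i0 m)

/-- Matrix of the costs between all mesh positions. -/
def bestL (n μ sh : ℕ) (ad : ℕ → ℕ → Bool) (f : ℕ → ℕ → ℕ → ℕ) (i0 m : ℕ) : List (List ℕ) :=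
  dpTab (sh * μ) n (rowsL n μ ad f i0 m)

/-- Window of the matrix: starts and ends `μ * (lo + a)`, `μ * (lo + b)`, `a, b < na`. -/
def bestW (n μ sh : ℕ) (ad : ℕ → ℕ → Bool) (f : ℕ → ℕ → ℕ → ℕ) (i0 m lo na : ℕ) :
    List (List ℕ) :=
  (List.range na).map fun a => (List.range na).map fun b =>
    (bestF n μ sh ad f i0 m (lo + a)).getD (lo + b) 0

theorem mem_rowL {n μ : ℕ} {ad : ℕ → ℕ → Bool} {f : ℕ → ℕ → ℕ} {e : Stp} :
    e ∈ rowL n μ ad f ↔ e.1 < n ∧ e.2.1 < n ∧ ad (μ * e.1) (μ * e.2.1) = true ∧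
      e.2.2 = f (μ * e.1) (μ * e.2.1) := by
  unfold rowL
  simp only [List.mem_flatMap, List.mem_range, List.mem_map, List.mem_filter]
  constructor
  · rintro ⟨p, hp, q, ⟨hq, ha⟩, rfl⟩
    exact ⟨hp, hq, ha, rfl⟩
  · rintro ⟨hp, hq, ha, hc⟩
    exact ⟨e.1, hp, e.2.1, ⟨hq, ha⟩, by rw [← hc]⟩

theorem dist_mul (μ a b : ℕ) : Nat.dist (μ * a) (μ * b) = μ * Nat.dist a b :=
  Nat.dist_mul_left μ a b

/-- `rcost` along mesh positions. -/
theorem rcost_mesh (sh μ m : ℕ) (f : ℕ → ℕ → ℕ → ℕ) (u v : ℕ) (r : ℕ → Stp)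
    (hr : ∀ i < m, (r i).2.2 = f i (μ * (r i).1) (μ * (r i).2.1)) :
    rcost sh m f (μ * u) (μ * v) (fun i => (μ * (r i).1, μ * (r i).2.1)) =
      rc (sh * μ) m u v r := by
  have h1 : ∀ i, prevPos (μ * u) (fun i => (μ * (r i).1, μ * (r i).2.1)) i =
      μ * prevP u r i := by
    intro i
    cases i <;> rfl
  unfold rcost rc
  rw [h1, dist_mul]
  congr 1
  · refine Finset.sum_congr rfl fun i hi => ?_
    rw [h1, dist_mul, hr i (Finset.mem_range.mp hi)]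
    ring
  · ring

/-- `best` is the layered dynamic programme. -/
theorem best_eq_pc (P : Par) (hμ : 0 < P.μ) (ad : ℕ → ℕ → Bool)
    (had : ∀ p q, ad p q = true ↔ P.adm p q) (f : Leaf) (i0 m u v : ℕ) :
    best P f i0 m (P.μ * u) (P.μ * v) =
      pc (P.sh * P.μ) (fun i => rowL (P.B / P.μ + 1) P.μ ad (f (i0 + i))) u m v := by
  have hle : ∀ p, p < P.B / P.μ + 1 ↔ P.μ * p ≤ P.B := by
    intro p
    rw [Nat.lt_succ_iff, Nat.le_div_iff_mul_le hμ, mul_comm]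
  have hset : {x | ∃ r, P.RouteOK m r ∧
        x = rcost P.sh m (fun i => f (i0 + i)) (P.μ * u) (P.μ * v) r} =
      {x | ∃ r : ℕ → Stp, (∀ i < m, r i ∈ rowL (P.B / P.μ + 1) P.μ ad (f (i0 + i))) ∧
        x = rc (P.sh * P.μ) m u v r} := by
    ext x
    constructor
    · rintro ⟨r, hr, rfl⟩
      let r' : ℕ → Stp := fun i => ((r i).1 / P.μ, (r i).2 / P.μ, f (i0 + i) (r i).1 (r i).2)
      have e1 : ∀ i < m, P.μ * ((r i).1 / P.μ) = (r i).1 := fun i hi =>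
        Nat.mul_div_cancel' (hr i hi).1
      have e2 : ∀ i < m, P.μ * ((r i).2 / P.μ) = (r i).2 := fun i hi =>
        Nat.mul_div_cancel' (hr i hi).2.1
      refine ⟨r', fun i hi => ?_, ?_⟩
      · obtain ⟨_, _, h3, h4, h5⟩ := hr i hi
        refine mem_rowL.mpr ⟨(hle _).mpr ?_, (hle _).mpr ?_, ?_, ?_⟩
        · show P.μ * ((r i).1 / P.μ) ≤ P.B
          rw [e1 i hi]; exact h3
        · show P.μ * ((r i).2 / P.μ) ≤ P.B
          rw [e2 i hi]; exact h4
        · show ad (P.μ * ((r i).1 / P.μ)) (P.μ * ((r i).2 / P.μ)) = true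
          rw [e1 i hi, e2 i hi]; exact (had _ _).mpr h5
        · show f (i0 + i) (r i).1 (r i).2 =
            f (i0 + i) (P.μ * ((r i).1 / P.μ)) (P.μ * ((r i).2 / P.μ))
          rw [e1 i hi, e2 i hi]
      · rw [← rcost_mesh P.sh P.μ m (fun i => f (i0 + i)) u v r' (fun i hi => by
          show f (i0 + i) (r i).1 (r i).2 =
            f (i0 + i) (P.μ * ((r i).1 / P.μ)) (P.μ * ((r i).2 / P.μ))
          rw [e1 i hi, e2 i hi])]
        have h1 : ∀ i < m, (P.μ * (r' i).1, P.μ * (r' i).2.1) = r i := by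
          intro i hi
          show (P.μ * ((r i).1 / P.μ), P.μ * ((r i).2 / P.μ)) = r i
          rw [e1 i hi, e2 i hi]
        have h2 : ∀ i ≤ m, prevPos (P.μ * u) r i =
            prevPos (P.μ * u) (fun i => (P.μ * (r' i).1, P.μ * (r' i).2.1)) i := by
          intro i hi
          cases i with
          | zero => rfl
          | succ i =>
            show (r i).2 = P.μ * (r' i).2.1
            have := h1 i (by omega)
            exact (congrArg Prod.snd this).symm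
        unfold rcost
        rw [h2 m le_rfl]
        congr 1
        refine Finset.sum_congr rfl fun i hi => ?_
        have hi' := Finset.mem_range.mp hi
        rw [h2 i hi'.le]
        have t1 : P.μ * (r' i).1 = (r i).1 := e1 i hi'
        have t2 : P.μ * (r' i).2.1 = (r i).2 := e2 i hi'
        simp only [t1, t2]
    · rintro ⟨r, hr, rfl⟩
      refine ⟨fun i => (P.μ * (r i).1, P.μ * (r i).2.1), fun i hi => ?_, ?_⟩
      · obtain ⟨h1, h2, h3, h4⟩ := mem_rowL.mp (hr i hi)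
        exact ⟨dvd_mul_right _ _, dvd_mul_right _ _, (hle _).mp h1, (hle _).mp h2,
          (had _ _).mp h3⟩
      · exact (rcost_mesh P.sh P.μ m (fun i => f (i0 + i)) u v r
          fun i hi => (mem_rowL.mp (hr i hi)).2.2.2).symm
  unfold best
  rw [hset]
  by_cases hE : ∀ i < m, rowL (P.B / P.μ + 1) P.μ ad (f (i0 + i)) ≠ []
  · exact (pc_eq_sInf _ _ _ _ _ hE).symm
  · push Not at hE
    obtain ⟨i1, hi1, hE⟩ := hE
    have hno : ∀ i, rowL (P.B / P.μ + 1) P.μ ad (f (i0 + i)) = [] := by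
      intro i
      rw [List.eq_nil_iff_forall_not_mem]
      intro e he
      obtain ⟨h1, h2, h3, _⟩ := mem_rowL.mp he
      have : (e.1, e.2.1, f (i0 + i1) (P.μ * e.1) (P.μ * e.2.1)) ∈
          rowL (P.B / P.μ + 1) P.μ ad (f (i0 + i1)) := mem_rowL.mpr ⟨h1, h2, h3, rfl⟩
      rw [hE] at this
      simp at this
    have hempty : {x | ∃ r : ℕ → Stp,
        (∀ i < m, r i ∈ rowL (P.B / P.μ + 1) P.μ ad (f (i0 + i))) ∧
        x = rc (P.sh * P.μ) m u v r} = ∅ := by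
      rw [Set.eq_empty_iff_forall_notMem]
      rintro x ⟨r, hr, _⟩
      have := hr i1 hi1
      rw [hno i1] at this
      simp at this
    rw [hempty, Nat.sInf_empty]
    obtain ⟨m', rfl⟩ : ∃ m', m = m' + 1 := ⟨m - 1, by omega⟩
    show 0 = lmin _
    beta_reduce
    rw [hno m']
    rfl

theorem rowsL_getD {n μ : ℕ} {ad : ℕ → ℕ → Bool} {f : ℕ → ℕ → ℕ → ℕ} {i0 m i : ℕ} (hi : i < m) :
    (rowsL n μ ad f i0 m).getD i [] = rowL n μ ad (f (i0 + i)) :=
  H763.getD_map_range m _ _ hi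

theorem rowsL_length (n μ : ℕ) (ad : ℕ → ℕ → Bool) (f : ℕ → ℕ → ℕ → ℕ) (i0 m : ℕ) :
    (rowsL n μ ad f i0 m).length = m := by simp [rowsL]

theorem rowsL_lt {n μ : ℕ} {ad : ℕ → ℕ → Bool} {f : ℕ → ℕ → ℕ → ℕ} {i0 m : ℕ} :
    ∀ row ∈ rowsL n μ ad f i0 m, ∀ e ∈ row, e.1 < n := by
  intro row hrow e he
  obtain ⟨i, _, rfl⟩ := List.mem_map.mp hrow
  exact (mem_rowL.mp he).1

/-- The list version computes `best`: costs from one start. -/
theorem bestF_eq (P : Par) (hμ : 0 < P.μ) (ad : ℕ → ℕ → Bool)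
    (had : ∀ p q, ad p q = true ↔ P.adm p q) (f : Leaf) (i0 m u : ℕ) {v : ℕ}
    (hv : P.μ * v ≤ P.B) :
    (bestF (P.B / P.μ + 1) P.μ P.sh ad f i0 m u).getD v 0 =
      best P f i0 m (P.μ * u) (P.μ * v) := by
  have hv' : v < P.B / P.μ + 1 := by
    rw [Nat.lt_succ_iff, Nat.le_div_iff_mul_le hμ, mul_comm]; exact hv
  unfold bestF
  rw [dpFrom_getD _ _ _ _ rowsL_lt v hv', rowsL_length, best_eq_pc P hμ ad had]
  exact pc_congr m (fun i hi => rowsL_getD hi) v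

/-- The list version computes `best`: all pairs. -/
theorem bestL_eq (P : Par) (hμ : 0 < P.μ) (ad : ℕ → ℕ → Bool)
    (had : ∀ p q, ad p q = true ↔ P.adm p q) (f : Leaf) (i0 m : ℕ) {u v : ℕ}
    (hu : P.μ * u ≤ P.B) (hv : P.μ * v ≤ P.B) :
    H763.ent2 (bestL (P.B / P.μ + 1) P.μ P.sh ad f i0 m) u v =
      best P f i0 m (P.μ * u) (P.μ * v) := by
  have hu' : u < P.B / P.μ + 1 := by
    rw [Nat.lt_succ_iff, Nat.le_div_iff_mul_le hμ, mul_comm]; exact hu
  have hv' : v < P.B / P.μ + 1 := by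
    rw [Nat.lt_succ_iff, Nat.le_div_iff_mul_le hμ, mul_comm]; exact hv
  unfold bestL
  rw [dpTab_getD _ _ _ rowsL_lt hu' hv', rowsL_length, best_eq_pc P hμ ad had]
  exact pc_congr m (fun i hi => rowsL_getD hi) v

/-- Entries of the window. -/
theorem bestW_eq (P : Par) (hμ : 0 < P.μ) (ad : ℕ → ℕ → Bool)
    (had : ∀ p q, ad p q = true ↔ P.adm p q) (f : Leaf) (i0 m lo : ℕ) {na a b : ℕ}
    (ha : a < na) (hb : b < na) (hv : P.μ * (lo + b) ≤ P.B) :
    H763.ent2 (bestW (P.B / P.μ + 1) P.μ P.sh ad f i0 m lo na) a b =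
      best P f i0 m (P.μ * (lo + a)) (P.μ * (lo + b)) := by
  unfold H763.ent2 bestW
  rw [H763.getD_map_range _ _ _ ha, H763.getD_map_range _ _ _ hb]
  exact bestF_eq P hμ ad had f i0 m (lo + a) hv

/-- Only the costs of admissible mesh steps in the rows of the slab matter. -/
theorem bestF_congr {n μ sh : ℕ} {ad : ℕ → ℕ → Bool} {f f' : ℕ → ℕ → ℕ → ℕ} {i0 m u : ℕ}
    (h : ∀ i < m, ∀ p < n, ∀ q < n, ad (μ * p) (μ * q) = true →
      f (i0 + i) (μ * p) (μ * q) = f' (i0 + i) (μ * p) (μ * q)) :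
    bestF n μ sh ad f i0 m u = bestF n μ sh ad f' i0 m u := by
  have h1 : rowsL n μ ad f i0 m = rowsL n μ ad f' i0 m := by
    unfold rowsL
    refine List.map_congr_left fun i hi => ?_
    unfold rowL
    rw [List.flatMap_def, List.flatMap_def]
    congr 1
    refine List.map_congr_left fun p hp => ?_
    refine List.map_congr_left fun q hq => ?_
    obtain ⟨hq1, hq2⟩ := List.mem_filter.mp hq
    rw [h i (List.mem_range.mp hi) p (List.mem_range.mp hp) q (List.mem_range.mp hq1) hq2]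
  unfold bestF
  rw [h1]

theorem bestL_eq_map (n μ sh : ℕ) (ad : ℕ → ℕ → Bool) (f : ℕ → ℕ → ℕ → ℕ) (i0 m : ℕ) :
    bestL n μ sh ad f i0 m = (List.range n).map fun u => bestF n μ sh ad f i0 m u := rfl

theorem bestL_congr {n μ sh : ℕ} {ad : ℕ → ℕ → Bool} {f f' : ℕ → ℕ → ℕ → ℕ} {i0 m : ℕ}
    (h : ∀ i < m, ∀ p < n, ∀ q < n, ad (μ * p) (μ * q) = true →
      f (i0 + i) (μ * p) (μ * q) = f' (i0 + i) (μ * p) (μ * q)) :
    bestL n μ sh ad f i0 m = bestL n μ sh ad f' i0 m := by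
  rw [bestL_eq_map, bestL_eq_map]
  exact List.map_congr_left fun u _ => bestF_congr h

theorem bestW_congr {n μ sh : ℕ} {ad : ℕ → ℕ → Bool} {f f' : ℕ → ℕ → ℕ → ℕ} {i0 m lo na : ℕ}
    (h : ∀ i < m, ∀ p < n, ∀ q < n, ad (μ * p) (μ * q) = true →
      f (i0 + i) (μ * p) (μ * q) = f' (i0 + i) (μ * p) (μ * q)) :
    bestW n μ sh ad f i0 m lo na = bestW n μ sh ad f' i0 m lo na := by
  unfold bestW
  refine List.map_congr_left fun a _ => List.map_congr_left fun b _ => ?_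
  rw [bestF_congr h]

/-! ### Polynomial time -/

variable {A : Set Word} {α : Type*} [Enc α]

theorem pt_rowL {n μ : α → ℕ} {ad : α → ℕ → ℕ → Bool} {f : α → ℕ → ℕ → ℕ}
    (hn : PT A n) (hnb : PBd n) (hμ : PT A μ)
    (had : PT A (fun x : α × ℕ × ℕ => ad x.1 x.2.1 x.2.2))
    (hf : PT A (fun x : α × ℕ × ℕ => f x.1 x.2.1 x.2.2)) :
    PT A (fun a => rowL (n a) (μ a) (ad a) (f a)) := by
  refine PT.flatMap (f := fun a p => ((List.range (n a)).filter fun q =>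
    ad a (μ a * p) (μ a * q)).map fun q => (p, q, f a (μ a * p) (μ a * q))) (PT.range hn hnb) ?_
  refine PT.map (f := fun (x : α × ℕ) q => (x.2, q, f x.1 (μ x.1 * x.2) (μ x.1 * q)))
    (PT.filter (f := fun (x : α × ℕ) q => ad x.1 (μ x.1 * x.2) (μ x.1 * q))
      ((PT.range hn hnb).comp PT.fst') ?_) ?_
  · exact had.comp (PT.fst'.fst.pair (((hμ.comp PT.fst'.fst).mul PT.fst'.snd).pair
      ((hμ.comp PT.fst'.fst).mul PT.snd')))
  · exact PT.fst'.snd.pair (PT.snd'.pair (hf.comp (PT.fst'.fst.pair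
      (((hμ.comp PT.fst'.fst).mul PT.fst'.snd).pair ((hμ.comp PT.fst'.fst).mul PT.snd')))))

theorem pt_rowsL {n μ i0 m : α → ℕ} {ad : α → ℕ → ℕ → Bool} {f : α → ℕ → ℕ → ℕ → ℕ}
    (hn : PT A n) (hnb : PBd n) (hμ : PT A μ) (hi0 : PT A i0) (hm : PT A m) (hmb : PBd m)
    (had : PT A (fun x : α × ℕ × ℕ => ad x.1 x.2.1 x.2.2))
    (hf : PT A (fun x : α × ℕ × ℕ × ℕ => f x.1 x.2.1 x.2.2.1 x.2.2.2)) :
    PT A (fun a => rowsL (n a) (μ a) (ad a) (f a) (i0 a) (m a)) := by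
  refine PT.map (f := fun a i => rowL (n a) (μ a) (ad a) (f a (i0 a + i))) (PT.range hm hmb) ?_
  refine pt_rowL (α := α × ℕ) (ad := fun x => ad x.1) (f := fun x => f x.1 (i0 x.1 + x.2))
    (hn.comp PT.fst') (hnb.comp (A := A) PT.fst') (hμ.comp PT.fst') ?_ ?_
  · exact had.comp (PT.fst'.fst.pair PT.snd')
  · exact hf.comp (PT.fst'.fst.pair (((hi0.comp PT.fst'.fst).add PT.fst'.snd).pair PT.snd'))

theorem pt_bestF {n μ sh i0 m u : α → ℕ} {ad : α → ℕ → ℕ → Bool} {f : α → ℕ → ℕ → ℕ → ℕ}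
    (hn : PT A n) (hnb : PBd n) (hμ : PT A μ) (hsh : PT A sh) (hi0 : PT A i0) (hm : PT A m)
    (hmb : PBd m) (hu : PT A u)
    (had : PT A (fun x : α × ℕ × ℕ => ad x.1 x.2.1 x.2.2))
    (hf : PT A (fun x : α × ℕ × ℕ × ℕ => f x.1 x.2.1 x.2.2.1 x.2.2.2)) :
    PT A (fun a => bestF (n a) (μ a) (sh a) (ad a) (f a) (i0 a) (m a) (u a)) :=
  pt_dpFrom (hsh.mul hμ) hn hnb hu (pt_rowsL hn hnb hμ hi0 hm hmb had hf)

theorem pt_bestL {n μ sh i0 m : α → ℕ} {ad : α → ℕ → ℕ → Bool} {f : α → ℕ → ℕ → ℕ → ℕ}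
    (hn : PT A n) (hnb : PBd n) (hμ : PT A μ) (hsh : PT A sh) (hi0 : PT A i0) (hm : PT A m)
    (hmb : PBd m) (had : PT A (fun x : α × ℕ × ℕ => ad x.1 x.2.1 x.2.2))
    (hf : PT A (fun x : α × ℕ × ℕ × ℕ => f x.1 x.2.1 x.2.2.1 x.2.2.2)) :
    PT A (fun a => bestL (n a) (μ a) (sh a) (ad a) (f a) (i0 a) (m a)) :=
  pt_dpTab (hsh.mul hμ) hn hnb (pt_rowsL hn hnb hμ hi0 hm hmb had hf)

theorem pt_bestW {n μ sh i0 m lo na : α → ℕ} {ad : α → ℕ → ℕ → Bool}
    {f : α → ℕ → ℕ → ℕ → ℕ}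
    (hn : PT A n) (hnb : PBd n) (hμ : PT A μ) (hsh : PT A sh) (hi0 : PT A i0) (hm : PT A m)
    (hmb : PBd m) (hlo : PT A lo) (hna : PT A na) (hnab : PBd na)
    (had : PT A (fun x : α × ℕ × ℕ => ad x.1 x.2.1 x.2.2))
    (hf : PT A (fun x : α × ℕ × ℕ × ℕ => f x.1 x.2.1 x.2.2.1 x.2.2.2)) :
    PT A (fun a => bestW (n a) (μ a) (sh a) (ad a) (f a) (i0 a) (m a) (lo a) (na a)) := by
  refine PT.map (f := fun a i => (List.range (na a)).map fun b =>
    (bestF (n a) (μ a) (sh a) (ad a) (f a) (i0 a) (m a) (lo a + i)).getD (lo a + b) 0)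
    (PT.range hna hnab) ?_
  refine PT.map (f := fun (x : α × ℕ) b =>
    (bestF (n x.1) (μ x.1) (sh x.1) (ad x.1) (f x.1) (i0 x.1) (m x.1) (lo x.1 + x.2)).getD
      (lo x.1 + b) 0) ((PT.range hna hnab).comp PT.fst') ?_
  refine PT.getD ?_ ((hlo.comp PT.fst'.fst).add PT.snd') (PT.const 0)
  have h : PT A (fun x : α × ℕ =>
      bestF (n x.1) (μ x.1) (sh x.1) (ad x.1) (f x.1) (i0 x.1) (m x.1) (lo x.1 + x.2)) := by
    refine pt_bestF (α := α × ℕ) (ad := fun x => ad x.1) (f := fun x => f x.1)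
      (hn.comp PT.fst') (hnb.comp (A := A) PT.fst') (hμ.comp PT.fst') (hsh.comp PT.fst')
      (hi0.comp PT.fst') (hm.comp PT.fst') (hmb.comp (A := A) PT.fst')
      ((hlo.comp PT.fst').add PT.snd') ?_ ?_
    · exact had.comp (PT.fst'.fst.pair PT.snd')
    · exact hf.comp (PT.fst'.fst.pair PT.snd')
  exact h.comp PT.fst'

end Vale.Agent.P315.Q
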