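import Vale.Agent.P315.Q.Best

/-! P315 (helper514), row G-STRAT: the row costs known after some cells have been read, and
`cval`, as functions on lists (additive geometry `boxPar`).

* `cellAns ℓ μ hid i a` : the answer of the cell `(i, a)`, a flat list: starts `a ℓ + μ x`
  (`x < ℓ / μ`), ends `start + μ c` (`c ≤ ℓ / μ`);
* `knownL ℓ μ vis T i p q` : the row cost from the list `T` of the known cells with answers;
* `knownL_eq` : `knownL` = `C.known` on admissible mesh steps;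
* `cvalF`, `cvalL`, `cvalW` : from one start, all pairs, window; `cvalF_eq`, … : = `C.cval`;
* `pt_knownL`, `pt_cvalF`, …: polynomial time. -/

set_option autoImplicit false

namespace Vale.Agent.P315.Q

open Vale.Agent.Lib.PolyTime Vale.Agent.P315.C

/-- Known cells with their answers. -/
abbrev KT := List ((ℕ × ℕ) × List ℕ)

/-- Answer of a cell. -/
def cellAns (ℓ μ : ℕ) (hid : Leaf) (i a : ℕ) : List ℕ :=
  (List.range (ℓ / μ)).flatMap fun x => (List.range (ℓ / μ + 1)).map fun c =>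
    hid i (a * ℓ + μ * x) (a * ℓ + μ * x + μ * c)

/-- Position of the pair `(p, q)` in the answer of its cell. -/
def cellIdx (ℓ μ p q : ℕ) : ℕ := (p % ℓ) / μ * (ℓ / μ + 1) + (q - p) / μ

/-- Row cost from the known cells. -/
def knownL (ℓ μ : ℕ) (vis : ℕ → ℕ → ℕ → ℕ) (T : KT) (i p q : ℕ) : ℕ :=
  (T.find? fun c => decide (c.1.1 = i ∧ c.1.2 = p / ℓ)).elim (vis i p q)
    fun c => c.2.getD (cellIdx ℓ μ p q) 0

/-- One-row moves of the additive geometry. -/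
def adB (ℓ p q : ℕ) : Bool := decide (p ≤ q ∧ q ≤ p + ℓ)

theorem flat_length (n w : ℕ) (g : ℕ → ℕ → ℕ) :
    ((List.range n).flatMap fun x => (List.range w).map fun c => g x c).length = n * w := by
  induction n with
  | zero => simp
  | succ n ih =>
    rw [List.range_succ, List.flatMap_append, List.length_append, ih]
    simp [add_mul]

theorem flat_getD (n w : ℕ) (g : ℕ → ℕ → ℕ) (d : ℕ) {x c : ℕ} (hx : x < n) (hc : c < w) :
    ((List.range n).flatMap fun x => (List.range w).map fun c => g x c).getD (x * w + c) d =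
      g x c := by
  induction n with
  | zero => omega
  | succ n ih =>
    rw [List.range_succ, List.flatMap_append]
    have hl := flat_length n w g
    rcases Nat.lt_or_ge x n with h | h
    · have h1 : x * w + c < n * w := by
        have : (x + 1) * w ≤ n * w := Nat.mul_le_mul_right _ h
        rw [add_mul, one_mul] at this
        omega
      rw [List.getD_append _ _ _ _ (by rw [hl]; exact h1)]
      exact ih h
    · obtain rfl : x = n := by omega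
      rw [List.getD_append_right _ _ _ _ (by rw [hl]; omega), hl]
      have h2 : x * w + c - x * w = c := by omega
      rw [h2]
      simp only [List.flatMap_cons, List.flatMap_nil, List.append_nil]
      exact H763.getD_map_range w _ _ hc

/-- The answer of the cell contains all mesh steps that start in it. -/
theorem cellAns_getD {ℓ μ : ℕ} (hμ : 0 < μ) (hℓ : 0 < ℓ) (hd : μ ∣ ℓ) (hid : Leaf) (i : ℕ)
    {p q : ℕ} (hp : μ ∣ p) (hq : μ ∣ q) (h1 : p ≤ q) (h2 : q ≤ p + ℓ) :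
    (cellAns ℓ μ hid i (p / ℓ)).getD (cellIdx ℓ μ p q) 0 = hid i p q := by
  obtain ⟨w, rfl⟩ := hd
  have hw : 0 < w := Nat.pos_of_mul_pos_left hℓ
  obtain ⟨a, rfl⟩ := hp
  obtain ⟨b, rfl⟩ := hq
  have hdiv : μ * w / μ = w := Nat.mul_div_cancel_left w hμ
  have hx : μ * a % (μ * w) / μ = a % w := by
    rw [Nat.mul_mod_mul_left, Nat.mul_div_cancel_left _ hμ]
  have hc : (μ * b - μ * a) / μ = b - a := by
    rw [← Nat.mul_sub, Nat.mul_div_cancel_left _ hμ]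
  have hab : a ≤ b := Nat.le_of_mul_le_mul_left h1 hμ
  have hbw : b ≤ a + w := by
    rw [← Nat.mul_add] at h2
    exact Nat.le_of_mul_le_mul_left h2 hμ
  have hq : μ * a / (μ * w) = a / w := Nat.mul_div_mul_left a w hμ
  unfold cellAns cellIdx
  rw [hdiv, hx, hc, hq, flat_getD w (w + 1) (fun x c => hid i (a / w * (μ * w) + μ * x)
    (a / w * (μ * w) + μ * x + μ * c)) 0 (Nat.mod_lt _ hw) (by omega)]
  have e1 : a / w * (μ * w) + μ * (a % w) = μ * a := by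
    have := Nat.div_add_mod a w
    calc a / w * (μ * w) + μ * (a % w) = μ * (w * (a / w) + a % w) := by ring
      _ = μ * a := by rw [this]
  rw [e1, ← Nat.mul_add]
  congr 2
  omega

theorem cellAns_length (ℓ μ : ℕ) (hid : Leaf) (i a : ℕ) :
    (cellAns ℓ μ hid i a).length = ℓ / μ * (ℓ / μ + 1) :=
  flat_length _ _ fun x c => hid i (a * ℓ + μ * x) (a * ℓ + μ * x + μ * c)

/-- The set of the known cells. -/
def KT.keys (T : KT) : Finset (ℕ × ℕ) := (T.map Prod.fst).toFinset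

/-- All answers are correct. -/
def KT.Ok (ℓ μ : ℕ) (hid : Leaf) (T : KT) : Prop :=
  ∀ c ∈ T, c.2 = cellAns ℓ μ hid c.1.1 c.1.2

/-- `knownL` is `C.known` on admissible mesh steps. -/
theorem knownL_eq {M ℓ μ B J S H : ℕ} (hμ : 0 < μ) (hℓ : 0 < ℓ) (hd : μ ∣ ℓ) (vis hid : Leaf)
    {T : KT} (hT : T.Ok ℓ μ hid) (i : ℕ) {p q : ℕ} (hp : μ ∣ p) (hq : μ ∣ q) (h1 : p ≤ q)
    (h2 : q ≤ p + ℓ) :
    knownL ℓ μ vis T i p q = known (boxPar M ℓ μ B J S H) vis hid T.keys i p q := by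
  have hiff : (∃ a, (i, a) ∈ T.keys ∧ (boxPar M ℓ μ B J S H).cov a p) ↔
      ∃ c ∈ T, c.1 = (i, p / ℓ) := by
    unfold KT.keys
    simp only [List.mem_toFinset, List.mem_map]
    constructor
    · rintro ⟨a, ⟨c, hc, hc2⟩, ha⟩
      have ha' : p / ℓ = a := ha
      exact ⟨c, hc, by rw [hc2, ha']⟩
    · rintro ⟨c, hc, hc2⟩
      exact ⟨p / ℓ, ⟨c, hc, hc2⟩, rfl⟩
  unfold knownL
  rcases hf : T.find? (fun c => decide (c.1.1 = i ∧ c.1.2 = p / ℓ)) with _ | c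
  · have hno : ¬ ∃ a, (i, a) ∈ T.keys ∧ (boxPar M ℓ μ B J S H).cov a p := by
      rw [hiff]
      rintro ⟨c, hc, hc2⟩
      have := List.find?_eq_none.mp hf c hc
      simp [hc2] at this
    unfold known
    rw [if_neg hno, hf]
    rfl
  · have hc := List.mem_of_find?_eq_some hf
    have hc2 := List.find?_some hf
    simp only [decide_eq_true_eq] at hc2
    have hyes : ∃ a, (i, a) ∈ T.keys ∧ (boxPar M ℓ μ B J S H).cov a p := by
      rw [hiff]
      exact ⟨c, hc, by ext <;> simp [hc2.1, hc2.2]⟩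
    unfold known
    rw [if_pos hyes, hf]
    show c.2.getD (cellIdx ℓ μ p q) 0 = _
    rw [hT c hc, hc2.1, hc2.2]
    exact cellAns_getD hμ hℓ hd hid i hp hq h1 h2

/-! ### The certified cost -/

/-- `cval` from one start: slab `i` of level `j` (`MJ = M ^ j` rows). -/
def cvalF (ℓ μ n : ℕ) (vis : ℕ → ℕ → ℕ → ℕ) (T : KT) (MJ i u : ℕ) : List ℕ :=
  bestF n μ 2 (adB ℓ) (knownL ℓ μ vis T) (i * MJ) MJ u

/-- `cval`, all pairs of mesh positions. -/
def cvalL (ℓ μ n : ℕ) (vis : ℕ → ℕ → ℕ → ℕ) (T : KT) (MJ i : ℕ) : List (List ℕ) :=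
  bestL n μ 2 (adB ℓ) (knownL ℓ μ vis T) (i * MJ) MJ

/-- `cval`, window. -/
def cvalW (ℓ μ n : ℕ) (vis : ℕ → ℕ → ℕ → ℕ) (T : KT) (MJ i lo na : ℕ) : List (List ℕ) :=
  bestW n μ 2 (adB ℓ) (knownL ℓ μ vis T) (i * MJ) MJ lo na

theorem adB_iff (M ℓ μ B J S H p q : ℕ) :
    adB ℓ p q = true ↔ (boxPar M ℓ μ B J S H).adm p q := by
  unfold adB; rw [decide_eq_true_eq]; rfl

section
variable {M ℓ μ B J S H : ℕ} (hμ : 0 < μ) (hℓ : 0 < ℓ) (hd : μ ∣ ℓ) (vis hid : Leaf) {T : KT}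
  (hT : T.Ok ℓ μ hid)
include hμ hℓ hd hT

theorem knownL_congr_box (j i : ℕ) :
    ∀ i' < M ^ j, ∀ p < B / μ + 1, ∀ q < B / μ + 1, adB ℓ (μ * p) (μ * q) = true →
      knownL ℓ μ vis T (i * M ^ j + i') (μ * p) (μ * q) =
      known (boxPar M ℓ μ B J S H) vis hid T.keys (i * M ^ j + i') (μ * p) (μ * q) := by
  intro i' _ p _ q _ h
  unfold adB at h
  rw [decide_eq_true_eq] at h
  exact knownL_eq hμ hℓ hd vis hid hT _ (dvd_mul_right _ _) (dvd_mul_right _ _) h.1 h.2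

theorem cvalF_eq (j i u : ℕ) {v : ℕ} (hv : μ * v ≤ B) :
    (cvalF ℓ μ (B / μ + 1) vis T (M ^ j) i u).getD v 0 =
      cval (boxPar M ℓ μ B J S H) vis hid T.keys j i (μ * u) (μ * v) := by
  unfold cvalF
  rw [bestF_congr (knownL_congr_box (J := J) (S := S) (H := H) hμ hℓ hd vis hid hT j i)]
  exact bestF_eq (boxPar M ℓ μ B J S H) hμ (adB ℓ) (adB_iff M ℓ μ B J S H) _ _ _ u hv

theorem cvalL_eq (j i : ℕ) {u v : ℕ} (hu : μ * u ≤ B) (hv : μ * v ≤ B) :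
    H763.ent2 (cvalL ℓ μ (B / μ + 1) vis T (M ^ j) i) u v =
      cval (boxPar M ℓ μ B J S H) vis hid T.keys j i (μ * u) (μ * v) := by
  unfold cvalL
  rw [bestL_congr (knownL_congr_box (J := J) (S := S) (H := H) hμ hℓ hd vis hid hT j i)]
  exact bestL_eq (boxPar M ℓ μ B J S H) hμ (adB ℓ) (adB_iff M ℓ μ B J S H) _ _ _ hu hv

theorem cvalW_eq (j i lo : ℕ) {na a b : ℕ} (ha : a < na) (hb : b < na)
    (hv : μ * (lo + b) ≤ B) :
    H763.ent2 (cvalW ℓ μ (B / μ + 1) vis T (M ^ j) i lo na) a b =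
      cval (boxPar M ℓ μ B J S H) vis hid T.keys j i (μ * (lo + a)) (μ * (lo + b)) := by
  unfold cvalW
  rw [bestW_congr (knownL_congr_box (J := J) (S := S) (H := H) hμ hℓ hd vis hid hT j i)]
  exact bestW_eq (boxPar M ℓ μ B J S H) hμ (adB ℓ) (adB_iff M ℓ μ B J S H) _ _ _ lo ha hb hv

end

/-! ### Polynomial time -/

variable {A : Set Word} {α : Type*} [Enc α]

theorem pt_cellIdx {ℓ μ p q : α → ℕ} (hℓ : PT A ℓ) (hμ : PT A μ) (hp : PT A p) (hq : PT A q) :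
    PT A (fun a => cellIdx (ℓ a) (μ a) (p a) (q a)) :=
  (((hp.mod hℓ).div hμ).mul ((hℓ.div hμ).add (PT.const 1))).add ((hq.sub hp).div hμ)

theorem pt_knownL {ℓ μ i p q : α → ℕ} {vis : α → ℕ → ℕ → ℕ → ℕ} {T : α → KT} (hℓ : PT A ℓ)
    (hμ : PT A μ) (hT : PT A T) (hi : PT A i) (hp : PT A p) (hq : PT A q)
    (hvis : PT A (fun a => vis a (i a) (p a) (q a))) :
    PT A (fun a => knownL (ℓ a) (μ a) (vis a) (T a) (i a) (p a) (q a)) := by
  have h1 : PT A (fun a => (T a).find? fun c => decide (c.1.1 = i a ∧ c.1.2 = p a / ℓ a)) := by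
    refine PT.find? (f := fun a (c : (ℕ × ℕ) × List ℕ) =>
      decide (c.1.1 = i a ∧ c.1.2 = p a / ℓ a)) hT ?_
    exact PT.decide_and (PT.eqNat PT.snd'.fst.fst (hi.comp PT.fst'))
      (PT.eqNat PT.snd'.fst.snd ((hp.comp PT.fst').div (hℓ.comp PT.fst')))
  refine (PT.optCase h1 hvis (g := fun a (c : (ℕ × ℕ) × List ℕ) =>
    c.2.getD (cellIdx (ℓ a) (μ a) (p a) (q a)) 0) ?_).congr fun a => ?_
  · exact PT.snd'.snd.getD (pt_cellIdx (hℓ.comp PT.fst') (hμ.comp PT.fst') (hp.comp PT.fst')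
      (hq.comp PT.fst')) (PT.const 0)
  · unfold knownL
    cases (T a).find? fun c => decide (c.1.1 = i a ∧ c.1.2 = p a / ℓ a) <;> rfl

theorem pt_adB {ℓ : α → ℕ} (hℓ : PT A ℓ) :
    PT A (fun x : α × ℕ × ℕ => adB (ℓ x.1) x.2.1 x.2.2) :=
  PT.decide_and (PT.le PT.snd'.fst PT.snd'.snd)
    (PT.le PT.snd'.snd (PT.snd'.fst.add (hℓ.comp PT.fst')))

theorem pt_knownL' {ℓ μ : α → ℕ} {vis : α → ℕ → ℕ → ℕ → ℕ} {T : α → KT} (hℓ : PT A ℓ)
    (hμ : PT A μ) (hT : PT A T)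
    (hvis : PT A (fun x : α × ℕ × ℕ × ℕ => vis x.1 x.2.1 x.2.2.1 x.2.2.2)) :
    PT A (fun x : α × ℕ × ℕ × ℕ =>
      knownL (ℓ x.1) (μ x.1) (vis x.1) (T x.1) x.2.1 x.2.2.1 x.2.2.2) :=
  pt_knownL (hℓ.comp PT.fst') (hμ.comp PT.fst') (hT.comp PT.fst') PT.snd'.fst PT.snd'.snd.fst
    PT.snd'.snd.snd hvis

theorem pt_cvalF {ℓ μ n MJ i u : α → ℕ} {vis : α → ℕ → ℕ → ℕ → ℕ} {T : α → KT} (hℓ : PT A ℓ)
    (hμ : PT A μ) (hn : PT A n) (hnb : PBd n) (hT : PT A T)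
    (hvis : PT A (fun x : α × ℕ × ℕ × ℕ => vis x.1 x.2.1 x.2.2.1 x.2.2.2))
    (hMJ : PT A MJ) (hMJb : PBd MJ) (hi : PT A i) (hu : PT A u) :
    PT A (fun a => cvalF (ℓ a) (μ a) (n a) (vis a) (T a) (MJ a) (i a) (u a)) :=
  pt_bestF hn hnb hμ (PT.const 2) (hi.mul hMJ) hMJ hMJb hu (pt_adB hℓ)
    (pt_knownL' hℓ hμ hT hvis)

theorem pt_cvalL {ℓ μ n MJ i : α → ℕ} {vis : α → ℕ → ℕ → ℕ → ℕ} {T : α → KT} (hℓ : PT A ℓ)
    (hμ : PT A μ) (hn : PT A n) (hnb : PBd n) (hT : PT A T)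
    (hvis : PT A (fun x : α × ℕ × ℕ × ℕ => vis x.1 x.2.1 x.2.2.1 x.2.2.2))
    (hMJ : PT A MJ) (hMJb : PBd MJ) (hi : PT A i) :
    PT A (fun a => cvalL (ℓ a) (μ a) (n a) (vis a) (T a) (MJ a) (i a)) :=
  pt_bestL hn hnb hμ (PT.const 2) (hi.mul hMJ) hMJ hMJb (pt_adB hℓ) (pt_knownL' hℓ hμ hT hvis)

theorem pt_cvalW {ℓ μ n MJ i lo na : α → ℕ} {vis : α → ℕ → ℕ → ℕ → ℕ} {T : α → KT}
    (hℓ : PT A ℓ) (hμ : PT A μ) (hn : PT A n) (hnb : PBd n) (hT : PT A T)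
    (hvis : PT A (fun x : α × ℕ × ℕ × ℕ => vis x.1 x.2.1 x.2.2.1 x.2.2.2))
    (hMJ : PT A MJ) (hMJb : PBd MJ) (hi : PT A i) (hlo : PT A lo) (hna : PT A na)
    (hnab : PBd na) :
    PT A (fun a => cvalW (ℓ a) (μ a) (n a) (vis a) (T a) (MJ a) (i a) (lo a) (na a)) :=
  pt_bestW hn hnb hμ (PT.const 2) (hi.mul hMJ) hMJ hMJb hlo hna hnab (pt_adB hℓ)
    (pt_knownL' hℓ hμ hT hvis)

end Vale.Agent.P315.Q
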