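import Vale.Agent.P315.Q.Tab
import Vale.Agent.P315.Q.LanePT
import Vale.Agent.P315.Q.KnownG

/-!
P315, row G-STRAT: the strategy of the additive theorem, as a `TStrat`.

The feed is `F = [lx, ly, n, S, μ, ℓ] ++ seeds` (`n` = number of levels, the scales are `s ≤ S`).
-/

set_option autoImplicit false

namespace Vale.Agent.P315.Q

open Vale.Agent.Lib.PolyTime Vale.Agent.P315.H155 Vale.Agent.P315.H801 Vale.Agent.P315.H220

/-- The parameters of the machines as functions of a clock and the scale. -/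
structure MPC where
  g : ℕ → ℕ → ℕ
  Dl : ℕ → ℕ → ℕ
  NL : ℕ → ℕ → ℕ
  R : ℕ → ℕ → ℕ
  Sm : ℕ → ℕ → ℕ
  T : ℕ → ℕ → ℕ
  Sh : ℕ → ℕ → ℕ
  C : ℕ
  /-- number of coins, as a function of the clock and `S` -/
  Cn : ℕ → ℕ → ℕ
  ptg : ∀ {α : Type} [Enc α] {U s : α → ℕ}, PT ∅ U → PBd U → PT ∅ s →
    PT ∅ (fun a => g (U a) (s a))
  ptDl : ∀ {α : Type} [Enc α] {U s : α → ℕ}, PT ∅ U → PBd U → PT ∅ s →
    PT ∅ (fun a => Dl (U a) (s a))
  ptNL : ∀ {α : Type} [Enc α] {U s : α → ℕ}, PT ∅ U → PBd U → PT ∅ s →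
    PT ∅ (fun a => NL (U a) (s a))
  ptR : ∀ {α : Type} [Enc α] {U s : α → ℕ}, PT ∅ U → PBd U → PT ∅ s →
    PT ∅ (fun a => R (U a) (s a))
  ptSm : ∀ {α : Type} [Enc α] {U s : α → ℕ}, PT ∅ U → PBd U → PT ∅ s →
    PT ∅ (fun a => Sm (U a) (s a))
  ptT : ∀ {α : Type} [Enc α] {U s : α → ℕ}, PT ∅ U → PBd U → PT ∅ s →
    PT ∅ (fun a => T (U a) (s a))
  ptSh : ∀ {α : Type} [Enc α] {U s : α → ℕ}, PT ∅ U → PBd U → PT ∅ s →
    PT ∅ (fun a => Sh (U a) (s a))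
  ptCn : ∀ {α : Type} [Enc α] {U s : α → ℕ}, PT ∅ U → PBd U → PT ∅ s →
    PT ∅ (fun a => Cn (U a) (s a))

section
variable {α : Type} [Enc α] (X : MPC) {U s : α → ℕ}

@[fun_prop]
theorem PT_Xg (h1 : PT ∅ U) (h2 : PBd U) (h3 : PT ∅ s) : PT ∅ (fun a => X.g (U a) (s a)) :=
  X.ptg h1 h2 h3
@[fun_prop]
theorem PT_XDl (h1 : PT ∅ U) (h2 : PBd U) (h3 : PT ∅ s) : PT ∅ (fun a => X.Dl (U a) (s a)) :=
  X.ptDl h1 h2 h3
@[fun_prop]
theorem PT_XNL (h1 : PT ∅ U) (h2 : PBd U) (h3 : PT ∅ s) : PT ∅ (fun a => X.NL (U a) (s a)) :=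
  X.ptNL h1 h2 h3
@[fun_prop]
theorem PT_XR (h1 : PT ∅ U) (h2 : PBd U) (h3 : PT ∅ s) : PT ∅ (fun a => X.R (U a) (s a)) :=
  X.ptR h1 h2 h3
@[fun_prop]
theorem PT_XSm (h1 : PT ∅ U) (h2 : PBd U) (h3 : PT ∅ s) : PT ∅ (fun a => X.Sm (U a) (s a)) :=
  X.ptSm h1 h2 h3
@[fun_prop]
theorem PT_XT (h1 : PT ∅ U) (h2 : PBd U) (h3 : PT ∅ s) : PT ∅ (fun a => X.T (U a) (s a)) :=
  X.ptT h1 h2 h3
@[fun_prop]
theorem PT_XSh (h1 : PT ∅ U) (h2 : PBd U) (h3 : PT ∅ s) : PT ∅ (fun a => X.Sh (U a) (s a)) :=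
  X.ptSh h1 h2 h3
@[fun_prop]
theorem PT_XCn (h1 : PT ∅ U) (h2 : PBd U) (h3 : PT ∅ s) : PT ∅ (fun a => X.Cn (U a) (s a)) :=
  X.ptCn h1 h2 h3
end

namespace M1

/-- Number of levels. -/
def fn (F : List ℕ) : ℕ := min (F.getD 2 0) F.length

/-- The largest scale. -/
def fS (F : List ℕ) : ℕ := min (F.getD 3 0) F.length

/-- Mesh. -/
def fμ (F : List ℕ) : ℕ := F.getD 4 0

/-- Length of a row. -/
def fℓ (F : List ℕ) : ℕ := F.getD 5 0

/-- Seed number `r`. -/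
def sd (F : List ℕ) (r : ℕ) : ℕ := F.getD (6 + r) 0

/-- Number of rows. -/
def fK (M : ℕ) (F : List ℕ) : ℕ := pw F.length M (fn F)

/-- Largest position. -/
def fB (M : ℕ) (F : List ℕ) : ℕ := fK M F * fℓ F

/-- Start index. -/
def fH (m : ℕ) (F : List ℕ) : ℕ := fn F + pw F.length 2 (fS F) + pw F.length 16 (fS F) * m ^ 2

/-- Natural index of the root. -/
def fN (m J cd : ℕ) (F : List ℕ) : ℕ := J * fn F / 2 + fH m F + 1 - (fn F + cd - 1) / cd

/-- Jitters. -/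
def fxi (M J : ℕ) (F : List ℕ) (j m : ℕ) : ℕ :=
  if j < fn F + 1 ∧ m < M then sd F (j * M + m) % (J + 1) else 0

/-- Coins. -/
def fcoin (X : MPC) (M : ℕ) (F : List ℕ) (j s c : ℕ) : ℕ :=
  if j < fn F + 1 ∧ s < fS F + 1 ∧ c < X.Cn F.length (fS F) then
    sd F ((fn F + 1) * M + ((j * (fS F + 1) + s) * X.Cn F.length (fS F) + c)) else 0

/-- Labels of the children. -/
def fkids (M a : ℕ) : List ℕ := (List.range (2 * M)).map fun r => a * M + r

/-- Labels of the units. -/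
def flabs (M : ℕ) (F : List ℕ) (s a : ℕ) : List ℕ :=
  (rg F.length (2 * pw F.length M (pw F.length 2 s))).map fun r =>
    a * pw F.length M (pw F.length 2 s) + r

/-- Number of machines. -/
def fcnt (X : MPC) (F : List ℕ) (s : ℕ) : ℕ :=
  if s = 0 then 0 else cntQ (X.g F.length s) (X.NL F.length s) (X.Dl F.length s)
    (X.R F.length s) (X.Sm F.length s)

/-- Does the label contain the start? -/
def fcov (ℓ a p : ℕ) : Bool := decide (p / ℓ = a)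

/-- Certified costs from one start. -/
def fcv (M : ℕ) (F : List ℕ) (T : KT) (MJ i u : ℕ) : List ℕ :=
  cvalGF (min (fB M F / fμ F + 1) F.length) (fμ F) 2 (adB (fℓ F)) (fcov (fℓ F))
    (fun _ p q => cellIdx (fℓ F) (fμ F) p q) (fun _ _ _ => fℓ F) T (min MJ F.length) i u

/-- The lanes. -/
def flane (X : MPC) (M : ℕ) (F : List ℕ) (s q κ j a : ℕ) (D : ℕ → ℕ → ℕ → ℕ → ℕ → ℕ)
    (c : ℕ → ℕ) (m : ℕ) : ℕ × ℕ × ℕ :=
  laneN (min (pw F.length M (pw F.length 2 s)) F.length) (pw F.length 2 s)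
    (fℓ F * pw F.length M (j - pw F.length 2 s)) (min (X.g F.length s) F.length)
    (X.NL F.length s) (X.Dl F.length s) (X.R F.length s) (min (X.T F.length s) F.length)
    (X.Sh F.length s) X.C (fμ F) (fB M F) (min q F.length) (min κ F.length) a c D m

section
variable {α : Type} [Enc α] {x : α → List ℕ}

@[fun_prop]
theorem PT_fn (hx : PT ∅ x) : PT ∅ (fun a => fn (x a)) := by unfold fn; fun_prop
@[fun_prop]
theorem PBd_fn (hx : PT ∅ x) : PBd (fun a => fn (x a)) := by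
  unfold fn; exact PBd_min_right (by fun_prop)
@[fun_prop]
theorem PT_fS (hx : PT ∅ x) : PT ∅ (fun a => fS (x a)) := by unfold fS; fun_prop
@[fun_prop]
theorem PT_fμ (hx : PT ∅ x) : PT ∅ (fun a => fμ (x a)) := by unfold fμ; fun_prop
@[fun_prop]
theorem PT_fℓ (hx : PT ∅ x) : PT ∅ (fun a => fℓ (x a)) := by unfold fℓ; fun_prop
@[fun_prop]
theorem PT_sd {r : α → ℕ} (hx : PT ∅ x) (hr : PT ∅ r) : PT ∅ (fun a => sd (x a) (r a)) := by
  unfold sd; fun_prop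
@[fun_prop]
theorem PT_fK (M : ℕ) (hx : PT ∅ x) : PT ∅ (fun a => fK M (x a)) := by unfold fK; fun_prop
@[fun_prop]
theorem PT_fB (M : ℕ) (hx : PT ∅ x) : PT ∅ (fun a => fB M (x a)) := by unfold fB; fun_prop
@[fun_prop]
theorem PT_fH (m : ℕ) (hx : PT ∅ x) : PT ∅ (fun a => fH m (x a)) := by unfold fH; fun_prop
@[fun_prop]
theorem PT_fN (m J cd : ℕ) (hx : PT ∅ x) : PT ∅ (fun a => fN m J cd (x a)) := by
  unfold fN; fun_prop
@[fun_prop]
theorem PT_fxi (M J : ℕ) {j m : α → ℕ} (hx : PT ∅ x) (hj : PT ∅ j) (hm : PT ∅ m) :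
    PT ∅ (fun a => fxi M J (x a) (j a) (m a)) := by unfold fxi; fun_prop
@[fun_prop]
theorem PT_fcoin (X : MPC) (M : ℕ) {j s c : α → ℕ} (hx : PT ∅ x) (hj : PT ∅ j) (hs : PT ∅ s)
    (hc : PT ∅ c) : PT ∅ (fun a => fcoin X M (x a) (j a) (s a) (c a)) := by
  unfold fcoin; fun_prop
@[fun_prop]
theorem PT_fkids (M : ℕ) {y : α → ℕ} (hy : PT ∅ y) : PT ∅ (fun a => fkids M (y a)) := by
  unfold fkids; fun_prop
@[fun_prop]
theorem PT_flabs (M : ℕ) {s y : α → ℕ} (hx : PT ∅ x) (hs : PT ∅ s) (hy : PT ∅ y) :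
    PT ∅ (fun a => flabs M (x a) (s a) (y a)) := by unfold flabs; fun_prop
@[fun_prop]
theorem PT_fcnt (X : MPC) {s : α → ℕ} (hx : PT ∅ x) (hs : PT ∅ s) :
    PT ∅ (fun a => fcnt X (x a) (s a)) := by unfold fcnt; fun_prop
@[fun_prop]
theorem PT_fcv (M : ℕ) {T : α → KT} {MJ i u : α → ℕ} (hx : PT ∅ x) (hT : PT ∅ T)
    (hM : PT ∅ MJ) (hi : PT ∅ i) (hu : PT ∅ u) :
    PT ∅ (fun a => fcv M (x a) (T a) (MJ a) (i a) (u a)) := by
  unfold fcv
  refine pt_cvalGF (n := fun a => min (fB M (x a) / fμ (x a) + 1) (x a).length)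
    (μ := fun a => fμ (x a)) (sh := fun _ => 2) (MJ := fun a => min (MJ a) (x a).length)
    (ad := fun a => adB (fℓ (x a))) (cv := fun a => fcov (fℓ (x a)))
    (idx := fun a _ p q => cellIdx (fℓ (x a)) (fμ (x a)) p q) (vis := fun a _ _ _ => fℓ (x a))
    (by fun_prop) (PBd_min_right (by fun_prop)) (by fun_prop) (by fun_prop)
    (pt_adB (PT_fℓ hx)) ?_ ?_ (by fun_prop) hT (by fun_prop)
    (PBd_min_right (by fun_prop)) hi hu
  · unfold fcov; fun_prop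
  · exact pt_cellIdx ((PT_fℓ hx).comp PT.fst') ((PT_fμ hx).comp PT.fst') PT.snd'.snd.fst
      PT.snd'.snd.snd
end

theorem pt_flane (X : MPC) (M : ℕ) {α : Type} [Enc α] {x : α → List ℕ} {s q κ j a m : α → ℕ}
    {D : α → ℕ → ℕ → ℕ → ℕ → ℕ → ℕ} {c : α → ℕ → ℕ} (hx : PT ∅ x) (hs : PT ∅ s) (hq : PT ∅ q)
    (hκ : PT ∅ κ) (hj : PT ∅ j) (ha : PT ∅ a) (hm : PT ∅ m)
    (hD : PT ∅ (fun p : α × ℕ × ℕ × ℕ × ℕ × ℕ =>
      D p.1 p.2.1 p.2.2.1 p.2.2.2.1 p.2.2.2.2.1 p.2.2.2.2.2))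
    (hc : PT ∅ (fun p : α × ℕ => c p.1 p.2)) :
    PT ∅ (fun p => flane X M (x p) (s p) (q p) (κ p) (j p) (a p) (D p) (c p) (m p)) := by
  unfold flane
  refine PT_laneN (D := D) (coin := c) (by fun_prop) (PBd_min_right (by fun_prop))
    (by fun_prop) (by fun_prop) (by fun_prop) (PBd_min_right (by fun_prop)) (by fun_prop)
    (by fun_prop) (by fun_prop) (by fun_prop) (PBd_min_right (by fun_prop)) (by fun_prop)
    (by fun_prop) (by fun_prop) (by fun_prop) (by fun_prop) (PBd_min_right (by fun_prop))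
    (by fun_prop) (PBd_min_right (by fun_prop)) ha hc hD hm

/-- The strategy of the additive theorem. -/
def strat (X : MPC) (M m J cd : ℕ) : TStrat (List ℕ) where
  U := fun F => F.length
  n := fn
  M := fun _ => M
  μ := fμ
  H := fH m
  S := fun F => fS F + 1
  Nr := fN m J cd
  a0 := fun _ => 0
  Lab := fun F => 3 * fK M F
  Dc := fun F => 4 * fK M F
  BB := fun F => 1000 * (F.length + 2) ^ 10
  kids := fun _ _ a => fkids M a
  labs := fun F _ s a _ => flabs M F s a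
  pen := fun _ _ _ _ _ => 0
  xi := fxi M J
  coin := fcoin X M
  cnt := fcnt X
  cvF := fcv M
  lane := flane X M
  ptU := by fun_prop
  pbU := by fun_prop
  ptn := by fun_prop
  pbn := by fun_prop
  ptM := by fun_prop
  ptμ := by fun_prop
  ptH := by fun_prop
  ptS := by fun_prop
  ptNr := by fun_prop
  pta0 := by fun_prop
  ptLab := by fun_prop
  ptDc := by fun_prop
  ptBB := by fun_prop
  pbBB := by fun_prop
  ptkids := by fun_prop
  ptlabs := by fun_prop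
  ptpen := by fun_prop
  ptxi := by fun_prop
  ptcoin := by fun_prop
  ptcnt := by fun_prop
  ptcvF := by fun_prop
  ptlane := fun hx hs hq hκ hj ha hm hD hc => pt_flane X M hx hs hq hκ hj ha hm hD hc

/-- The numbers of `C.famMP m`, with clocks. -/
def mpc (m : ℕ) : MPC where
  g := fun U s => pw U 2 (2 * m * pw U 2 s)
  Dl := fun U s => pw U 16 s * m ^ 2
  NL := fun U s => 20 * m * pw U 2 s
  R := fun U s => pw U 2 (m * pw U 2 s + 5)
  Sm := fun U s => pw U 2 (4 * m * pw U 2 s)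
  T := fun U s => pw U 2 (50 * m * pw U 2 s)
  Sh := fun U s => pw U 2 (54 * m * pw U 2 s)
  C := 10
  Cn := fun U s => pw U 2 (4 * m * pw U 2 s)
  ptg := fun _ _ _ => by fun_prop
  ptDl := fun _ _ _ => by fun_prop
  ptNL := fun _ _ _ => by fun_prop
  ptR := fun _ _ _ => by fun_prop
  ptSm := fun _ _ _ => by fun_prop
  ptT := fun _ _ _ => by fun_prop
  ptSh := fun _ _ _ => by fun_prop
  ptCn := fun _ _ _ => by fun_prop

/-- The strategy for the family `C.fam`. -/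
def famStrat (m k cd : ℕ) : TStrat (List ℕ) := strat (mpc m) (2 ^ (20 * m)) m (2 ^ k - 1) cd

end M1

end Vale.Agent.P315.Q
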