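import Vale.Agent.P315.Q.M1Run
import Vale.Agent.P315.H804.M1Ans

/-!
P315, row G-STRAT: `RunOk` for the strategy of the additive theorem, with the answers of the cell
program.
-/

set_option autoImplicit false

namespace Vale.Agent.P315.Q.M1

open Vale.Agent.Lib.PolyTime Vale.Agent.P315.C Vale.Agent.P315.H804 Vale.Agent.P315.RAM
  Vale.Agent.P315.H207 Vale.Agent.P315.H248

theorem prevPos_const (p : ℕ) (i : ℕ) : prevPos p (fun _ => (p, p)) i = p := by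
  cases i <;> rfl

/-- The certified cost is never larger than the cost of the constant route. -/
theorem cval_le_lin (M ℓ μ B J S H : ℕ) (X Y : ℕ → ℕ) (R : Finset (ℕ × ℕ)) (n v : ℕ) :
    cval (boxPar M ℓ μ B J S H) (visW ℓ) (hidW X Y ℓ) R n 0 0 v ≤ M ^ n * ℓ + 2 * v := by
  unfold cval
  have hr : (boxPar M ℓ μ B J S H).RouteOK (M ^ n) (fun _ => ((0 : ℕ), (0 : ℕ))) := by
    intro i _
    exact ⟨dvd_zero _, dvd_zero _, Nat.zero_le _, Nat.zero_le _, le_rfl, Nat.zero_le _⟩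
  refine (H140.best_le_rcost _ _ _ _ _ hr).trans ?_
  unfold rcost
  simp only [prevPos_const, Nat.dist_self, Nat.mul_zero, Nat.zero_add]
  have h1 : Nat.dist 0 v = v := by rw [Nat.dist_eq_sub_of_le (Nat.zero_le v)]; simp
  rw [h1]
  refine Nat.add_le_add ?_ le_rfl
  calc ∑ i ∈ Finset.range (M ^ n), known (boxPar M ℓ μ B J S H) (visW ℓ) (hidW X Y ℓ) R
        (0 * (boxPar M ℓ μ B J S H).M ^ n + i) 0 0
      ≤ ∑ _i ∈ Finset.range (M ^ n), ℓ := Finset.sum_le_sum fun i _ =>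
        known_le X Y R le_rfl (Nat.zero_le _)
    _ = M ^ n * ℓ := by rw [Finset.sum_const, Finset.card_range, smul_eq_mul]

/-- **RunOk.** -/
theorem m1_runOk {m k cd : ℕ} {F : List ℕ} {n S μ ℓ : ℕ} (hF : Fit m k F n S μ ℓ)
    (X Y : ℕ → ℕ) {mc b Q R : ℕ} (hmc : mc * μ = ℓ) (hℓb : ℓ < 2 ^ b) (hFb : ∀ v ∈ F, v < 2 ^ b)
    (hout : (m1Strat m k cd).fin
      (H817.adAns X Y ℓ μ mc (4 * (2 ^ (20 * m)) ^ n)) Q F ≤ R) :
    (m1Strat m k cd).RunOk (H817.adAns X Y ℓ μ mc (4 * (2 ^ (20 * m)) ^ n)) Q F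
      (m1Sz F.length ((2 ^ (20 * m)) ^ n) mc b Q) (4 * ((2 ^ (20 * m)) ^ n) ^ 2) R := by
  have hdiv : ℓ / μ = mc := by rw [← hmc]; exact Nat.mul_div_cancel _ hF.μ0
  have h := m1_sizes (cd := cd) (hid := hidW X Y ℓ) (Q := Q) hF
    (ans := H817.adAns X Y ℓ μ mc (4 * (2 ^ (20 * m)) ^ n)) (b := b)
    (fun i _ a ha => adAns_eq X Y hF.μ0 hmc (by have := K_pos' m n; omega))
    (fun q => by rw [H817.length_adAns, hdiv])
    (fun q v hv => (H817.adAns_le X Y hmc.le hv).trans_lt hℓb) hFb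
  rw [hdiv] at h
  exact ⟨h.1, h.2.1, h.2.2, hout⟩

end Vale.Agent.P315.Q.M1
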