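import Vale.Agent.P315.Q.M1Link
import Vale.Agent.P315.Q.Loop
import Vale.Agent.P315.H207.Fin
import Vale.Agent.P315.H295.TabSize
import Vale.Agent.P315.H804.Out
import Vale.Agent.P315.RAM.Main

/-!
P315, row G-STRAT: the strategy of the additive theorem as a `RAM.Strat`, and the sizes of its
states.
-/

set_option autoImplicit false

namespace Vale.Agent.P315.Q.M1

open Vale.Agent.Lib.PolyTime Vale.Agent.P315.C Vale.Agent.P315.H155 Vale.Agent.P315.H804
  Vale.Agent.P315.RAM Vale.Agent.P315.H207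

/-- The next query plus one. -/
def m1next (m k cd : ℕ) : List ℕ × Kn → ℕ := nextOf (famStrat m k cd)

/-- Length of the answers. -/
def m1len (p : List ℕ × ℕ) : ℕ := fℓ p.1 / fμ p.1 * (fℓ p.1 / fμ p.1 + 1)

/-- Base of the codes. -/
def m1D (m : ℕ) (F : List ℕ) : ℕ := 4 * fK (2 ^ (20 * m)) F

/-- End of the root. -/
def m1end (m : ℕ) (F : List ℕ) : ℕ :=
  F.getD 0 0 + (fB (2 ^ (20 * m)) F - F.getD 0 0 - F.getD 1 0) / 2

/-- The output. -/
def m1out (m : ℕ) (p : List ℕ × Kn) : ℕ :=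
  endMin (min (fB (2 ^ (20 * m)) p.1 / fμ p.1 + 1) p.1.length) (fμ p.1) 2
    (fcv (2 ^ (20 * m)) p.1 p.2 (fK (2 ^ (20 * m)) p.1) 0 0) (m1end m p.1) + 1

theorem pt_m1next (m k cd : ℕ) : PT ∅ (m1next m k cd) := pt_nextOf _

theorem pt_m1len : PT ∅ m1len := by
  unfold m1len
  have h : PT ∅ (fun p : List ℕ × ℕ => fℓ p.1 / fμ p.1) :=
    ((PT_fℓ PT.fst').div (PT_fμ PT.fst'))
  exact h.mul (h.add (PT.const 1))

theorem pt_m1D (m : ℕ) : PT ∅ (m1D m) := by
  unfold m1D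
  exact (PT.const 4).mul (PT_fK _ PT.id)

theorem pt_m1end (m : ℕ) : PT ∅ (m1end m) := by
  unfold m1end; fun_prop

theorem pt_m1out (m : ℕ) : PT ∅ (m1out m) := by
  unfold m1out
  refine PT.add (pt_endMin (n := fun p : List ℕ × Kn => min (fB (2 ^ (20 * m)) p.1 / fμ p.1 + 1)
    p.1.length) (μ := fun p => fμ p.1) (sh := fun _ => 2) (v := fun p => m1end m p.1)
    (F := fun p => fcv (2 ^ (20 * m)) p.1 p.2 (fK (2 ^ (20 * m)) p.1) 0 0)
    (by fun_prop) (PBd_min_right (by fun_prop)) (by fun_prop) (by fun_prop) ?_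
    ((pt_m1end m).comp PT.fst')) (PT.const 1)
  exact PT_fcv _ PT.fst' PT.snd' (PT_fK _ PT.fst') (PT.const 0) (PT.const 0)

/-- The strategy. -/
def m1Strat (m k cd : ℕ) : RAM.Strat Q.St where
  start := startS (m1next m k cd)
  ask := askS
  upd := updS m1len (m1D m) (m1next m k cd)
  out := outS (m1out m)
  pt_start := pt_startS (pt_m1next m k cd)
  pt_ask := pt_askS
  pt_upd := pt_updS pt_m1len (pt_m1D m) (pt_m1next m k cd)
  pt_out := pt_outS (pt_m1out m)

end Vale.Agent.P315.Q.M1
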