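import Vale.Agent.P315.H155.Auto

/-! P315 (helper514): `Nat.sqrt`, `Nat.pair`, `Nat.unpair` in polynomial time. -/

set_option autoImplicit false

namespace Vale.Agent.P315.Q

open Vale.Agent.Lib.PolyTime

/-- One binary digit of the square root. -/
def sqStep (n k s : ℕ) : ℕ := if (s + 2 ^ k) * (s + 2 ^ k) ≤ n then s + 2 ^ k else s

/-- Square root by binary digits, the exponents clamped by `L`. -/
def sqFold (n L : ℕ) (l : List ℕ) : ℕ := l.foldl (fun s k => sqStep n (min k L) s) 0

theorem sqFold_sq_le (n L : ℕ) (l : List ℕ) : sqFold n L l * sqFold n L l ≤ n := by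
  unfold sqFold
  induction l using List.reverseRecOn with
  | nil => simp
  | append_singleton l k ih =>
    rw [List.foldl_append]
    show sqStep n (min k L) _ * sqStep n (min k L) _ ≤ n
    unfold sqStep
    split_ifs with h
    · exact h
    · exact ih

theorem sqFold_le (n L : ℕ) (l : List ℕ) : sqFold n L l ≤ n := by
  have h := sqFold_sq_le n L l
  rcases Nat.eq_zero_or_pos (sqFold n L l) with h0 | h0
  · omega
  · exact (Nat.le_mul_of_pos_left _ h0).trans h

theorem sqFold_lt (n : ℕ) (i : ℕ) (hi : i ≤ Nat.size n) :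
    n < (sqFold n (Nat.size n) ((List.range (Nat.size n)).reverse.take i) +
      2 ^ (Nat.size n - i)) * (sqFold n (Nat.size n)
        ((List.range (Nat.size n)).reverse.take i) + 2 ^ (Nat.size n - i)) := by
  induction i with
  | zero =>
    have h1 : n < 2 ^ Nat.size n := Nat.lt_size_self n
    have h2 : 0 < 2 ^ Nat.size n := by positivity
    have h3 : sqFold n (Nat.size n) ((List.range (Nat.size n)).reverse.take 0) = 0 := rfl
    rw [h3, Nat.sub_zero, zero_add]
    exact lt_of_lt_of_le h1 (Nat.le_mul_of_pos_left _ h2)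
  | succ i ih =>
    have ih' := ih (by omega)
    set L := Nat.size n with hL
    have hlen : (List.range L).reverse.length = L := by simp
    have hget : (List.range L).reverse[i]'(by rw [hlen]; omega) = L - (i + 1) := by
      rw [List.getElem_reverse, List.getElem_range]
      simp only [List.length_range]
      omega
    have h1 : (List.range L).reverse.take (i + 1) =
        (List.range L).reverse.take i ++ [L - (i + 1)] := by
      rw [List.take_succ_eq_append_getElem (by rw [hlen]; omega), hget]
    have h2 : sqFold n L ((List.range L).reverse.take (i + 1)) =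
        sqStep n (L - (i + 1)) (sqFold n L ((List.range L).reverse.take i)) := by
      rw [h1]
      unfold sqFold
      rw [List.foldl_append]
      show sqStep n (min (L - (i + 1)) L) _ = _
      rw [min_eq_left (by omega)]
    rw [h2]
    set s := sqFold n L ((List.range L).reverse.take i) with hs
    have h3 : 2 ^ (L - i) = 2 ^ (L - (i + 1)) + 2 ^ (L - (i + 1)) := by
      rw [← two_mul, ← pow_succ']
      congr 1
      omega
    unfold sqStep
    split_ifs with h
    · rw [add_assoc, ← h3]; exact ih'
    · omega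

/-- The square root. -/
def sqrtB (n : ℕ) : ℕ := sqFold n (Nat.size n) (List.range (Nat.size n)).reverse

theorem sqrtB_eq (n : ℕ) : sqrtB n = Nat.sqrt n := by
  have h1 := sqFold_sq_le n (Nat.size n) (List.range (Nat.size n)).reverse
  have h2 := sqFold_lt n (Nat.size n) le_rfl
  rw [List.take_of_length_le (by simp), Nat.sub_self, pow_zero] at h2
  exact Nat.eq_sqrt.mpr ⟨h1, h2⟩

theorem esize_eq_size (n : ℕ) : esize n = Nat.size n := (Nat.size_eq_bits_len n)

theorem PT_sqrt {α : Type*} [Enc α] {x : α → ℕ} (hx : PT ∅ x) :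
    PT ∅ (fun a => Nat.sqrt (x a)) := by
  have hs : PT ∅ (fun a => Nat.size (x a)) := PT.natSize hx
  have hsb : PBd (fun a => Nat.size (x a)) := hx.pbd.mono fun a => (esize_eq_size (x a)).ge
  have h : PT ∅ (fun a => sqrtB (x a)) := by
    refine PT.foldl (f := fun a s k => sqStep (x a) (min k (Nat.size (x a))) s)
      (init := fun _ => 0) (PT.range hs hsb).reverse (PT.const 0) ?_ hx.pbd fun a i => ?_
    · have h2 : PT ∅ (fun q : α × ℕ × ℕ => 2 ^ (min q.2.2 (Nat.size (x q.1)))) := by
        refine PT.pow (PT.const 2) ?_ ?_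
        · have h3 : PT ∅ (fun q : α × ℕ × ℕ => Nat.size (x q.1)) := hs.comp PT.fst'
          exact (PT.ite (p := fun q : α × ℕ × ℕ => q.2.2 ≤ Nat.size (x q.1))
            (PT.le PT.snd'.snd h3) PT.snd'.snd h3).congr fun q => by
              by_cases h4 : q.2.2 ≤ Nat.size (x q.1)
              · simp [h4]
              · simp [h4, min_eq_right (le_of_not_ge h4)]
        · exact (hsb.comp (A := ∅) PT.fst').mono fun q => min_le_right _ _
      have h3 : PT ∅ (fun q : α × ℕ × ℕ => q.2.1 + 2 ^ (min q.2.2 (Nat.size (x q.1)))) :=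
        PT.snd'.fst.add h2
      exact PT.ite (p := fun q : α × ℕ × ℕ => (q.2.1 + 2 ^ (min q.2.2 (Nat.size (x q.1)))) *
        (q.2.1 + 2 ^ (min q.2.2 (Nat.size (x q.1)))) ≤ x q.1)
        (PT.le (h3.mul h3) (hx.comp PT.fst')) h3 PT.snd'.fst
    · exact esize_nat_mono (sqFold_le (x a) (Nat.size (x a))
        ((List.range (Nat.size (x a))).reverse.take i))
  exact h.congr fun a => sqrtB_eq (x a)

theorem PT_natPair {α : Type*} [Enc α] {x y : α → ℕ} (hx : PT ∅ x) (hy : PT ∅ y) :
    PT ∅ (fun a => Nat.pair (x a) (y a)) :=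
  PT.ite (p := fun a => x a < y a) (PT.lt hx hy) ((hy.mul hy).add hx)
    (((hx.mul hx).add hx).add hy)

theorem PT_natUnpair {α : Type*} [Enc α] {x : α → ℕ} (hx : PT ∅ x) :
    PT ∅ (fun a => Nat.unpair (x a)) := by
  have hs := PT_sqrt hx
  have h1 : PT ∅ (fun a => x a - Nat.sqrt (x a) * Nat.sqrt (x a)) := hx.sub (hs.mul hs)
  exact PT.ite (p := fun a => x a - Nat.sqrt (x a) * Nat.sqrt (x a) < Nat.sqrt (x a))
    (PT.lt h1 hs) (h1.pair hs) (hs.pair (h1.sub hs))

attribute [fun_prop] PT_sqrt PT_natPair PT_natUnpair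

theorem unpair_fst_le (n : ℕ) : (Nat.unpair n).1 ≤ n := Nat.unpair_left_le n
theorem unpair_snd_le (n : ℕ) : (Nat.unpair n).2 ≤ n := Nat.unpair_right_le n

end Vale.Agent.P315.Q
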