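import Vale.Agent.P315.Q.Known
import Vale.Agent.P315.H207.RdL
import Vale.Agent.P315.H155.Auto

/-!
P315, row G-STRAT: the tables of the strategy as pure functions of polynomial time.

`TStrat θ` = all data of the algorithm as functions of a context `t : θ` (the feed). For every
region `(j, i, a)` and every natural index `b` the table holds the list of the cells read in the
evaluation of the region if the answers are those in `T` (missing answers are empty): the lists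
`RN` of `H207/RdL.lean`. All ranges and exponents are clamped by the clock `U t`.
-/

set_option autoImplicit false

namespace Vale.Agent.P315.Q

open Vale.Agent.Lib.PolyTime Vale.Agent.P315.H155

/-- An entry: list of cells. -/
abbrev Ev := List (ℕ × ℕ)

/-- Tables: level, slab, label, index. -/
abbrev Tabs := List (List (List (List Ev)))

/-- Clamped range. -/
def rg (U x : ℕ) : List ℕ := List.range (min x U)

/-- Clamped power. -/
def pw (U x e : ℕ) : ℕ := x ^ min e U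

/-- Membership of a cell in a list. -/
def memB (L : List (ℕ × ℕ)) (c : ℕ × ℕ) : Bool := L.any fun d => decide (d.1 = c.1 ∧ d.2 = c.2)

/-- Is the cell known? -/
def knB (T : KT) (c : ℕ × ℕ) : Bool := T.any fun e => decide (e.1.1 = c.1 ∧ e.1.2 = c.2)

/-- Code plus one of the first unknown cell of the list, `0` if there is none. -/
def miss (Dc : ℕ) (T : KT) (L : List (ℕ × ℕ)) : ℕ :=
  (L.find? fun c => !(knB T c)).elim 0 fun c => c.1 * Dc + c.2 + 1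

/-- Known answer of a cell, `[]` if it is unknown. -/
def look (T : KT) (c : ℕ × ℕ) : List ℕ :=
  (T.find? fun e => decide (e.1.1 = c.1 ∧ e.1.2 = c.2)).elim [] fun e => e.2

/-- The cells of `L` with their answers. -/
def fill (T : KT) (L : List (ℕ × ℕ)) : KT := L.map fun c => (c, look T c)

/-- Keep the first occurrences. -/
def nubL (L : List (ℕ × ℕ)) : List (ℕ × ℕ) :=
  ((List.range L.length).filter fun i => !(memB (L.take i) (L.getD i (0, 0)))).map fun i =>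
    L.getD i (0, 0)

/-- Look an entry up. -/
def lk (tabs : Tabs) (j i a b : ℕ) : Ev :=
  (((tabs.getD j []).getD i []).getD a []).getD b []

/-- The data of the algorithm as functions of the context. -/
structure TStrat (θ : Type) [Enc θ] where
  /-- clock -/
  U : θ → ℕ
  /-- number of levels -/
  n : θ → ℕ
  M : θ → ℕ
  μ : θ → ℕ
  H : θ → ℕ
  S : θ → ℕ
  /-- root index (natural) -/
  Nr : θ → ℕ
  /-- root label -/
  a0 : θ → ℕ
  /-- all labels are below `Lab` -/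
  Lab : θ → ℕ
  /-- base of the codes of the cells -/
  Dc : θ → ℕ
  /-- size budget of the tables -/
  BB : θ → ℕ
  kids : θ → ℕ → ℕ → List ℕ
  /-- labels of the units: level, scale, label, unit row -/
  labs : θ → ℕ → ℕ → ℕ → ℕ → List ℕ
  pen : θ → ℕ → ℕ → ℕ → ℕ → ℕ
  xi : θ → ℕ → ℕ → ℕ
  coin : θ → ℕ → ℕ → ℕ → ℕ
  cnt : θ → ℕ → ℕ
  /-- costs from the mesh position `u` through `m` rows starting in row `i * m` -/
  cvF : θ → KT → ℕ → ℕ → ℕ → List ℕ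
  lane : θ → (s q κ j a : ℕ) → (D : ℕ → ℕ → ℕ → ℕ → ℕ → ℕ) → (coin : ℕ → ℕ) → ℕ → ℕ × ℕ × ℕ
  ptU : PT ∅ U
  pbU : PBd U
  ptn : PT ∅ n
  pbn : PBd n
  ptM : PT ∅ M
  ptμ : PT ∅ μ
  ptH : PT ∅ H
  ptS : PT ∅ S
  ptNr : PT ∅ Nr
  pta0 : PT ∅ a0
  ptLab : PT ∅ Lab
  ptDc : PT ∅ Dc
  ptBB : PT ∅ BB
  pbBB : PBd BB
  ptkids : PT ∅ (fun p : θ × ℕ × ℕ => kids p.1 p.2.1 p.2.2)
  ptlabs : PT ∅ (fun p : θ × ℕ × ℕ × ℕ × ℕ => labs p.1 p.2.1 p.2.2.1 p.2.2.2.1 p.2.2.2.2)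
  ptpen : PT ∅ (fun p : θ × ℕ × ℕ × ℕ × ℕ => pen p.1 p.2.1 p.2.2.1 p.2.2.2.1 p.2.2.2.2)
  ptxi : PT ∅ (fun p : θ × ℕ × ℕ => xi p.1 p.2.1 p.2.2)
  ptcoin : PT ∅ (fun p : θ × ℕ × ℕ × ℕ => coin p.1 p.2.1 p.2.2.1 p.2.2.2)
  ptcnt : PT ∅ (fun p : θ × ℕ => cnt p.1 p.2)
  ptcvF : PT ∅ (fun p : θ × KT × ℕ × ℕ × ℕ => cvF p.1 p.2.1 p.2.2.1 p.2.2.2.1 p.2.2.2.2)
  ptlane : ∀ {α : Type} [Enc α] {x : α → θ} {s q κ j a m : α → ℕ}
    {D : α → ℕ → ℕ → ℕ → ℕ → ℕ → ℕ} {c : α → ℕ → ℕ}, PT ∅ x → PT ∅ s → PT ∅ q → PT ∅ κ →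
    PT ∅ j → PT ∅ a → PT ∅ m →
    PT ∅ (fun p : α × ℕ × ℕ × ℕ × ℕ × ℕ =>
      D p.1 p.2.1 p.2.2.1 p.2.2.2.1 p.2.2.2.2.1 p.2.2.2.2.2) →
    PT ∅ (fun p : α × ℕ => c p.1 p.2) →
    PT ∅ (fun p => lane (x p) (s p) (q p) (κ p) (j p) (a p) (D p) (c p) (m p))

namespace TStrat

variable {θ : Type} [Enc θ] (St : TStrat θ)

/-- `2 ^ s`. -/
def p2 (t : θ) (s : ℕ) : ℕ := pw (St.U t) 2 s

/-- `M ^ e`. -/
def mp (t : θ) (e : ℕ) : ℕ := pw (St.U t) (St.M t) e

/-- Sum of the jitters. -/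
def XiL (t : θ) (j e m : ℕ) : ℕ :=
  ((rg (St.U t) e).map fun x => St.xi t (j - x) (m / St.mp t (e - 1 - x) % St.M t)).sum

/-- Natural index of a unit, for the round `k0 - 1`. -/
def uix (t : θ) (j a s k0 m x : ℕ) : ℕ :=
  k0 - (St.XiL t j (St.p2 t s) m + St.pen t j (St.p2 t s) a x)

/-- Entry of a unit. -/
def uent (t : θ) (tabs : Tabs) (j i a s k0 m x : ℕ) : Ev :=
  lk tabs (j - St.p2 t s) (i * St.mp t (St.p2 t s) + m) x (St.uix t j a s k0 m x)

/-- The scales of the machines of a region of level `j`. -/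
def scales (t : θ) (j : ℕ) : List ℕ := (rg (St.U t) (St.S t)).filter fun s =>
  decide (j % St.p2 t s = 0)

/-- The lists of the children. -/
def base (t : θ) (tabs : Tabs) (j i a b : ℕ) : Ev :=
  (rg (St.U t) (St.M t)).flatMap fun m => (St.kids t j a).flatMap fun a' =>
    lk tabs (j - 1) (i * St.M t + m) a' (b - (St.xi t j m + St.pen t j 1 a a'))

/-- The lists of the units in the rounds `κ < b`. -/
def seen (t : θ) (tabs : Tabs) (j i a b : ℕ) : Ev :=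
  (St.scales t j).flatMap fun s => (rg (St.U t) b).flatMap fun κ =>
    (rg (St.U t) (St.mp t (St.p2 t s))).flatMap fun m =>
      (St.labs t j s a m).flatMap fun x => St.uent t tabs j i a s (κ + 1) m x

/-- The history, from the known cells. -/
def Dv (t : θ) (T : KT) (tabs : Tabs) (j i a s κ m x u v : ℕ) : ℕ :=
  (St.cvF t (fill T (St.uent t tabs j i a s (κ + 1) m x)) (St.mp t (j - St.p2 t s))
    (i * St.mp t (St.p2 t s) + m) (u / St.μ t)).getD (v / St.μ t) 0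

/-- The label of machine `q` in unit row `m`. -/
def laneLab (t : θ) (T : KT) (tabs : Tabs) (j i a s q κ m : ℕ) : ℕ :=
  (St.lane t s q κ j a (St.Dv t T tabs j i a s) (St.coin t j s) m).1

/-- The lists of the units on the lanes. -/
def lns (t : θ) (T : KT) (tabs : Tabs) (j i a b : ℕ) : Ev :=
  (St.scales t j).flatMap fun s => (rg (St.U t) (St.cnt t s)).flatMap fun q =>
    (rg (St.U t) b).flatMap fun κ => (rg (St.U t) (St.mp t (St.p2 t s))).flatMap fun m =>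
      St.uent t tabs j i a s (κ + 1 + St.p2 t s) m (St.laneLab t T tabs j i a s q κ m)

/-- The entry of a region of level `j ≥ 1`. -/
def entry (t : θ) (T : KT) (tabs : Tabs) (j i a b : ℕ) : Ev :=
  nubL (St.base t tabs j i a b ++ (St.seen t tabs j i a b ++ St.lns t T tabs j i a b))

/-- Entries of level `0`. -/
def entry0 (t : θ) (i a b : ℕ) : Ev := if b ≤ St.H t then [] else [(i, a)]

/-- Table of the level `j ≥ 1`. -/
def levelTab (t : θ) (T : KT) (tabs : Tabs) (j : ℕ) : List (List (List Ev)) :=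
  (rg (St.U t) (St.mp t (St.n t - j))).map fun i => (rg (St.U t) (St.Lab t)).map fun a =>
    (rg (St.U t) (St.Nr t + St.n t + 1)).map fun b => St.entry t T tabs j i a b

/-- Table of the level `0`. -/
def level0 (t : θ) : List (List (List Ev)) :=
  (rg (St.U t) (St.mp t (St.n t))).map fun i => (rg (St.U t) (St.Lab t)).map fun a =>
    (rg (St.U t) (St.Nr t + St.n t + 1)).map fun b => St.entry0 t i a b

/-- The tables of the levels `0, …, n`. -/
def tables (t : θ) (T : KT) : Tabs :=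
  natRecC (St.BB t) (St.n t) (fun j tabs => tabs ++ [St.levelTab t T tabs (j + 1)])
    [St.level0 t]

/-- The list of the root. -/
def root (t : θ) (T : KT) : Ev := lk (St.tables t T) (St.n t) 0 (St.a0 t) (St.Nr t)

/-- Code of the next cell plus one; `0` if all cells are known. -/
def next (t : θ) (T : KT) : ℕ := miss (St.Dc t) T (St.root t T)

end TStrat

/-! ### Polynomial time -/

section PT

variable {α : Type} [Enc α]

@[fun_prop]
theorem PT_rg {U x : α → ℕ} (hU : PT ∅ U) (hUb : PBd U) (hx : PT ∅ x) :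
    PT ∅ (fun a => rg (U a) (x a)) := by
  unfold rg
  exact PT.range (PT.min hx hU) (PBd_min_right hUb)

@[fun_prop]
theorem PT_pw {U x e : α → ℕ} (hU : PT ∅ U) (hUb : PBd U) (hx : PT ∅ x) (he : PT ∅ e) :
    PT ∅ (fun a => pw (U a) (x a) (e a)) := by
  unfold pw
  exact PT.pow hx (PT.min he hU) (PBd_min_right hUb)

@[fun_prop]
theorem PT_memB {L : α → List (ℕ × ℕ)} {c : α → ℕ × ℕ} (hL : PT ∅ L) (hc : PT ∅ c) :
    PT ∅ (fun a => memB (L a) (c a)) := by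
  unfold memB; fun_prop

@[fun_prop]
theorem PT_knB {T : α → KT} {c : α → ℕ × ℕ} (hT : PT ∅ T) (hc : PT ∅ c) :
    PT ∅ (fun a => knB (T a) (c a)) := by
  unfold knB; fun_prop

@[fun_prop]
theorem PT_miss {D : α → ℕ} {T : α → KT} {L : α → List (ℕ × ℕ)} (hD : PT ∅ D) (hT : PT ∅ T)
    (hL : PT ∅ L) : PT ∅ (fun a => miss (D a) (T a) (L a)) := by
  unfold miss; fun_prop

@[fun_prop]
theorem PT_look {T : α → KT} {c : α → ℕ × ℕ} (hT : PT ∅ T) (hc : PT ∅ c) :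
    PT ∅ (fun a => look (T a) (c a)) := by
  unfold look; fun_prop

@[fun_prop]
theorem PT_fill {T : α → KT} {L : α → List (ℕ × ℕ)} (hT : PT ∅ T) (hL : PT ∅ L) :
    PT ∅ (fun a => fill (T a) (L a)) := by
  unfold fill; fun_prop

@[fun_prop]
theorem PT_nubL {L : α → List (ℕ × ℕ)} (hL : PT ∅ L) : PT ∅ (fun a => nubL (L a)) := by
  unfold nubL; fun_prop

@[fun_prop]
theorem PT_lk {tabs : α → Tabs} {j i a b : α → ℕ} (ht : PT ∅ tabs) (hj : PT ∅ j) (hi : PT ∅ i)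
    (ha : PT ∅ a) (hb : PT ∅ b) : PT ∅ (fun x => lk (tabs x) (j x) (i x) (a x) (b x)) := by
  unfold lk; fun_prop

end PT

namespace TStrat

variable {θ : Type} [Enc θ] (St : TStrat θ) {α : Type} [Enc α] {x : α → θ}

@[fun_prop] theorem PT_U (hx : PT ∅ x) : PT ∅ (fun p => St.U (x p)) := St.ptU.comp hx
@[fun_prop] theorem PBd_U (hx : PT ∅ x) : PBd (fun p => St.U (x p)) := St.pbU.comp hx
@[fun_prop] theorem PT_n (hx : PT ∅ x) : PT ∅ (fun p => St.n (x p)) := St.ptn.comp hx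
@[fun_prop] theorem PBd_n (hx : PT ∅ x) : PBd (fun p => St.n (x p)) := St.pbn.comp hx
@[fun_prop] theorem PT_M (hx : PT ∅ x) : PT ∅ (fun p => St.M (x p)) := St.ptM.comp hx
@[fun_prop] theorem PT_μ (hx : PT ∅ x) : PT ∅ (fun p => St.μ (x p)) := St.ptμ.comp hx
@[fun_prop] theorem PT_H (hx : PT ∅ x) : PT ∅ (fun p => St.H (x p)) := St.ptH.comp hx
@[fun_prop] theorem PT_S (hx : PT ∅ x) : PT ∅ (fun p => St.S (x p)) := St.ptS.comp hx
@[fun_prop] theorem PT_Nr (hx : PT ∅ x) : PT ∅ (fun p => St.Nr (x p)) := St.ptNr.comp hx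
@[fun_prop] theorem PT_a0 (hx : PT ∅ x) : PT ∅ (fun p => St.a0 (x p)) := St.pta0.comp hx
@[fun_prop] theorem PT_Lab (hx : PT ∅ x) : PT ∅ (fun p => St.Lab (x p)) := St.ptLab.comp hx
@[fun_prop] theorem PT_Dc (hx : PT ∅ x) : PT ∅ (fun p => St.Dc (x p)) := St.ptDc.comp hx
@[fun_prop] theorem PT_BB (hx : PT ∅ x) : PT ∅ (fun p => St.BB (x p)) := St.ptBB.comp hx
@[fun_prop] theorem PBd_BB (hx : PT ∅ x) : PBd (fun p => St.BB (x p)) := St.pbBB.comp hx

@[fun_prop]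
theorem PT_kids {j a : α → ℕ} (hx : PT ∅ x) (hj : PT ∅ j) (ha : PT ∅ a) :
    PT ∅ (fun p => St.kids (x p) (j p) (a p)) := St.ptkids.comp (hx.pair (hj.pair ha))

@[fun_prop]
theorem PT_labs {j s a m : α → ℕ} (hx : PT ∅ x) (hj : PT ∅ j) (hs : PT ∅ s) (ha : PT ∅ a)
    (hm : PT ∅ m) : PT ∅ (fun p => St.labs (x p) (j p) (s p) (a p) (m p)) :=
  St.ptlabs.comp (hx.pair (hj.pair (hs.pair (ha.pair hm))))

@[fun_prop]
theorem PT_pen {j e a a' : α → ℕ} (hx : PT ∅ x) (hj : PT ∅ j) (he : PT ∅ e) (ha : PT ∅ a)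
    (ha' : PT ∅ a') : PT ∅ (fun p => St.pen (x p) (j p) (e p) (a p) (a' p)) :=
  St.ptpen.comp (hx.pair (hj.pair (he.pair (ha.pair ha'))))

@[fun_prop]
theorem PT_xi {j m : α → ℕ} (hx : PT ∅ x) (hj : PT ∅ j) (hm : PT ∅ m) :
    PT ∅ (fun p => St.xi (x p) (j p) (m p)) := St.ptxi.comp (hx.pair (hj.pair hm))

@[fun_prop]
theorem PT_coin {j s m : α → ℕ} (hx : PT ∅ x) (hj : PT ∅ j) (hs : PT ∅ s) (hm : PT ∅ m) :
    PT ∅ (fun p => St.coin (x p) (j p) (s p) (m p)) :=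
  St.ptcoin.comp (hx.pair (hj.pair (hs.pair hm)))

@[fun_prop]
theorem PT_cnt {s : α → ℕ} (hx : PT ∅ x) (hs : PT ∅ s) :
    PT ∅ (fun p => St.cnt (x p) (s p)) := St.ptcnt.comp (hx.pair hs)

@[fun_prop]
theorem PT_cvF {T : α → KT} {m i u : α → ℕ} (hx : PT ∅ x) (hT : PT ∅ T) (hm : PT ∅ m)
    (hi : PT ∅ i) (hu : PT ∅ u) : PT ∅ (fun p => St.cvF (x p) (T p) (m p) (i p) (u p)) :=
  St.ptcvF.comp (hx.pair (hT.pair (hm.pair (hi.pair hu))))

@[fun_prop]
theorem PT_p2 {s : α → ℕ} (hx : PT ∅ x) (hs : PT ∅ s) : PT ∅ (fun p => St.p2 (x p) (s p)) := by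
  unfold p2; fun_prop

@[fun_prop]
theorem PT_mp {e : α → ℕ} (hx : PT ∅ x) (he : PT ∅ e) : PT ∅ (fun p => St.mp (x p) (e p)) := by
  unfold mp; fun_prop

@[fun_prop]
theorem PT_XiL {j e m : α → ℕ} (hx : PT ∅ x) (hj : PT ∅ j) (he : PT ∅ e) (hm : PT ∅ m) :
    PT ∅ (fun p => St.XiL (x p) (j p) (e p) (m p)) := by
  unfold XiL; fun_prop

@[fun_prop]
theorem PT_uix {j a s k m y : α → ℕ} (hx : PT ∅ x) (hj : PT ∅ j) (ha : PT ∅ a) (hs : PT ∅ s)
    (hk : PT ∅ k) (hm : PT ∅ m) (hy : PT ∅ y) :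
    PT ∅ (fun p => St.uix (x p) (j p) (a p) (s p) (k p) (m p) (y p)) := by
  unfold uix; fun_prop

@[fun_prop]
theorem PT_uent {tabs : α → Tabs} {j i a s k m y : α → ℕ} (hx : PT ∅ x) (ht : PT ∅ tabs)
    (hj : PT ∅ j) (hi : PT ∅ i) (ha : PT ∅ a) (hs : PT ∅ s)
    (hk : PT ∅ k) (hm : PT ∅ m) (hy : PT ∅ y) :
    PT ∅ (fun p => St.uent (x p) (tabs p) (j p) (i p) (a p) (s p) (k p) (m p) (y p)) := by
  unfold uent; fun_prop

@[fun_prop]
theorem PT_scales {j : α → ℕ} (hx : PT ∅ x) (hj : PT ∅ j) :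
    PT ∅ (fun p => St.scales (x p) (j p)) := by
  unfold scales; fun_prop

@[fun_prop]
theorem PT_base {tabs : α → Tabs} {j i a b : α → ℕ} (hx : PT ∅ x) (ht : PT ∅ tabs)
    (hj : PT ∅ j) (hi : PT ∅ i) (ha : PT ∅ a) (hb : PT ∅ b) :
    PT ∅ (fun p => St.base (x p) (tabs p) (j p) (i p) (a p) (b p)) := by
  unfold base; fun_prop

@[fun_prop]
theorem PT_seen {tabs : α → Tabs} {j i a b : α → ℕ} (hx : PT ∅ x) (ht : PT ∅ tabs)
    (hj : PT ∅ j) (hi : PT ∅ i) (ha : PT ∅ a) (hb : PT ∅ b) :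
    PT ∅ (fun p => St.seen (x p) (tabs p) (j p) (i p) (a p) (b p)) := by
  unfold seen; fun_prop

@[fun_prop]
theorem PT_Dv {T : α → KT} {tabs : α → Tabs} {j i a s κ m y u v : α → ℕ} (hx : PT ∅ x)
    (hT : PT ∅ T) (ht : PT ∅ tabs) (hj : PT ∅ j) (hi : PT ∅ i) (ha : PT ∅ a) (hs : PT ∅ s)
    (hκ : PT ∅ κ) (hm : PT ∅ m) (hy : PT ∅ y) (hu : PT ∅ u) (hv : PT ∅ v) :
    PT ∅ (fun p => St.Dv (x p) (T p) (tabs p) (j p) (i p) (a p) (s p) (κ p) (m p) (y p) (u p)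
      (v p)) := by
  unfold Dv; fun_prop

@[fun_prop]
theorem PT_laneLab {T : α → KT} {tabs : α → Tabs} {j i a s q κ m : α → ℕ} (hx : PT ∅ x)
    (hT : PT ∅ T) (ht : PT ∅ tabs) (hj : PT ∅ j) (hi : PT ∅ i) (ha : PT ∅ a) (hs : PT ∅ s)
    (hq : PT ∅ q) (hκ : PT ∅ κ) (hm : PT ∅ m) :
    PT ∅ (fun p => St.laneLab (x p) (T p) (tabs p) (j p) (i p) (a p) (s p) (q p) (κ p)
      (m p)) := by
  unfold laneLab
  have hl : PT ∅ (fun p => St.lane (x p) (s p) (q p) (κ p) (j p) (a p)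
      (St.Dv (x p) (T p) (tabs p) (j p) (i p) (a p) (s p)) (St.coin (x p) (j p) (s p)) (m p)) :=
    St.ptlane (D := fun p => St.Dv (x p) (T p) (tabs p) (j p) (i p) (a p) (s p))
      (c := fun p => St.coin (x p) (j p) (s p)) hx hs hq hκ hj ha hm (by fun_prop) (by fun_prop)
  exact hl.fst

@[fun_prop]
theorem PT_lns {T : α → KT} {tabs : α → Tabs} {j i a b : α → ℕ} (hx : PT ∅ x)
    (hT : PT ∅ T) (ht : PT ∅ tabs) (hj : PT ∅ j) (hi : PT ∅ i) (ha : PT ∅ a) (hb : PT ∅ b) :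
    PT ∅ (fun p => St.lns (x p) (T p) (tabs p) (j p) (i p) (a p) (b p)) := by
  unfold lns; fun_prop

@[fun_prop]
theorem PT_entry {T : α → KT} {tabs : α → Tabs} {j i a b : α → ℕ} (hx : PT ∅ x)
    (hT : PT ∅ T) (ht : PT ∅ tabs) (hj : PT ∅ j) (hi : PT ∅ i) (ha : PT ∅ a) (hb : PT ∅ b) :
    PT ∅ (fun p => St.entry (x p) (T p) (tabs p) (j p) (i p) (a p) (b p)) := by
  unfold entry; fun_prop

@[fun_prop]
theorem PT_entry0 {i a b : α → ℕ} (hx : PT ∅ x) (hi : PT ∅ i) (ha : PT ∅ a) (hb : PT ∅ b) :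
    PT ∅ (fun p => St.entry0 (x p) (i p) (a p) (b p)) := by
  unfold entry0; fun_prop

@[fun_prop]
theorem PT_levelTab {T : α → KT} {tabs : α → Tabs} {j : α → ℕ} (hx : PT ∅ x)
    (hT : PT ∅ T) (ht : PT ∅ tabs) (hj : PT ∅ j) :
    PT ∅ (fun p => St.levelTab (x p) (T p) (tabs p) (j p)) := by
  unfold levelTab; fun_prop

@[fun_prop]
theorem PT_level0 (hx : PT ∅ x) : PT ∅ (fun p => St.level0 (x p)) := by
  unfold level0; fun_prop

@[fun_prop]
theorem PT_tables {T : α → KT} (hx : PT ∅ x) (hT : PT ∅ T) :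
    PT ∅ (fun p => St.tables (x p) (T p)) := by
  unfold tables; fun_prop

@[fun_prop]
theorem PT_root {T : α → KT} (hx : PT ∅ x) (hT : PT ∅ T) :
    PT ∅ (fun p => St.root (x p) (T p)) := by
  unfold root; fun_prop

@[fun_prop]
theorem PT_next {T : α → KT} (hx : PT ∅ x) (hT : PT ∅ T) :
    PT ∅ (fun p => St.next (x p) (T p)) := by
  unfold next; fun_prop

end TStrat

end Vale.Agent.P315.Q
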